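import Vale.Agent.P004.R2.H123.Iface
import Vale.Agent.P004G.H628.Poly

/-!
# P004, module M0x: the mollifier `Mfx` as a Dirichlet polynomial
-/

open Real Set

namespace P004G.H628.PX

variable [Crv]

open P004.H628 (yk_pos yk_anti lk_le sum_lk sum_lk')

/-- `F` is a Dirichlet polynomial with the coefficients `cm L K`, supported on products of primes
with `P`, of size at most `exp w` -/
def PolyP (F : (ℕ → ℝ) → ℝ) (L K : ℝ) (P : ℕ → Prop) (w : ℝ) : Prop :=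
  ∃ S : Finset ℕ, (∀ X : ℕ → ℝ, CM X → F X = ∑ a ∈ S, cm L K a * X a) ∧
    ∀ a ∈ S, a ≠ 0 ∧ (∀ p : ℕ, p.Prime → p ∣ a → P p) ∧ Real.log a ≤ w

lemma PolyP.mono {F : (ℕ → ℝ) → ℝ} {L K : ℝ} {P Q : ℕ → Prop} {v w : ℝ}
    (h : PolyP F L K P v) (hPQ : ∀ p, P p → Q p) (hvw : v ≤ w) : PolyP F L K Q w := by
  obtain ⟨S, h1, h2⟩ := h
  exact ⟨S, h1, fun a ha => ⟨(h2 a ha).1, fun p hp hpa => hPQ p ((h2 a ha).2.1 p hp hpa),
    (h2 a ha).2.2.trans hvw⟩⟩

lemma PolyP.one (L K : ℝ) (P : ℕ → Prop) : PolyP (fun _ => 1) L K P 0 := by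
  refine ⟨{1}, ?_, ?_⟩
  · intro X hX
    simp [cm, muc, hX.1]
  · intro a ha
    rw [Finset.mem_singleton] at ha
    subst ha
    refine ⟨one_ne_zero, ?_, by simp⟩
    intro p hp hp1
    exact absurd (Nat.dvd_one.mp hp1) hp.one_lt.ne'

lemma PolyP.mul {F G : (ℕ → ℝ) → ℝ} {L K : ℝ} {P Q : ℕ → Prop} {v w : ℝ}
    (hF : PolyP F L K P v) (hG : PolyP G L K Q w) (hd : ∀ p, P p → Q p → False) :
    PolyP (fun X => F X * G X) L K (fun p => P p ∨ Q p) (v + w) := by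
  classical
  obtain ⟨A, hA1, hA2⟩ := hF
  obtain ⟨S, hS1, hS2⟩ := hG
  have hcop : ∀ b ∈ A, ∀ a ∈ S, Nat.Coprime b a := by
    intro b hb a ha
    rw [Nat.coprime_iff_gcd_eq_one]
    by_contra hne
    obtain ⟨p, hp, hpd⟩ := Nat.exists_prime_and_dvd hne
    exact hd p ((hA2 b hb).2.1 p hp (hpd.trans (Nat.gcd_dvd_left _ _)))
      ((hS2 a ha).2.1 p hp (hpd.trans (Nat.gcd_dvd_right _ _)))
  have hinj : Set.InjOn (fun q : ℕ × ℕ => q.1 * q.2) (↑(A ×ˢ S) : Set (ℕ × ℕ)) := by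
    rintro ⟨b, a⟩ h1 ⟨b', a'⟩ h2 h3
    rw [Finset.mem_coe, Finset.mem_product] at h1 h2
    simp only at h1 h2 h3
    have e1 : b = b' := by
      apply Nat.dvd_antisymm
      · exact (hcop b h1.1 a' h2.2).dvd_of_dvd_mul_right (h3 ▸ Dvd.intro _ rfl)
      · exact (hcop b' h2.1 a h1.2).dvd_of_dvd_mul_right (h3 ▸ Dvd.intro _ rfl)
    subst e1
    have e2 : a = a' := Nat.eq_of_mul_eq_mul_left (Nat.pos_of_ne_zero (hA2 b h1.1).1) h3
    rw [e2]
  refine ⟨(A ×ˢ S).image (fun q : ℕ × ℕ => q.1 * q.2), ?_, ?_⟩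
  · intro X hX
    beta_reduce
    rw [hA1 X hX, hS1 X hX, Finset.sum_image hinj, Finset.sum_product, Finset.sum_mul_sum]
    refine Finset.sum_congr rfl fun b hb => Finset.sum_congr rfl fun a ha => ?_
    rw [cm_mul L K (hA2 b hb).1 (hS2 a ha).1 (hcop b hb a ha),
      hX.2 b a (hA2 b hb).1 (hS2 a ha).1]
    ring
  · intro c hc
    rw [Finset.mem_image] at hc
    obtain ⟨⟨b, a⟩, h1, rfl⟩ := hc
    rw [Finset.mem_product] at h1
    simp only at h1 ⊢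
    obtain ⟨hb, ha⟩ := h1
    obtain ⟨hb0, hb1, hb2⟩ := hA2 b hb
    obtain ⟨ha0, ha1, ha2⟩ := hS2 a ha
    refine ⟨mul_ne_zero hb0 ha0, ?_, ?_⟩
    · intro p hp hpd
      rcases hp.dvd_mul.mp hpd with h | h
      · exact Or.inl (hb1 p hp h)
      · exact Or.inr (ha1 p hp h)
    · rw [Nat.cast_mul, Real.log_mul (by exact_mod_cast hb0) (by exact_mod_cast ha0)]
      exact add_le_add hb2 ha2

/-- primes dividing a divisor of a product of squares of primes -/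
lemma prime_mem {I : Finset ℕ} (hI : ∀ p ∈ I, p.Prime) {a p : ℕ} (ha : a ∣ ∏ q ∈ I, q ^ 2)
    (hp : p.Prime) (hpa : p ∣ a) : p ∈ I := by
  have h1 : p ∣ ∏ q ∈ I, q ^ 2 := hpa.trans ha
  rw [hp.prime.dvd_finsetProd_iff] at h1
  obtain ⟨q, hq, hpq⟩ := h1
  have h2 : p ∣ q := hp.dvd_of_dvd_pow hpq
  rw [(Nat.prime_dvd_prime_iff_eq hp (hI q hq)).mp h2]
  exact hq

lemma block {L K : ℝ} (hL : 0 ≤ L / K) (k : ℕ) :
    PolyP (Mkx L K k) L K (fun p => p ∈ Ik (L / K) k)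
      ((⌈K⌉₊ * lk k : ℕ) * (L / K / 8000 * Real.exp (-(k : ℝ)))) := by
  have hI : ∀ p ∈ Ik (L / K) k, p.Prime := fun p hp => (mem_Ik.mp hp).2.1
  refine ⟨Akx L K k, fun X _ => rfl, ?_⟩
  intro a ha
  unfold Akx at ha
  rw [Finset.mem_filter, Nat.mem_divisors] at ha
  obtain ⟨⟨h1, h1'⟩, h2⟩ := ha
  have h0 : a ≠ 0 := fun h => h1' (by simpa [h] using h1)
  refine ⟨h0, fun p hp hpa => prime_mem hI h1 hp hpa, ?_⟩
  have h3 : (a : ℝ) ≤ (yk (L / K) k) ^ (a.primeFactorsList.length) := by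
    have h4 : ∀ l : List ℕ, (∀ p ∈ l, (p : ℝ) ≤ yk (L / K) k) →
        ((l.prod : ℕ) : ℝ) ≤ (yk (L / K) k) ^ l.length := by
      intro l
      induction l with
      | nil => intro _; simp
      | cons p l ih =>
        intro h
        rw [List.prod_cons, List.length_cons, pow_succ, Nat.cast_mul, mul_comm]
        have h5 := ih (fun q hq => h q (List.mem_cons_of_mem _ hq))
        have h6 := h p List.mem_cons_self
        have h7 := (yk_pos (L / K) k).le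
        exact mul_le_mul h5 h6 (Nat.cast_nonneg _) (pow_nonneg h7 _)
    have h5 := h4 a.primeFactorsList (fun p hp => by
      have hp1 := Nat.prime_of_mem_primeFactorsList hp
      have hp2 := Nat.dvd_of_mem_primeFactorsList hp
      exact (mem_Ik.mp (prime_mem hI h1 hp1 hp2)).1)
    rwa [Nat.prod_primeFactorsList h0] at h5
  have h6 : (0 : ℝ) < a := by exact_mod_cast Nat.pos_of_ne_zero h0
  have h7 := Real.log_le_log h6 h3
  rw [Real.log_pow] at h7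
  have h8 : Real.log (yk (L / K) k) = L / K / 8000 * Real.exp (-(k : ℝ)) := by
    unfold yk; rw [Real.log_exp]
  rw [h8] at h7
  have h9 : (a.primeFactorsList.length : ℝ) ≤ (⌈K⌉₊ * lk k : ℕ) := by
    exact_mod_cast h2
  refine h7.trans (mul_le_mul_of_nonneg_right h9 ?_)
  positivity

lemma blocks {L K : ℝ} (hL : 0 ≤ L / K) (T : Finset ℕ) :
    PolyP (fun X => ∏ k ∈ T, Mkx L K k X) L K (fun p => ∃ k ∈ T, p ∈ Ik (L / K) k)
      (∑ k ∈ T, (⌈K⌉₊ * lk k : ℕ) * (L / K / 8000 * Real.exp (-(k : ℝ)))) := by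
  induction T using Finset.induction_on with
  | empty => simpa using PolyP.one L K (fun p => ∃ k ∈ (∅ : Finset ℕ), p ∈ Ik (L / K) k)
  | insert k T hk ih =>
    have h := (block hL k).mul ih (fun p h1 ⟨l, hl, h2⟩ => hk ((Ik_disj hL h1 h2) ▸ hl))
    have e : (fun X : ℕ → ℝ => ∏ l ∈ insert k T, Mkx L K l X) =
        fun X => Mkx L K k X * ∏ l ∈ T, Mkx L K l X := by
      funext X
      rw [Finset.prod_insert hk]
    rw [e, Finset.sum_insert hk]
    refine h.mono ?_ le_rfl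
    rintro p (h1 | ⟨l, hl, h2⟩)
    · exact ⟨k, Finset.mem_insert_self _ _, h1⟩
    · exact ⟨l, Finset.mem_insert_of_mem hl, h2⟩

lemma mem_Ibx {L K : ℝ} {p : ℕ} : p ∈ Ibx L K ↔ (p : ℝ) ≤ yk L 0 ∧ p.Prime ∧ ¬ p ∣ bd ∧
    yk (L / K) 0 < p := by
  unfold Ibx
  rw [Finset.mem_filter, Finset.mem_range, Nat.lt_succ_iff, Nat.le_floor_iff (yk_pos L 0).le]

lemma big (L K : ℝ) : PolyP (Mbx L K) L K (fun p => p ∈ Ibx L K) (L / 4000) := by
  have hI : ∀ p ∈ Ibx L K, p.Prime := fun p hp => (mem_Ibx.mp hp).2.1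
  refine ⟨Abx L K, fun X _ => rfl, ?_⟩
  intro a ha
  unfold Abx at ha
  rw [Finset.mem_filter, Nat.mem_divisors] at ha
  obtain ⟨⟨h1, h1'⟩, h2⟩ := ha
  have h0 : a ≠ 0 := fun h => h1' (by simpa [h] using h1)
  refine ⟨h0, fun p hp hpa => prime_mem hI h1 hp hpa, ?_⟩
  have h6 : (0 : ℝ) < a := by exact_mod_cast Nat.pos_of_ne_zero h0
  rwa [Real.log_le_iff_le_exp h6]

lemma sum_bd {L K : ℝ} (hL : 0 ≤ L) (hK : 1 ≤ K) (T : Finset ℕ) :
    ∑ k ∈ T, ((⌈K⌉₊ * lk k : ℕ) : ℝ) * (L / K / 8000 * Real.exp (-(k : ℝ))) ≤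
      L / 4000 * ∑ k ∈ T, (lk k : ℝ) * Real.exp (-(k : ℝ)) := by
  rw [Finset.mul_sum]
  refine Finset.sum_le_sum fun k _ => ?_
  have h1 : (⌈K⌉₊ : ℝ) ≤ 2 * K := by
    have := (Nat.ceil_lt_add_one (by linarith : 0 ≤ K)).le
    linarith
  have hK0 : 0 < K := by linarith
  have h2 : (⌈K⌉₊ : ℝ) * (L / K) ≤ 2 * L := by
    calc (⌈K⌉₊ : ℝ) * (L / K) ≤ 2 * K * (L / K) := by gcongr
      _ = 2 * L := by field_simp
  push_cast
  calc (⌈K⌉₊ : ℝ) * lk k * (L / K / 8000 * Real.exp (-(k : ℝ)))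
      = ((⌈K⌉₊ : ℝ) * (L / K)) / 8000 * ((lk k : ℝ) * Real.exp (-(k : ℝ))) := by ring
    _ ≤ (2 * L) / 8000 * ((lk k : ℝ) * Real.exp (-(k : ℝ))) := by gcongr
    _ = _ := by ring

lemma sum_zero (k₂ : ℕ) : ∑ k ∈ Finset.Ico 0 k₂, (lk k : ℝ) * Real.exp (-(k : ℝ)) ≤ 4.2 := by
  rcases Nat.eq_zero_or_pos k₂ with rfl | hk
  · simp; norm_num
  · rw [Finset.sum_eq_sum_Ico_succ_bot hk]
    have h1 := sum_lk' 1 k₂
    have h0 : lk 0 = 1 := by
      unfold P004.lk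
      simp
    have h2 : Real.exp (-((1 : ℕ) : ℝ) / 2) ≤ 0.62 := by
      have h3 : Real.exp (-((1 : ℕ) : ℝ) / 2) ^ 2 = Real.exp (-1) := by
        rw [← Real.exp_nat_mul]; congr 1; push_cast; ring
      have h4 : Real.exp (-1) ≤ 0.37 := by
        rw [Real.exp_neg]
        have := Real.exp_one_gt_d9
        rw [inv_le_comm₀ (Real.exp_pos _) (by norm_num)]
        norm_num
        linarith
      have h5 := Real.exp_pos (-((1 : ℕ) : ℝ) / 2)
      nlinarith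
    rw [h0]
    simp only [Nat.cast_one, CharP.cast_eq_zero, neg_zero, Real.exp_zero, mul_one, zero_add] at h1 h2 ⊢
    linarith

theorem pfPolyx : StPolyx := by
  intro L K k₁ k₂ hL hK hKL
  have hL0 : 0 < L := by linarith
  have hK0 : 0 < K := by linarith
  have hL'0 : 0 ≤ L / K := by positivity
  have hL'L : L / K ≤ L := div_le_self hL0.le hK
  have hyk : ∀ k, yk (L / K) k ≤ yk L k := by
    intro k
    unfold yk
    apply Real.exp_le_exp.2
    have := Real.exp_pos (-(k : ℝ))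
    gcongr
  have key : PolyP (Mfx L K k₁ k₂) L K (fun p => ¬ p ∣ bd ∧ (p : ℝ) ≤ yk L k₁)
      (L / 700 * Real.exp (-(k₁ : ℝ) / 2)) := by
    have hbl := blocks hL'0 (K := K) (Finset.Ico k₁ k₂)
    have hprime : ∀ p, (∃ k ∈ Finset.Ico k₁ k₂, p ∈ Ik (L / K) k) →
        ¬ p ∣ bd ∧ (p : ℝ) ≤ yk L k₁ := by
      rintro p ⟨k, hk, hp⟩
      refine ⟨(mem_Ik.mp hp).2.2.1, ?_⟩
      exact ((mem_Ik.mp hp).1.trans (yk_anti hL'0 (Finset.mem_Ico.mp hk).1)).trans (hyk k₁)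
    rcases Nat.eq_zero_or_pos k₁ with rfl | hk₁
    · have h := (big L K).mul hbl (fun p h1 ⟨k, hk, h2⟩ => by
        have h3 := (mem_Ik.mp h2).1.trans (yk_anti hL'0 (Nat.zero_le k))
        have h4 := (mem_Ibx.mp h1).2.2.2
        linarith)
      have e : Mfx L K 0 k₂ = fun X => Mbx L K X * ∏ k ∈ Finset.Ico 0 k₂, Mkx L K k X := by
        funext X
        unfold Mfx
        rw [if_pos rfl]
      rw [e]
      refine h.mono ?_ ?_
      · rintro p (h1 | h1)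
        · exact ⟨(mem_Ibx.mp h1).2.2.1, (mem_Ibx.mp h1).1⟩
        · exact hprime p h1
      · have h1 := sum_bd hL0.le hK (Finset.Ico 0 k₂)
        have h2 := sum_zero k₂
        have h3 : L / 4000 * ∑ k ∈ Finset.Ico 0 k₂, (lk k : ℝ) * Real.exp (-(k : ℝ)) ≤
            L / 4000 * 4.2 := by gcongr
        simp only [CharP.cast_eq_zero, neg_zero, zero_div, Real.exp_zero, mul_one]
        linarith
    · have e : Mfx L K k₁ k₂ = fun X => ∏ k ∈ Finset.Ico k₁ k₂, Mkx L K k X := by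
        funext X
        unfold Mfx
        rw [if_neg (by omega), one_mul]
      rw [e]
      refine hbl.mono hprime ?_
      have h1 := sum_bd hL0.le hK (Finset.Ico k₁ k₂)
      have h2 := sum_lk' k₁ k₂
      have h3 : L / 4000 * ∑ k ∈ Finset.Ico k₁ k₂, (lk k : ℝ) * Real.exp (-(k : ℝ)) ≤
          L / 4000 * (5 * Real.exp (-(k₁ : ℝ) / 2)) := by gcongr
      have h4 := Real.exp_pos (-(k₁ : ℝ) / 2)
      have h5 : 0 < L * Real.exp (-(k₁ : ℝ) / 2) := by positivity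
      linarith
  obtain ⟨S, hS1, hS2⟩ := key
  classical
  refine ⟨S.filter (fun a => muc a ≠ 0), cm L K, ?_, ?_⟩
  · intro X hX
    rw [hS1 X hX, Finset.sum_filter_of_ne]
    intro a _ h1 h2
    apply h1
    unfold cm
    rw [h2]
    ring
  · intro a ha
    rw [Finset.mem_filter] at ha
    obtain ⟨ha, hmu⟩ := ha
    obtain ⟨h0, h1, h2⟩ := hS2 a ha
    have ha1 : (1 : ℝ) ≤ a := by exact_mod_cast Nat.pos_of_ne_zero h0
    have ha0 : (0 : ℝ) < a := by linarith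
    refine ⟨?_, ⟨h0, ?_⟩, ?_, ?_⟩
    · unfold cm
      rw [abs_mul, abs_of_pos (Real.rpow_pos_of_pos ha0 _)]
      have h3 : (a : ℝ) ^ (-1 - K / L) ≤ (a : ℝ) ^ (-1 : ℝ) := by
        apply Real.rpow_le_rpow_of_exponent_le ha1
        have : 0 ≤ K / L := by positivity
        linarith
      calc |muc a| * (a : ℝ) ^ (-1 - K / L) ≤ a * (a : ℝ) ^ (-1 : ℝ) :=
            mul_le_mul (muc_le h0) h3 (Real.rpow_pos_of_pos ha0 _).le ha0.le
        _ = 1 := by rw [Real.rpow_neg_one, mul_inv_cancel₀ ha0.ne']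
    · rw [Nat.coprime_iff_gcd_eq_one]
      by_contra hne
      obtain ⟨p, hp, hpd⟩ := Nat.exists_prime_and_dvd hne
      exact (h1 p hp (hpd.trans (Nat.gcd_dvd_left _ _))).1 (hpd.trans (Nat.gcd_dvd_right _ _))
    · rw [← Real.log_le_iff_le_exp ha0]
      exact h2
    · intro p hp hpa
      exact (h1 p hp hpa).2

end P004G.H628.PX
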