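import Vale.Agent.P004.R2.H618.R2x
import Vale.Agent.P004.R2.H663.Big

/-!
# P004, module R4x: second moment of the first blocks of `Mfx`
-/

open Finset Real

namespace P004G.H293.R4X

variable [Crv]

open P004.H293

open P004.H628 (yk_pos yk_anti)
open P004G.H628 (mem_Ik Ik_disj)
open P004G.H293.H618 (Mkx_eq mem_Ibx Ibx_sub_QN Mbx_depOn yk_mono EE_blocks')

lemma Ibx_disj {L K : ℝ} (hL : 0 ≤ L / K) (J : Finset ℕ) :
    Disjoint (J.biUnion (fun k => Ik (L / K) k)) (Ibx L K) := by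
  rw [Finset.disjoint_left]
  intro p hp hq
  obtain ⟨k, _, hk⟩ := mem_biUnion.1 hp
  have h1 := (mem_Ik.1 hk).1.trans (yk_anti hL (Nat.zero_le k))
  have h2 := (mem_Ibx.1 hq).2.2.2
  linarith

lemma EN_Mfx (hc : StCoef) {L K : ℝ} (hL : 1 ≤ L) (hK : 1 ≤ K) (hKL : K ≤ L) (k₂ : ℕ) {N : ℕ}
    (hN : yk L 0 < N) :
    EN N (fun X => (Mfx L K 0 k₂ X) ^ 2) ≤
      Real.exp (11000 * ∑ k ∈ Ico 0 k₂, ∑ p ∈ Ik (L / K) k, (1 : ℝ) / p) *
        (Real.exp 24000000 * K ^ (24000000 : ℕ)) := by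
  have hL0 : 0 < L := by linarith
  have hK0 : 0 < K := by linarith
  have hL'0 : 0 ≤ L / K := by positivity
  have hN' : yk (L / K) 0 < N :=
    lt_of_le_of_lt (yk_mono (div_le_self hL0.le hK) 0) hN
  rw [P004.H628.EN_eq]
  have h1 := EE_blocks' hL'0 hN' (Ico 0 k₂)
    (fun k ω => MM (Ik (L / K) k) (⌈K⌉₊ * lk k) (K / L) ω ^ 2)
    (fun k _ => MM2_depOn k _ _) (Ibx_sub_QN hN) (Ibx_disj hL'0 _)
    (fun ω => Mbx L K (P004.H628.ffx ω) ^ 2)
    (by
      intro ω ω' h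
      have h2 := Mbx_depOn L K ω ω' h
      simp only at h2 ⊢
      rw [h2])
    (fun _ _ => 1)
  simp only [Finset.prod_const_one, mul_one, E1_const] at h1
  have h2 : (fun ω => (Mfx L K 0 k₂ (P004.H628.ffx ω)) ^ 2) =
      fun ω => (∏ k ∈ Ico 0 k₂, MM (Ik (L / K) k) (⌈K⌉₊ * lk k) (K / L) ω ^ 2) *
        Mbx L K (P004.H628.ffx ω) ^ 2 := by
    funext ω
    unfold Mfx
    rw [if_pos rfl, mul_pow, mul_comm, Finset.prod_pow]
    congr 2
  rw [h2, h1]
  have hblk0 : 0 ≤ ∏ k ∈ Ico 0 k₂, EE (Ik (L / K) k)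
      (fun ω => MM (Ik (L / K) k) (⌈K⌉₊ * lk k) (K / L) ω ^ 2) :=
    Finset.prod_nonneg fun k _ => EE_nonneg (fun p hp => (Ik_prime hp).one_lt.le)
      fun ω _ => by positivity
  have hb0 : 0 ≤ EE (Ibx L K) (fun ω => Mbx L K (P004.H628.ffx ω) ^ 2) :=
    EE_nonneg (fun p hp => (mem_Ibx.1 hp).2.1.one_lt.le) fun ω _ => by positivity
  refine mul_le_mul ?_ (X663.EE_Big1 hc hL hK) hb0 (Real.exp_pos _).le
  rw [Finset.mul_sum, Real.exp_sum]
  refine Finset.prod_le_prod (fun k _ => ?_) fun k _ => ?_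
  · exact EE_nonneg (fun p hp => (Ik_prime hp).one_lt.le) fun ω _ => by positivity
  · refine (EE_MM2 (fun p hp => Ik_prime hp) (fun p hp => Ik_three hp) hc (⌈K⌉₊ * lk k)
      (by positivity)).trans ?_
    rw [Finset.mul_sum, Real.exp_sum]
    refine Finset.prod_le_prod (fun p _ => by positivity) fun p _ => ?_
    linarith [Real.add_one_le_exp (11000 * ((1 : ℝ) / p))]

theorem pfR4x (hc : StCoef) : StR4x := by
  have hE : (1 : ℝ) ≤ Real.exp 24000000 := Real.one_le_exp (by norm_num)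
  have hE2 : (1 : ℝ) ≤ Real.exp 440000 := Real.one_le_exp (by norm_num)
  refine ⟨Real.exp 24000000 * Real.exp 440000, 24000000 + 88000, by nlinarith,
    fun L K k₂ N hL hK hKL hN => ⟨?_, ?_⟩⟩
  · refine (EN_Mfx hc hL hK hKL k₂ hN).trans ?_
    have hL'0 : 0 ≤ L / K := by positivity
    have h1 : ∑ k ∈ Ico 0 k₂, ∑ p ∈ Ik (L / K) k, (1 : ℝ) / p ≤ ∑ k ∈ Ico 0 k₂, 40 :=
      Finset.sum_le_sum fun k _ => sum_Ik hL'0 k
    rw [Finset.sum_const, Nat.card_Ico, nsmul_eq_mul, Nat.sub_zero] at h1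
    have h2 : Real.exp (11000 * ∑ k ∈ Ico 0 k₂, ∑ p ∈ Ik (L / K) k, (1 : ℝ) / p) ≤
        Real.exp 440000 ^ k₂ := by
      rw [← Real.exp_nat_mul]
      apply Real.exp_le_exp.2
      linarith
    have h3 : K ^ (24000000 : ℕ) ≤ K ^ (24000000 + 88000 : ℕ) :=
      pow_le_pow_right₀ hK (Nat.le_add_right _ _)
    have hK0 : 0 ≤ K := by linarith
    generalize Real.exp 24000000 = e₁ at *
    generalize Real.exp 440000 = e₂ at *
    have h4 : e₂ ^ k₂ * e₁ ≤ (e₁ * e₂) ^ (k₂ + 1) := by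
      rw [pow_succ, mul_pow]
      have a1 : 1 ≤ e₁ ^ k₂ := one_le_pow₀ hE
      have a2 : 0 < e₂ ^ k₂ := by positivity
      calc e₂ ^ k₂ * e₁ = (1 * e₂ ^ k₂) * (e₁ * 1) := by ring
        _ ≤ (e₁ ^ k₂ * e₂ ^ k₂) * (e₁ * e₂) := by gcongr
    calc Real.exp (11000 * ∑ k ∈ Ico 0 k₂, ∑ p ∈ Ik (L / K) k, (1 : ℝ) / p) *
          (e₁ * K ^ (24000000 : ℕ)) ≤ e₂ ^ k₂ * (e₁ * K ^ (24000000 + 88000 : ℕ)) := by gcongr
      _ = (e₂ ^ k₂ * e₁) * K ^ (24000000 + 88000 : ℕ) := by ring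
      _ ≤ _ := by gcongr
  · refine (EN_Mfx hc hL hK hKL _ hN).trans ?_
    have hL0 : 0 < L := by linarith
    have hK0 : 0 < K := by linarith
    have hL'0 : 0 ≤ L / K := by positivity
    have hL'L : L / K ≤ L := div_le_self hL0.le hK
    rw [← Finset.sum_biUnion (Ik_pairwise hL'0 _)]
    set U := (Ico 0 ⌈L⌉₊).biUnion (fun k => Ik (L / K) k) with hU
    have hUp : ∀ p ∈ U, p.Prime := by
      intro p hp
      obtain ⟨k, _, hk⟩ := mem_biUnion.1 hp
      exact Ik_prime hk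
    have hUy : ∀ p ∈ U, (p : ℝ) ≤ yk L 0 := by
      intro p hp
      obtain ⟨k, _, hk⟩ := mem_biUnion.1 hp
      exact ((mem_Ik.1 hk).1.trans (yk_anti hL'0 (Nat.zero_le k))).trans (yk_mono hL'L 0)
    have hlogL : 0 ≤ Real.log L := Real.log_nonneg hL
    have hsum : ∑ p ∈ U, (1 : ℝ) / p ≤ 8 * (1 + Real.log L) := by
      rcases lt_or_ge (yk L 0) 2 with h | h
      · have : U = ∅ := by
          rw [Finset.eq_empty_iff_forall_notMem]
          intro p hp
          have h3 : (2 : ℝ) ≤ p := by exact_mod_cast (hUp p hp).two_le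
          linarith [hUy p hp]
        rw [this]; simp; linarith
      · have h1 := sum_inv_range hUp le_rfl h (fun p hp => by exact_mod_cast (hUp p hp).two_le) hUy
        refine h1.trans ?_
        have h2 : Real.log (Real.log (yk L 0) / Real.log 2) ≤ Real.log L := by
          apply Real.log_le_log
          · have := Real.log_pos (by linarith : 1 < yk L 0)
            have := Real.log_pos (by norm_num : (1 : ℝ) < 2)
            positivity
          · rw [div_le_iff₀ (Real.log_pos (by norm_num)), log_yk]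
            simp only [CharP.cast_eq_zero, neg_zero, Real.exp_zero, mul_one]
            have := Real.log_two_gt_d9
            nlinarith
        linarith
    have h1 : Real.exp (11000 * ∑ p ∈ U, (1 : ℝ) / p) ≤ Real.exp 88000 * L ^ (88000 : ℕ) := by
      calc Real.exp (11000 * ∑ p ∈ U, (1 : ℝ) / p) ≤ Real.exp (88000 + 88000 * Real.log L) := by
            apply Real.exp_le_exp.2; linarith
        _ = Real.exp 88000 * L ^ (88000 : ℕ) := by
            rw [Real.exp_add]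
            congr 1
            have : (88000 : ℝ) * Real.log L = ((88000 : ℕ) : ℝ) * Real.log L := by norm_num
            rw [this, Real.exp_nat_mul, Real.exp_log hL0]
    have h2 : Real.exp 88000 ≤ Real.exp 440000 := Real.exp_le_exp.2 (by norm_num)
    have h3 : K ^ (24000000 : ℕ) ≤ L ^ (24000000 : ℕ) := pow_le_pow_left₀ hK0.le hKL _
    have h4 : L ^ (88000 : ℕ) * L ^ (24000000 : ℕ) = L ^ (24000000 + 88000 : ℕ) := by
      rw [← pow_add, Nat.add_comm]
    generalize Real.exp (11000 * ∑ p ∈ U, (1 : ℝ) / p) = e₀ at *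
    generalize Real.exp 24000000 = e₁ at *
    generalize Real.exp 440000 = e₂ at *
    generalize Real.exp 88000 = e₃ at *
    calc e₀ * (e₁ * K ^ (24000000 : ℕ))
        ≤ (e₂ * L ^ (88000 : ℕ)) * (e₁ * L ^ (24000000 : ℕ)) := by
          refine mul_le_mul (h1.trans ?_) ?_ (by positivity) (by positivity)
          · gcongr
          · gcongr
      _ = (e₁ * e₂) * (L ^ (88000 : ℕ) * L ^ (24000000 : ℕ)) := by ring
      _ = _ := by rw [h4]

end P004G.H293.R4X
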