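import Vale.Agent.P004G.H503.Fin3
import Vale.Agent.P004.R2.H428.Mollx
import Vale.Agent.P004.R2.H663.R3x
import Vale.Agent.P004.R2.H880.R4x
import Vale.Agent.P004.R2.H880.Polyx
import Vale.Agent.P004.R2.H925.Blockx
import Vale.Agent.P004.R2.H496.Momx

/-!
# P004: exponentially small tails, assembly of the modules
-/

namespace P004G

section

variable [Crv]

theorem big2 : H293.H618.StBig2 := by
  refine ⟨Real.exp 24000000, 24000000, Real.one_le_exp (by norm_num), ?_⟩
  intro L K z hL hK _ hz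
  exact H293.X663.EE_Big2 pfCoef hL hK hz

theorem mollx (hFull : StFull) : StMollx :=
  have hF : P004.StFour := P004.pfFour
  H428.pfMollx pfCoef P004.pfDiv pfTw0 pfTw1 (tw2 hFull) (pfPass pfCoef) (pfPassN pfCoef)
    (pfLim pfCoef) (pfLN pfCoef) (H293.H618.pfR2x pfCoef big2) (H293.X663.pfR3x pfCoef)
    (H293.R4X.pfR4x pfCoef) H628.PX.pfPolyx
    (P004.Moll.repA hF) (P004.Moll.repB hF) (P004.Moll.repC hF)

theorem blockx (hF : StFold) (hV : StVan2) : StBlockx :=
  pfBlockx (full hF) hV pfWf (mollx (full hF))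

end

theorem mainx : ∀ [Crv], StTF → StMomx := fun h => pfMomx (blockx (pfZ1 h) (pfZ2 h))

end P004G
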