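import Mathlib

/-!
# P004: numerical lemmas for the uniform exponential tail
-/

open Real

namespace P004G
namespace Numy

lemma log_le_mul {t y : ℝ} (ht : 0 < t) (hy : 0 < y) : Real.log y ≤ t * y + Real.log (1 / t) := by
  have h := Real.log_le_sub_one_of_pos (mul_pos ht hy)
  rw [Real.log_mul ht.ne' hy.ne'] at h
  rw [one_div, Real.log_inv]
  linarith

lemma one_le_ell {K : ℝ} (hK : 1 ≤ K) : 1 ≤ Real.log (2 + K) := by
  rw [Real.le_log_iff_exp_le (by linarith)]
  linarith [Real.exp_one_lt_d9]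

/-- factorials of numbers of size `ε K / log (2 + K)` -/
lemma fact_bd {c ε K : ℝ} {m : ℕ} (hc : 1 ≤ c) (hε : 0 < ε) (hε8 : ε ≤ 1 / 8) (hK : 1 ≤ K)
    (hm : (m : ℝ) ≤ c + 8 * ε * K / Real.log (2 + K)) :
    (m.factorial : ℝ) ≤ Real.exp (c * Real.log c + c * Real.log (2 + K) +
      8 * ε * K * (1 + Real.log c)) := by
  have hℓ := one_le_ell hK
  set ℓ := Real.log (2 + K) with hℓdef
  have hℓ0 : 0 < ℓ := by linarith
  have hc0 : 0 < c := by linarith
  have hlc : 0 ≤ Real.log c := Real.log_nonneg hc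
  have hεK : 0 < ε * K := by positivity
  rcases Nat.eq_zero_or_pos m with rfl | hm0
  · simp only [Nat.factorial_zero, Nat.cast_one]
    apply Real.one_le_exp
    positivity
  · have hmR : (1 : ℝ) ≤ m := by exact_mod_cast hm0
    have hmR0 : (0 : ℝ) < m := by linarith
    have h1 : (m.factorial : ℝ) ≤ (m : ℝ) ^ m := by exact_mod_cast Nat.factorial_le_pow m
    have h2 : (m : ℝ) ^ m = Real.exp (m * Real.log m) := by
      rw [Real.exp_nat_mul, Real.exp_log hmR0]
    rw [h2] at h1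
    refine h1.trans (Real.exp_le_exp.2 ?_)
    have h3 : 8 * ε * K / ℓ ≤ K := by
      rw [div_le_iff₀ hℓ0]
      nlinarith
    have h4 : (m : ℝ) ≤ c * (2 + K) := by nlinarith
    have h5 : Real.log m ≤ Real.log c + ℓ := by
      rw [hℓdef, ← Real.log_mul hc0.ne' (by linarith : (2 + K) ≠ 0)]
      exact Real.log_le_log hmR0 h4
    have h6 : 0 ≤ Real.log m := Real.log_nonneg hmR
    have h7 : 8 * ε * K / ℓ * Real.log c ≤ 8 * ε * K * Real.log c := by
      refine mul_le_mul_of_nonneg_right ?_ hlc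
      exact div_le_self (by positivity) hℓ
    have h8 : 8 * ε * K / ℓ * ℓ = 8 * ε * K := div_mul_cancel₀ _ hℓ0.ne'
    calc (m : ℝ) * Real.log m ≤ (c + 8 * ε * K / ℓ) * (Real.log c + ℓ) := by gcongr
      _ = c * Real.log c + c * ℓ + 8 * ε * K / ℓ * Real.log c + 8 * ε * K / ℓ * ℓ := by ring
      _ ≤ _ := by rw [h8]; linarith

/-- polynomials of degree `ε K / log (2 + K)` -/
lemma poly_bd {c ε : ℝ} (hc : 1 ≤ c) (hε : 0 < ε) (hε4 : ε ≤ 1 / 400) :
    ∃ P : ℝ, 1 ≤ P ∧ ∀ (K : ℝ) (D : ℕ), 1 ≤ K → (D : ℝ) ≤ c + 8 * ε * K / Real.log (2 + K) →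
      (1 + 4 * K) ^ D ≤ P * Real.exp (K / 4) := by
  have hc0 : 0 < c := by linarith
  have hl : 0 ≤ Real.log (24 * c) := Real.log_nonneg (by linarith)
  refine ⟨Real.exp (1 / 4 + 3 * c * Real.log (24 * c)), Real.one_le_exp (by positivity), ?_⟩
  intro K D hK hD
  have hℓ := one_le_ell hK
  set ℓ := Real.log (2 + K) with hℓdef
  have hℓ0 : 0 < ℓ := by linarith
  have h1 : (1 + 4 * K) ^ D = Real.exp (D * Real.log (1 + 4 * K)) := by
    rw [Real.exp_nat_mul, Real.exp_log (by linarith)]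
  rw [h1, ← Real.exp_add]
  apply Real.exp_le_exp.2
  have h2 : Real.log (1 + 4 * K) ≤ 3 * ℓ := by
    have : Real.log (1 + 4 * K) ≤ Real.log ((2 + K) ^ 3) := by
      apply Real.log_le_log (by linarith)
      nlinarith [mul_nonneg (by linarith : 0 ≤ K) (by linarith : 0 ≤ K),
        mul_nonneg (mul_nonneg (by linarith : 0 ≤ K) (by linarith : 0 ≤ K)) (by linarith : 0 ≤ K)]
    rw [Real.log_pow] at this
    push_cast at this
    exact this
  have h3 : 0 ≤ Real.log (1 + 4 * K) := Real.log_nonneg (by linarith)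
  have h4 : ℓ ≤ 1 / (24 * c) * (2 + K) + Real.log (24 * c) := by
    have := log_le_mul (t := 1 / (24 * c)) (y := 2 + K) (by positivity) (by linarith)
    rwa [one_div_one_div] at this
  have h5 : 8 * ε * K / ℓ * ℓ = 8 * ε * K := div_mul_cancel₀ _ hℓ0.ne'
  have h6 : 3 * c * ℓ ≤ (2 + K) / 8 + 3 * c * Real.log (24 * c) := by
    calc 3 * c * ℓ ≤ 3 * c * (1 / (24 * c) * (2 + K) + Real.log (24 * c)) := by gcongr
      _ = (2 + K) / 8 + 3 * c * Real.log (24 * c) := by field_simp; ring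
  have hpos : 0 ≤ c + 8 * ε * K / ℓ := by positivity
  calc (D : ℝ) * Real.log (1 + 4 * K) ≤ (c + 8 * ε * K / ℓ) * (3 * ℓ) := by gcongr
    _ = 3 * c * ℓ + 3 * (8 * ε * K / ℓ * ℓ) := by ring
    _ = 3 * c * ℓ + 24 * (ε * K) := by rw [h5]; ring
    _ ≤ _ := by
      have : ε * K ≤ 1 / 400 * K := by gcongr
      linarith

/-- a power of `L` against `exp (M ε K)` -/
lemma pow_bd {ε K L M : ℝ} {B : ℕ} (hε : 0 < ε) (hK : 1 ≤ K) (hM : 1 ≤ M)
    (hL : Real.exp (4 * M) ≤ L) (hKL : K ≤ L ^ (1 / (2 * M))) (hB : ε * K / Real.log (2 + K) ≤ B) :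
    L ^ (-(B : ℝ)) ≤ Real.exp (-(M * ε * K)) := by
  have hL0 : 0 < L := lt_of_lt_of_le (Real.exp_pos _) hL
  have hlL : 4 * M ≤ Real.log L := by rwa [Real.le_log_iff_exp_le hL0]
  have hℓ := one_le_ell hK
  set ℓ := Real.log (2 + K) with hℓdef
  have hℓ0 : 0 < ℓ := by linarith
  have hK0 : 0 < K := by linarith
  rw [Real.rpow_def_of_pos hL0]
  apply Real.exp_le_exp.2
  have h1 : Real.log K ≤ 1 / (2 * M) * Real.log L := by
    have := Real.log_le_log hK0 hKL
    rwa [Real.log_rpow hL0] at this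
  have h2 : ℓ ≤ 1 / M * Real.log L := by
    have h3 : ℓ ≤ Real.log (3 * K) := by
      rw [hℓdef]
      exact Real.log_le_log (by linarith) (by linarith)
    rw [Real.log_mul (by norm_num) hK0.ne'] at h3
    have h4 : Real.log 3 ≤ 2 := by
      have := Real.log_le_sub_one_of_pos (by norm_num : (0 : ℝ) < 3)
      linarith
    have h5 : (2 : ℝ) ≤ 1 / (2 * M) * Real.log L := by
      rw [one_div_mul_eq_div, le_div_iff₀ (by linarith)]
      linarith
    have h6 : 1 / M * Real.log L = 1 / (2 * M) * Real.log L + 1 / (2 * M) * Real.log L := by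
      field_simp; ring
    linarith
  have h7 : M * ℓ ≤ Real.log L := by
    rw [one_div_mul_eq_div, le_div_iff₀ (by linarith)] at h2
    linarith
  have h8 : M * ε * K ≤ Real.log L * B := by
    calc M * ε * K = (M * ℓ) * (ε * K / ℓ) := by field_simp
      _ ≤ Real.log L * B := by
        refine mul_le_mul h7 hB (by positivity) (by linarith)
  linarith

end Numy
end P004G
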