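import Vale.Agent.P004.R2.H925.Blockx
import Vale.Agent.P004.R2.H880.Numy

/-!
# P004: the bound for one block, with a constant which does not depend on the range
-/

open Real MeasureTheory Set
open scoped ENNReal

namespace P004G

variable [Crv]

open scoped Classical in
/-- Module I2y : the bound for one block. -/
def StBlocky : Prop :=
  ∃ c δ C : ℝ, 0 < c ∧ 0 < δ ∧ δ ≤ 1 ∧ 1 ≤ C ∧ ∀ (Y r : ℕ), 3 ≤ Y →
    (((sqZ Y).filter (fun m => Y < 2 * m.natAbs ∧ Van m r)).card : ℝ) ≤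
      C * Y * Real.exp (-c * min (r : ℝ) (Real.log Y ^ δ))

namespace Asmy

open P004.Asm (quad gather sqrt_bound sqrt_bound' cmain_ge exists_J Pol Pol_eval Pol_degree norm5 norm6
  wj_pos)
open Asm Asmx

/-- the size of the constant `κ₃` -/
lemma kappa_bd {A Af B a : ℕ} (ha : a = 2 * A + 1 + 8 * (A + Af + 1 + B)) {ε u v : ℝ}
    (hε : 0 < ε) (hε8 : ε ≤ 1 / 8) (hu : 0 ≤ u) (hv : 0 ≤ v) {K : ℝ} (hK : 1 ≤ K)
    (hB : (B : ℝ) ≤ ε * K / Real.log (2 + K) + 1) {c' : ℝ} (hc' : c' = 10 * A + 8 * Af + 17) :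
    u + v * ((a.factorial : ℝ) * ((2 + 2 * (A + B)).factorial : ℝ)) ≤
      (u + v * Real.exp (2 * c' * Real.log c' + 4 * c' * ε + 2 * c' * Real.log (1 / ε))) *
        Real.exp ((16 * (1 + Real.log c') + 2 * c') * (ε * K)) := by
  have hc1 : 1 ≤ c' := by
    have h1 : (0 : ℝ) ≤ A := Nat.cast_nonneg _
    have h2 : (0 : ℝ) ≤ Af := Nat.cast_nonneg _
    rw [hc']; linarith
  have hℓ := Numy.one_le_ell hK
  have hA0 : (0 : ℝ) ≤ A := Nat.cast_nonneg _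
  have hAf0 : (0 : ℝ) ≤ Af := Nat.cast_nonneg _
  have hq : 0 ≤ ε * K / Real.log (2 + K) := by positivity
  have e8 : 8 * ε * K / Real.log (2 + K) = 8 * (ε * K / Real.log (2 + K)) := by ring
  have h1 : (a : ℝ) ≤ c' + 8 * ε * K / Real.log (2 + K) := by
    rw [ha, hc', e8]
    push_cast
    linarith
  have h2 : ((2 + 2 * (A + B) : ℕ) : ℝ) ≤ c' + 8 * ε * K / Real.log (2 + K) := by
    rw [hc', e8]
    push_cast
    linarith
  have f1 := Numy.fact_bd hc1 hε hε8 hK h1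
  have f2 := Numy.fact_bd hc1 hε hε8 hK h2
  have h3 := Numy.log_le_mul hε (by linarith : 0 < 2 + K)
  have hlc : 0 ≤ Real.log c' := Real.log_nonneg hc1
  set ℓ := Real.log (2 + K) with hℓdef
  have hf0 : (0 : ℝ) ≤ ((2 + 2 * (A + B)).factorial : ℝ) := Nat.cast_nonneg _
  have hprod : (a.factorial : ℝ) * ((2 + 2 * (A + B)).factorial : ℝ) ≤
      Real.exp (2 * c' * Real.log c' + 4 * c' * ε + 2 * c' * Real.log (1 / ε)) *
        Real.exp ((16 * (1 + Real.log c') + 2 * c') * (ε * K)) := by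
    refine (mul_le_mul f1 f2 hf0 (Real.exp_pos _).le).trans ?_
    rw [← Real.exp_add, ← Real.exp_add]
    apply Real.exp_le_exp.2
    have h4 : 2 * c' * ℓ ≤ 2 * c' * (ε * (2 + K) + Real.log (1 / ε)) := by gcongr
    have e : 2 * c' * (ε * (2 + K) + Real.log (1 / ε)) =
        4 * c' * ε + 2 * c' * (ε * K) + 2 * c' * Real.log (1 / ε) := by ring
    rw [e] at h4
    have e2 : (16 * (1 + Real.log c') + 2 * c') * (ε * K) =
        16 * (ε * K) * (1 + Real.log c') + 2 * c' * (ε * K) := by ring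
    rw [e2]
    have e3 : 8 * ε * K * (1 + Real.log c') = 8 * (ε * K) * (1 + Real.log c') := by ring
    rw [e3]
    linarith
  have hE1 : 1 ≤ Real.exp ((16 * (1 + Real.log c') + 2 * c') * (ε * K)) := by
    apply Real.one_le_exp
    positivity
  calc u + v * ((a.factorial : ℝ) * ((2 + 2 * (A + B)).factorial : ℝ))
      ≤ u * Real.exp ((16 * (1 + Real.log c') + 2 * c') * (ε * K)) +
        v * (Real.exp (2 * c' * Real.log c' + 4 * c' * ε + 2 * c' * Real.log (1 / ε)) *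
        Real.exp ((16 * (1 + Real.log c') + 2 * c') * (ε * K))) := by
        refine add_le_add ?_ (mul_le_mul_of_nonneg_left hprod hv)
        exact le_mul_of_one_le_right hu hE1
    _ = _ := by ring

/-- the last step -/
lemma last_bd {G₁ G₂ G₃ κ U E₀ X₀ X₁ c₃ ε K C₆ : ℝ} (hG₁ : 0 ≤ G₁) (hG₂ : 0 ≤ G₂) (hG₃ : 0 ≤ G₃)
    (hU : 0 ≤ U) (hE₀ : E₀ = Real.exp (C₆ * (ε * K))) (hκ : κ ≤ U * E₀)
    (hX₀ : X₀ = Real.exp (-c₃ * K)) (hX₁ : X₁ ≤ Real.exp (-((C₆ + 1) * ε * K))) (hX₁0 : 0 ≤ X₁)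
    (hε : 0 < ε) (hK : 1 ≤ K) (hC₆ : 0 ≤ C₆) (hc₃ : C₆ * ε ≤ c₃ / 2) :
    (G₁ + G₂ * (G₃ + κ)) * (X₀ + X₁) ≤
      2 * (G₁ + G₂ * (G₃ + U)) * Real.exp (-(min (c₃ / 2) ε) * K) := by
  have hK0 : 0 < K := by linarith
  have hE1 : 1 ≤ E₀ := by
    rw [hE₀]; apply Real.one_le_exp; positivity
  have h1 : G₁ + G₂ * (G₃ + κ) ≤ (G₁ + G₂ * (G₃ + U)) * E₀ := by
    have a1 : G₁ ≤ G₁ * E₀ := le_mul_of_one_le_right hG₁ hE1
    have a2 : G₃ ≤ G₃ * E₀ := le_mul_of_one_le_right hG₃ hE1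
    have a3 : G₂ * (G₃ + κ) ≤ G₂ * (G₃ * E₀ + U * E₀) := by gcongr
    calc G₁ + G₂ * (G₃ + κ) ≤ G₁ * E₀ + G₂ * (G₃ * E₀ + U * E₀) := add_le_add a1 a3
      _ = _ := by ring
  have hX₀0 : 0 < X₀ := by rw [hX₀]; exact Real.exp_pos _
  have h2 : E₀ * (X₀ + X₁) ≤ 2 * Real.exp (-(min (c₃ / 2) ε) * K) := by
    have b1 : E₀ * X₀ ≤ Real.exp (-(min (c₃ / 2) ε) * K) := by
      rw [hE₀, hX₀, ← Real.exp_add]
      apply Real.exp_le_exp.2
      have m1 : min (c₃ / 2) ε ≤ c₃ / 2 := min_le_left _ _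
      have m2 : min (c₃ / 2) ε * K ≤ c₃ / 2 * K := by gcongr
      have m3 : C₆ * ε * K ≤ c₃ / 2 * K := by gcongr
      linarith
    have b2 : E₀ * X₁ ≤ Real.exp (-(min (c₃ / 2) ε) * K) := by
      have : E₀ * X₁ ≤ E₀ * Real.exp (-((C₆ + 1) * ε * K)) := by
        rw [hE₀]
        exact mul_le_mul_of_nonneg_left hX₁ (Real.exp_pos _).le
      refine this.trans ?_
      rw [hE₀, ← Real.exp_add]
      apply Real.exp_le_exp.2
      have m1 : min (c₃ / 2) ε ≤ ε := min_le_right _ _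
      have m2 : min (c₃ / 2) ε * K ≤ ε * K := by gcongr
      linarith
    calc E₀ * (X₀ + X₁) = E₀ * X₀ + E₀ * X₁ := by ring
      _ ≤ _ := by linarith
  have h3 : 0 ≤ G₁ + G₂ * (G₃ + U) := by positivity
  calc (G₁ + G₂ * (G₃ + κ)) * (X₀ + X₁) ≤ ((G₁ + G₂ * (G₃ + U)) * E₀) * (X₀ + X₁) := by
        refine mul_le_mul_of_nonneg_right h1 (by positivity)
    _ = (G₁ + G₂ * (G₃ + U)) * (E₀ * (X₀ + X₁)) := by ring
    _ ≤ (G₁ + G₂ * (G₃ + U)) * (2 * Real.exp (-(min (c₃ / 2) ε) * K)) :=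
        mul_le_mul_of_nonneg_left h2 h3
    _ = _ := by ring

/-- the last step, with the constants of `fixedx` -/
lemma fin_step {N Yr Cm Co P c₀ W c₁ Cn T κ₃ c₃ K LB U C₆ ε : ℝ} {A : ℕ} (hYr : 0 ≤ Yr)
    (hCm : 1 ≤ Cm) (hCn : 1 ≤ Cn) (hP : 1 ≤ P) (hc₀ : 0 < c₀) (hW : 0 < W) (hc₁ : 0 < c₁)
    (hU : 0 ≤ U) (hκ : κ₃ ≤ U * Real.exp (C₆ * (ε * K))) (hLB0 : 0 ≤ LB)
    (hLB : LB ≤ Real.exp (-((C₆ + 1) * ε * K))) (hε : 0 < ε) (hK : 1 ≤ K) (hC₆ : 0 ≤ C₆)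
    (hc₃ : C₆ * ε ≤ c₃ / 2)
    (hfin : N ≤ ((√Cm * (1 + Co * P * (1 + Real.exp 1))) ^ 2 / (c₀ / W * c₁) ^ 2 +
      2 * (Cm * Cn * (2 * 4 ^ A) * (1 + Real.exp (2 * T)) * P + κ₃) / (c₀ / W * c₁)) * Yr *
      (Real.exp (-c₃ * K) + LB)) :
    N ≤ max 1 (2 * ((√Cm * (1 + Co * P * (1 + Real.exp 1))) ^ 2 / (c₀ / W * c₁) ^ 2 +
      2 / (c₀ / W * c₁) * (Cm * Cn * (2 * 4 ^ A) * (1 + Real.exp (2 * T)) * P + U))) * Yr *
      Real.exp (-(min (c₃ / 2) ε) * K) := by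
  obtain ⟨G₁, hG₁⟩ : ∃ G₁ : ℝ, G₁ = (√Cm * (1 + Co * P * (1 + Real.exp 1))) ^ 2 /
    (c₀ / W * c₁) ^ 2 := ⟨_, rfl⟩
  obtain ⟨G₂, hG₂⟩ : ∃ G₂ : ℝ, G₂ = 2 / (c₀ / W * c₁) := ⟨_, rfl⟩
  obtain ⟨G₃, hG₃⟩ : ∃ G₃ : ℝ, G₃ = Cm * Cn * (2 * 4 ^ A) * (1 + Real.exp (2 * T)) * P := ⟨_, rfl⟩
  have hG₁0 : 0 ≤ G₁ := by rw [hG₁]; positivity
  have hG₂0 : 0 ≤ G₂ := by rw [hG₂]; positivity
  have hG₃0 : 0 ≤ G₃ := by
    rw [hG₃]
    have : 0 ≤ Cm := by linarith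
    have : 0 ≤ Cn := by linarith
    have : 0 ≤ P := by linarith
    positivity
  have hlast := last_bd (G₁ := G₁) (G₂ := G₂) (G₃ := G₃) (κ := κ₃) (U := U) hG₁0 hG₂0 hG₃0 hU rfl
    hκ rfl hLB hLB0 hε hK hC₆ hc₃
  have e : ∀ x : ℝ, 2 * (G₃ + κ₃) / (c₀ / W * c₁) = G₂ * (G₃ + κ₃) := by
    intro _; rw [hG₂]; ring
  rw [← hG₁, ← hG₃, e 0] at hfin
  rw [← hG₁, ← hG₂, ← hG₃]
  have hexp0 := Real.exp_pos (-(min (c₃ / 2) ε) * K)
  calc N ≤ _ := hfin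
    _ = ((G₁ + G₂ * (G₃ + κ₃)) * (Real.exp (-c₃ * K) + LB)) * Yr := by ring
    _ ≤ (2 * (G₁ + G₂ * (G₃ + U)) * Real.exp (-(min (c₃ / 2) ε) * K)) * Yr :=
        mul_le_mul_of_nonneg_right hlast hYr
    _ = 2 * (G₁ + G₂ * (G₃ + U)) * Yr * Real.exp (-(min (c₃ / 2) ε) * K) := by ring
    _ ≤ _ := by
        gcongr
        exact le_max_right _ _

set_option maxHeartbeats 1000000 in
/-- **The estimate for one block.** -/
theorem corey (hFull : StFull) (hV : StVan2) (hWf : StWf)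
    (hMoll : StMollx) : ∃ c δ L₁ C : ℝ, 0 < c ∧ 0 < δ ∧ δ ≤ 1 ∧ 100 ≤ L₁ ∧ 1 ≤ C ∧ ∀ (Y b : ℕ),
    L₁ ≤ Real.log Y → 40 ≤ b → ((b : ℝ) / 40) ≤ Real.log Y ^ δ →
    ∀ S : Finset ℤ, S ⊆ sqZ Y → (∀ m ∈ S, Y < 2 * m.natAbs) → (∀ m ∈ S, Van m b) →
    (S.card : ℝ) ≤ C * Y * Real.exp (-c * (b / 40)) := by
  obtain ⟨n, A, Cm, cm, hCm, hcm, hmoll⟩ := hMoll
  obtain ⟨Cf, hCf, Af, hfull⟩ := hFull
  obtain ⟨K₀, k₀, B₀, c₀, δ', hK₀, hk₀, hB₀, hc₀, hδ', hdata⟩ := hV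
  have hk0R : (1 : ℝ) ≤ k₀ := by exact_mod_cast hk₀
  obtain ⟨T, hTdef⟩ : ∃ T : ℝ, T = Real.log (2 * k₀) + Real.log K₀ := ⟨_, rfl⟩
  have hl1 : 0 ≤ Real.log (2 * k₀) := Real.log_nonneg (by linarith)
  have hl2 : 0 ≤ Real.log (K₀ : ℝ) := Real.log_natCast_nonneg K₀
  have hT0 : 0 ≤ T := by rw [hTdef]; linarith
  obtain ⟨Cn, Yn, hCn, hnear⟩ := hWf.near n T hT0
  obtain ⟨Co, Yo, hCo, houter⟩ := hWf.outer n T hT0
  obtain ⟨c₁, hc₁, hcmain⟩ := cmain_ge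
  obtain ⟨c₃, hc₃0, hc₃m, hc₃⟩ : ∃ c₃ : ℝ, 0 < c₃ ∧ c₃ ≤ cm / 2 ∧ c₃ ≤ 1 / 2 :=
    ⟨min (cm / 2) (1 / 2), by positivity, min_le_left _ _, min_le_right _ _⟩
  -- the parameters
  obtain ⟨c', hc'⟩ : ∃ c' : ℝ, c' = 10 * A + 8 * Af + 17 := ⟨_, rfl⟩
  have hA0 : (0 : ℝ) ≤ A := Nat.cast_nonneg _
  have hAf0 : (0 : ℝ) ≤ Af := Nat.cast_nonneg _
  have hn0 : (0 : ℝ) ≤ n := Nat.cast_nonneg _
  have hc'1 : 1 ≤ c' := by rw [hc']; linarith
  have hlc' : 0 ≤ Real.log c' := Real.log_nonneg hc'1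
  obtain ⟨C₆, hC₆⟩ : ∃ C₆ : ℝ, C₆ = 16 * (1 + Real.log c') + 2 * c' := ⟨_, rfl⟩
  have hC₆1 : 1 ≤ C₆ := by rw [hC₆]; linarith
  obtain ⟨ε, hε0, hε400, hε3⟩ : ∃ ε : ℝ, 0 < ε ∧ ε ≤ 1 / 400 ∧ C₆ * ε ≤ c₃ / 2 :=
    ⟨min (1 / 400) (c₃ / (2 * C₆)), by positivity, min_le_left _ _, by
      calc C₆ * min (1 / 400) (c₃ / (2 * C₆)) ≤ C₆ * (c₃ / (2 * C₆)) := by
            gcongr; exact min_le_right _ _
        _ = c₃ / 2 := by field_simp⟩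
  obtain ⟨P, hP1, hP⟩ := Numy.poly_bd (c := A + n + c') (ε := ε) (by linarith) hε0 hε400
  obtain ⟨W, hWdef⟩ : ∃ W : ℝ, W = (K₀.divisors.card : ℝ) * (B₀ * (K₀ : ℝ) ^ 2) := ⟨_, rfl⟩
  have hC0 := Th.C0_nonneg
  obtain ⟨u, hu⟩ : ∃ u : ℝ, u = √Cm * (2 * Real.exp 1) * √Cf := ⟨_, rfl⟩
  obtain ⟨v, hv⟩ : ∃ v : ℝ, v = √Cm * (√2 * (2 * Th.C0 * Real.exp (3 * T))) := ⟨_, rfl⟩
  have hu0 : 0 ≤ u := by rw [hu]; positivity
  have hv0 : 0 ≤ v := by rw [hv]; positivity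
  obtain ⟨U, hU⟩ : ∃ U : ℝ, U = u + v * Real.exp (2 * c' * Real.log c' + 4 * c' * ε +
      2 * c' * Real.log (1 / ε)) := ⟨_, rfl⟩
  have hU0 : 0 ≤ U := by rw [hU]; positivity
  have hW0 : 0 < W := by
    rw [hWdef]
    have : 0 < K₀.divisors.card := Finset.card_pos.2 ⟨1, by
      rw [Nat.mem_divisors]; exact ⟨one_dvd _, by omega⟩⟩
    have h2 : (0 : ℝ) < (K₀.divisors.card : ℝ) := by exact_mod_cast this
    have h3 : (1 : ℝ) ≤ K₀ := by exact_mod_cast hK₀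
    positivity
  obtain ⟨M₀, hM₀⟩ : ∃ M₀ : ℝ, M₀ = max (C₆ + 1) 4 := ⟨_, rfl⟩
  have hM₀4 : 4 ≤ M₀ := by rw [hM₀]; exact le_max_right _ _
  have hM₀6 : C₆ + 1 ≤ M₀ := by rw [hM₀]; exact le_max_left _ _
  refine ⟨min (c₃ / 2) ε, 1 / (2 * M₀), 100 + (20 * T + 1) ^ 2 + (1 / δ') ^ 2 + Yn + Yo +
    Real.exp (4 * M₀), max 1 (2 * ((√Cm * (1 + Co * P * (1 + Real.exp 1))) ^ 2 /
      (c₀ / W * c₁) ^ 2 + 2 / (c₀ / W * c₁) * (Cm * Cn * (2 * 4 ^ A) * (1 + Real.exp (2 * T)) * P +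
      U))), by positivity, by positivity, by
      rw [div_le_one (by linarith)]; linarith, ?_,
    le_max_left _ _, fun Y b hL hb20 hb8 S hS hS2 hSV => ?_⟩
  · have : 0 ≤ (20 * T + 1) ^ 2 + (1 / δ') ^ 2 + Yn + Yo + Real.exp (4 * M₀) := by positivity
    linarith
  have hexpM : 0 < Real.exp (4 * M₀) := Real.exp_pos _
  have hL100 : 100 ≤ Real.log Y := by
    have : 0 ≤ (20 * T + 1) ^ 2 + (1 / δ') ^ 2 + Yn + Yo := by positivity
    linarith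
  have hLM : Real.exp (4 * M₀) ≤ Real.log Y := by
    have : 0 ≤ (20 * T + 1) ^ 2 + (1 / δ') ^ 2 + Yn + Yo := by positivity
    linarith
  have hY : 3 ≤ Y := by
    by_contra h
    push Not at h
    have h1 : (Y : ℝ) ≤ 2 := by exact_mod_cast (by omega : Y ≤ 2)
    have h2 : Real.log Y ≤ 2 := by
      rcases Nat.eq_zero_or_pos Y with h3 | h3
      · rw [h3]; simp
      · have h4 : (0 : ℝ) < Y := by exact_mod_cast h3
        linarith [Real.log_le_sub_one_of_pos h4]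
    linarith
  have hY0 : (0 : ℝ) < Y := by exact_mod_cast (by omega : 0 < Y)
  have hL0 : 0 < Real.log Y := by linarith
  have hL1 : 1 ≤ Real.log Y := by linarith
  have hYlog : Real.log Y ≤ Y := (Real.log_le_sub_one_of_pos hY0).trans (by linarith)
  have hYn : Yn ≤ Y := by
    have h1 : 0 ≤ (20 * T + 1) ^ 2 + (1 / δ') ^ 2 + (Yo : ℝ) := by positivity
    have h2 : (Yn : ℝ) ≤ Y := by linarith
    exact_mod_cast h2
  have hYo : Yo ≤ Y := by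
    have h1 : 0 ≤ (20 * T + 1) ^ 2 + (1 / δ') ^ 2 + (Yn : ℝ) := by positivity
    have h2 : (Yo : ℝ) ≤ Y := by linarith
    exact_mod_cast h2
  have hTL : 20 * T + 1 ≤ √(Real.log Y) := by
    apply Real.le_sqrt_of_sq_le
    have : 0 ≤ (1 / δ') ^ 2 + (Yn : ℝ) + Yo := by positivity
    linarith
  have hδL : 1 / δ' ≤ √(Real.log Y) := by
    apply Real.le_sqrt_of_sq_le
    have : 0 ≤ (20 * T + 1) ^ 2 + (Yn : ℝ) + Yo := by positivity
    linarith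
  obtain ⟨K, hK⟩ : ∃ K : ℝ, K = (b : ℝ) / 40 := ⟨_, rfl⟩
  rw [← hK] at hb8 ⊢
  have hbδ := hb8
  replace hb8 : K ≤ Real.log Y ^ (1 / 8 : ℝ) := by
    refine hb8.trans (Real.rpow_le_rpow_of_exponent_le hL1 ?_)
    rw [div_le_div_iff₀ (by positivity) (by norm_num)]
    linarith
  have hbK : (b : ℝ) = 40 * K := by rw [hK]; ring
  have hK1 : 1 ≤ K := by
    rw [hK, le_div_iff₀ (by norm_num)]
    have : (40 : ℝ) ≤ b := by exact_mod_cast hb20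
    linarith
  have hK0 : 0 ≤ K := by linarith
  -- the number of low order terms
  have hℓ := Numy.one_le_ell hK1
  obtain ⟨B, hB⟩ : ∃ B : ℕ, B = ⌈ε * K / Real.log (2 + K)⌉₊ := ⟨_, rfl⟩
  have hBlo : ε * K / Real.log (2 + K) ≤ B := by rw [hB]; exact Nat.le_ceil _
  have hBhi : (B : ℝ) ≤ ε * K / Real.log (2 + K) + 1 := by
    rw [hB]; exact (Nat.ceil_lt_add_one (by positivity)).le
  obtain ⟨a, ha⟩ : ∃ a : ℕ, a = 2 * A + 1 + 8 * (A + Af + 1 + B) := ⟨_, rfl⟩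
  have hPK : ∀ D ≤ A + n + a, (1 + 4 * K) ^ D ≤ P * Real.exp (K / 4) := by
    intro D hD
    refine hP K D hK1 ?_
    have h1 : (D : ℝ) ≤ ((A + n + a : ℕ) : ℝ) := by exact_mod_cast hD
    refine h1.trans ?_
    have e8 : 8 * ε * K / Real.log (2 + K) = 8 * (ε * K / Real.log (2 + K)) := by ring
    rw [ha, hc', e8]
    push_cast
    linarith
  obtain ⟨κ₃, hκ₃⟩ : ∃ κ₃ : ℝ, κ₃ = √Cm * (2 * Real.exp 1) * √Cf + √Cm *
      ((√2 * (2 * Th.C0 * (a.factorial : ℝ) * Real.exp (3 * T))) *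
        ((2 + 2 * (A + B)).factorial : ℝ)) := ⟨_, rfl⟩
  have hκ : κ₃ ≤ U * Real.exp (C₆ * (ε * K)) := by
    have h1 := kappa_bd ha hε0 (by linarith) hu0 hv0 hK1 hBhi hc'
    rw [← hU, ← hC₆] at h1
    refine le_trans (le_of_eq ?_) h1
    rw [hκ₃, hu, hv]
    ring
  have hpow := Numy.pow_bd (ε := ε) (K := K) (L := Real.log Y) (M := M₀) (B := B) hε0 hK1
    (by linarith) hLM hbδ hBlo
  obtain ⟨hKL, hz0, hz2, hzδ⟩ := small_z hL100 hK0 hb8 hδ' hδL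
  obtain ⟨M, Mr, hMM, hWin, hMr, hM0, hMain⟩ := hmoll Y K hY hK1 hb8
  obtain ⟨J, hJ1, hJ2⟩ := exists_J hL1
  have hj4 : ∀ j ≤ J, (2 : ℝ) ^ j ≤ Real.log Y ^ (1 / 4 : ℝ) := fun j hj =>
    (pow_le_pow_right₀ (by norm_num) hj).trans hJ1
  have hSJ : ∑ m ∈ sqZ Y, (Jz m).toReal ≤ Cf * Y * Real.log Y ^ Af ∧
      ∀ m ∈ sqZ Y, Jz m ≠ ⊤ := by
    have h1 := hfull Y hY
    rw [sumJ_eq] at h1
    have hfin : ∀ m ∈ sqZ Y, Jz m ≠ ⊤ := by
      intro m hm h2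
      have h3 : Jz m ≤ ∑ m ∈ sqZ Y, Jz m := Finset.single_le_sum (fun _ _ => zero_le) hm
      rw [h2, top_le_iff] at h3
      rw [h3, top_le_iff] at h1
      exact ENNReal.ofReal_ne_top h1
    refine ⟨?_, hfin⟩
    rw [← ENNReal.toReal_sum hfin]
    exact ENNReal.toReal_le_of_le_ofReal (by positivity) h1
  have hdat : ∀ m ∈ S, ∃ (κ q : ℝ) (bb : ℕ → ℝ), (κ = 1 ∨ κ = -1) ∧ 0 < q ∧
      |Real.log (Y / √q)| ≤ T ∧ (∀ k, |bb k| ≤ B₀) ∧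
      c₀ ≤ |∑ k ∈ K₀.divisors, bb k * (k : ℝ) ^ (1 + K / Real.log Y)| ∧
      ∫ u in Ioi (1 / √q), (∑ k ∈ K₀.divisors, bb k * theta m (u / k)) *
        (Gp (K / Real.log Y) a b (Real.log (u * Y)) +
        κ * Gp (K / Real.log Y) a b (2 * Real.log (Y / √q) - Real.log (u * Y))) = 0 := by
    intro m hm
    obtain ⟨κ, q, bb, g1, g2, g3, g4, g5, g6, g7⟩ := hdata m (mem_sqZ.1 (hS hm)).2
    refine ⟨κ, q, bb, g1, g2, ?_, g5, g6 _ hz0 hzδ, ?_⟩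
    · have h1 := centre_le hY hk₀ g2 g3 g4 (mem_sqZ.1 (hS hm)).1 (hS2 m hm)
      rw [hTdef]; linarith
    · have h1 := g7 b Y (Pol (K / Real.log Y) a b) (by omega) (hSV m hm)
        (Pol_degree (K / Real.log Y) a b)
      simp only [Pol_eval] at h1
      exact h1
  have hwin : WinHyp Y n A J K (√(Cm * Y)) M := by
    intro j h β hj h1 h2 h3 h4
    refine (nY_le (hWin j h β (hj4 j hj) h1 h2 h3 h4)).trans ?_
    apply sqrt_bound A (by linarith) hY0.le ?_ h3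
    have : (1 : ℝ) ≤ 2 ^ j := one_le_pow₀ (by norm_num)
    nlinarith
  have hMr' : ∀ j ≤ J, nY Y (Mr j) ≤ √(Cm * Y) * (2 ^ j) ^ A := by
    intro j hj
    refine (nY_le (hMr j (hj4 j hj))).trans ?_
    exact sqrt_bound' A (by linarith) hY0.le (one_le_pow₀ (by norm_num))
  have hM0' : nY Y (M 0) ≤ √(Cm * Y) * Real.log Y ^ A :=
    (nY_le hM0).trans (sqrt_bound' A (by linarith) hY0.le hL1)
  have N1 : nY Y (fun m => M 0 m * Fw Y (fun x => psi Y x * Real.exp (K / Real.log Y * x)) m -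
      cmain Y K) ≤ √(Cm * Y) * Real.exp (K - cm / 2 * K) := by
    refine (nY_le hMain).trans ?_
    rw [Real.sqrt_mul (by positivity)]
    refine mul_le_mul_of_nonneg_left ?_ (Real.sqrt_nonneg _)
    apply Real.sqrt_le_iff.2
    refine ⟨(Real.exp_pos _).le, ?_⟩
    rw [← Real.exp_nat_mul, Real.exp_le_exp]
    push_cast
    linarith
  have hfin := fixedx hWf Af B a ha hY hT0 hK1 hCm hCn hCo hCf hP1 hL100 hTL hb8 hbK hz2 hJ1 hJ2
    (fun m j hj => hMM (j + 1) m (hj4 (j + 1) (by omega))) hwin hMr' hM0' N1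
    (fun σ hσ a' b' i hi x => houter Y a' b' K σ hY hYo hK1 hKL hσ i hi x)
    (fun σ hσ j a' b' hj i hi x => hnear Y j a' b' K σ hY hYn hK1 hKL
      (by
        have h1 := hj4 j hj.le
        have h4 : 0 ≤ Real.log Y ^ (1 / 4 : ℝ) := Real.rpow_nonneg hL0.le _
        linarith) hσ i hi x)
    hSJ.2 hSJ.1 hK₀ (by rw [hTdef]; linarith) hB₀ hc₀ hc₁ (hcmain Y K hY hK0 hKL) hc₃0.le hc₃m
    hc₃ hPK hS hdat hWdef hκ₃
  have hX1 : Real.log Y ^ (-(B : ℝ)) ≤ Real.exp (-((C₆ + 1) * ε * K)) := by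
    refine hpow.trans (Real.exp_le_exp.2 ?_)
    have : (C₆ + 1) * ε * K ≤ M₀ * ε * K := by gcongr
    linarith
  exact fin_step hY0.le hCm hCn hP1 hc₀ hW0 hc₁ hU0 hκ (Real.rpow_nonneg hL0.le _) hX1 hε0 hK1
    (by linarith) hε3 hfin

end Asmy

/-- Module I2y. -/
theorem pfBlocky (hFull : StFull) (hV : StVan2) (hWf : StWf) (hMoll : StMollx) : StBlocky := by
  classical
  obtain ⟨c₀, δ, L₁, C, hc₀, hδ, hδ1, hL₁, hC, hcore⟩ := Asmy.corey hFull hV hWf hMoll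
  have hL₁0 : 0 < L₁ := by linarith
  obtain ⟨c, hc⟩ : ∃ c : ℝ, c = c₀ / 40 := ⟨_, rfl⟩
  have hc0 : 0 < c := by rw [hc]; positivity
  refine ⟨c, δ, 2 * Real.exp (c * L₁ ^ δ) + 2 * Real.exp (40 * c) + C, hc0, hδ, hδ1, ?_,
    fun Y r hY => ?_⟩
  · have h1 := Real.exp_pos (c * L₁ ^ δ)
    have h2 := Real.exp_pos (40 * c)
    linarith
  have hY0 : (0 : ℝ) < Y := by exact_mod_cast (by omega : 0 < Y)
  have hL1 : 1 ≤ Real.log Y := by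
    have h3 : (3 : ℝ) ≤ Y := by exact_mod_cast hY
    rw [Real.le_log_iff_exp_le hY0]
    linarith [Real.exp_one_lt_d9]
  have hL0 : 0 < Real.log Y := by linarith
  obtain ⟨L, hL⟩ : ∃ L : ℝ, L = Real.log Y := ⟨_, rfl⟩
  rw [← hL] at hL1 hL0 ⊢
  obtain ⟨S, hSdef⟩ : ∃ S : Finset ℤ, S = (sqZ Y).filter (fun m => Y < 2 * m.natAbs ∧ Van m r) :=
    ⟨_, rfl⟩
  rw [← hSdef]
  have hSsub : S ⊆ sqZ Y := by rw [hSdef]; exact Finset.filter_subset _ _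
  have hScard : (S.card : ℝ) ≤ 2 * Y := by
    have h : (S.card : ℝ) ≤ ((sqZ Y).card : ℝ) := by exact_mod_cast Finset.card_le_card hSsub
    exact h.trans (Asm.card_sqZ Y)
  have hS2 : ∀ m ∈ S, Y < 2 * m.natAbs := fun m hm => by
    rw [hSdef] at hm; exact (Finset.mem_filter.1 hm).2.1
  have hSV : ∀ m ∈ S, Van m r := fun m hm => by
    rw [hSdef] at hm; exact (Finset.mem_filter.1 hm).2.2
  have hLδ1 : 1 ≤ L ^ δ := Real.one_le_rpow hL1 hδ.le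
  obtain ⟨μ, hμ⟩ : ∃ μ : ℝ, μ = min (r : ℝ) (L ^ δ) := ⟨_, rfl⟩
  rw [← hμ]
  have hμr : μ ≤ r := by rw [hμ]; exact min_le_left _ _
  have hμL : μ ≤ L ^ δ := by rw [hμ]; exact min_le_right _ _
  have hE := Real.exp_pos (-c * μ)
  -- it suffices to bound by one of the three summands
  have e1 := Real.exp_pos (c * L₁ ^ δ)
  have e2 := Real.exp_pos (40 * c)
  have hred : ∀ T : ℝ, T ≤ 2 * Real.exp (c * L₁ ^ δ) + 2 * Real.exp (40 * c) + C →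
      (S.card : ℝ) ≤ T * Y * Real.exp (-c * μ) →
      (S.card : ℝ) ≤ (2 * Real.exp (c * L₁ ^ δ) + 2 * Real.exp (40 * c) + C) * Y *
        Real.exp (-c * μ) := by
    intro T hT h
    refine h.trans ?_
    gcongr
  by_cases hL100 : L < L₁
  · refine hred (2 * Real.exp (c * L₁ ^ δ)) (by linarith) ?_
    have h1 : 1 ≤ Real.exp (c * L₁ ^ δ) * Real.exp (-c * μ) := by
      rw [← Real.exp_add]
      apply Real.one_le_exp
      have h2 : μ ≤ L₁ ^ δ := hμL.trans (Real.rpow_le_rpow hL0.le hL100.le hδ.le)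
      nlinarith
    calc (S.card : ℝ) ≤ 2 * Y * 1 := by linarith
      _ ≤ 2 * Y * (Real.exp (c * L₁ ^ δ) * Real.exp (-c * μ)) := by gcongr
      _ = _ := by ring
  · push Not at hL100
    by_cases hr20 : r < 40
    · refine hred (2 * Real.exp (40 * c)) (by linarith) ?_
      have h1 : 1 ≤ Real.exp (40 * c) * Real.exp (-c * μ) := by
        rw [← Real.exp_add]
        apply Real.one_le_exp
        have h2 : (r : ℝ) ≤ 40 := by exact_mod_cast hr20.le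
        nlinarith
      calc (S.card : ℝ) ≤ 2 * Y * 1 := by linarith
        _ ≤ 2 * Y * (Real.exp (40 * c) * Real.exp (-c * μ)) := by gcongr
        _ = _ := by ring
    · push Not at hr20
      refine hred C (by linarith) ?_
      obtain ⟨b, hb⟩ : ∃ b : ℕ, b = min r ⌊40 * L ^ δ⌋₊ := ⟨_, rfl⟩
      have hfl : 40 ≤ ⌊40 * L ^ δ⌋₊ := by
        apply Nat.le_floor
        push_cast
        linarith
      have hb40 : 40 ≤ b := by rw [hb]; exact le_min hr20 hfl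
      have hbr : b ≤ r := by rw [hb]; exact min_le_left _ _
      have hb2 : (b : ℝ) / 40 ≤ L ^ δ := by
        rw [div_le_iff₀ (by norm_num)]
        have h1 : (b : ℝ) ≤ (⌊40 * L ^ δ⌋₊ : ℝ) := by
          rw [hb]; exact_mod_cast min_le_right _ _
        have h2 : (⌊40 * L ^ δ⌋₊ : ℝ) ≤ 40 * L ^ δ := Nat.floor_le (by positivity)
        linarith
      have hμb : μ ≤ b := by
        rw [hb]
        push_cast
        apply le_min hμr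
        have h2 : 40 * L ^ δ < (⌊40 * L ^ δ⌋₊ : ℝ) + 1 := Nat.lt_floor_add_one _
        linarith
      rw [hL] at hL100 hb2
      have h := hcore Y b hL100 hb40 hb2 S hSsub hS2
        (fun m hm i hi => hSV m hm i (lt_of_lt_of_le hi hbr))
      refine h.trans ?_
      have h3 : Real.exp (-c₀ * (b / 40)) ≤ Real.exp (-c * μ) := by
        apply Real.exp_le_exp.2
        have : c₀ * ((b : ℝ) / 40) = c * b := by rw [hc]; ring
        nlinarith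
      gcongr

end P004G
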