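import Vale.Agent.P004.R2.H496.Momx
import Vale.Agent.P004.R2.H880.Blocky

/-!
# P004: `StBlocky → StMomy`
-/

open Real MeasureTheory Set Filter
open scoped ENNReal Topology

namespace P004G

open scoped Classical in
/-- Module I3y : tail of any function `a` on the squarefree integers which is bounded by the order
of vanishing. -/
def StMomy [Crv] : Prop :=
  ∀ a : ℤ → ℕ, (∀ m : ℤ, Squarefree m → m ≠ 1 → Van m (a m)) →
    ∃ c δ C : ℝ, 0 < c ∧ 0 < δ ∧ 0 < C ∧ ∀ X : ℕ, 3 ≤ X → ∀ z : ℝ, 0 ≤ z →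
      (((sqZ X).filter (fun m => m ≠ 1 ∧ z ≤ (a m : ℝ))).card : ℝ) ≤
        C * X * Real.exp (-c * min z (Real.log X ^ δ))

namespace Momy

open Momx

variable [Crv]

open scoped Classical in
/-- the count of the exceptional `m` -/
lemma count_m (hB : StBlocky) : ∃ c δ C : ℝ, 0 < c ∧ 0 < δ ∧ 0 < C ∧ ∀ X r : ℕ, 3 ≤ X →
    (((sqZ X).filter (fun m => Van m r)).card : ℝ) ≤
      C * X * Real.exp (-c * min (r : ℝ) (Real.log X ^ δ)) := by
  obtain ⟨c₀, δ, C, hc₀, hδ, hδ1, hC, h⟩ := hB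
  obtain ⟨θ, hθ⟩ : ∃ θ : ℝ, θ = (1 / 2 : ℝ) ^ δ := ⟨_, rfl⟩
  have hθ0 : 0 < θ := by rw [hθ]; positivity
  have hθ1 : θ ≤ 1 := by
    rw [hθ]; exact Real.rpow_le_one (by norm_num) (by norm_num) hδ.le
  obtain ⟨c, hc⟩ : ∃ c : ℝ, c = min (c₀ * θ) (1 / 2) := ⟨_, rfl⟩
  have hc0 : 0 < c := by rw [hc]; positivity
  have hcθ : c ≤ c₀ * θ := by rw [hc]; exact min_le_left _ _
  have hc2 : c ≤ 1 / 2 := by rw [hc]; exact min_le_right _ _
  refine ⟨c, δ, 2 * C + 3, hc0, hδ, by linarith, fun X r hX => ?_⟩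
  have hX1 : (1 : ℝ) ≤ X := by exact_mod_cast (by omega : 1 ≤ X)
  have hX0 : (0 : ℝ) < X := by linarith
  have hL1 : 1 ≤ Real.log X := log_ge_one hX
  have hL0 : 0 < Real.log X := by linarith
  obtain ⟨μ, hμ⟩ : ∃ μ : ℝ, μ = min (r : ℝ) (Real.log X ^ δ) := ⟨_, rfl⟩
  rw [← hμ]
  have hμr : μ ≤ r := by rw [hμ]; exact min_le_left _ _
  have hμL : μ ≤ Real.log X ^ δ := by rw [hμ]; exact min_le_right _ _
  have hμ0 : 0 ≤ μ := by rw [hμ]; positivity
  set E := Real.exp (-c * μ) with hE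
  have hE0 : 0 < E := Real.exp_pos _
  set I := (Finset.range (Nat.log 2 X + 1)).filter (fun i => Nat.sqrt X < X / 2 ^ i) with hI
  have hsq1 : 1 ≤ Nat.sqrt X := Nat.le_sqrt.2 (by omega)
  have h1 : (((sqZ X).filter (fun m => Van m r)).card : ℝ) ≤
      3 * Nat.sqrt X + ∑ i ∈ I, ((blk (X / 2 ^ i) r).card : ℝ) := by
    have h2 := Finset.card_le_card (cover X r)
    have h3 := h2.trans (Finset.card_union_le _ _)
    have h4 := Finset.card_biUnion_le (s := I) (t := fun i => blk (X / 2 ^ i) r)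
    rw [Int.card_Icc] at h3
    have h5 : ((sqZ X).filter (fun m => Van m r)).card ≤
        3 * Nat.sqrt X + ∑ i ∈ I, (blk (X / 2 ^ i) r).card := by
      have : ((Nat.sqrt X : ℤ) + 1 - -(Nat.sqrt X : ℤ)).toNat ≤ 3 * Nat.sqrt X := by omega
      exact h3.trans (Nat.add_le_add this h4)
    exact_mod_cast h5
  have h2 : ∀ i ∈ I, ((blk (X / 2 ^ i) r).card : ℝ) ≤
      C * ((X / 2 ^ i : ℕ) : ℝ) * E := by
    intro i hi
    rw [hI, Finset.mem_filter] at hi
    have h3 := three_le hX rfl hi.2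
    refine (h (X / 2 ^ i) r h3).trans ?_
    apply mul_le_mul_of_nonneg_left _ (by positivity)
    rw [hE]
    apply Real.exp_le_exp.2
    have h4 := log_half hX hi.2
    have h5 : θ * Real.log X ^ δ ≤ Real.log ((X / 2 ^ i : ℕ) : ℝ) ^ δ := by
      calc θ * Real.log X ^ δ = (Real.log X / 2) ^ δ := by
            rw [hθ, ← Real.mul_rpow (by norm_num) hL0.le]
            congr 1
            ring
        _ ≤ _ := Real.rpow_le_rpow (by positivity) h4 hδ.le
    have h6 : θ * μ ≤ min (r : ℝ) (Real.log ((X / 2 ^ i : ℕ) : ℝ) ^ δ) := by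
      apply le_min
      · calc θ * μ ≤ 1 * μ := by gcongr
          _ ≤ r := by linarith
      · refine le_trans ?_ h5
        gcongr
    have h7 : c * μ ≤ c₀ * min (r : ℝ) (Real.log ((X / 2 ^ i : ℕ) : ℝ) ^ δ) := by
      calc c * μ ≤ (c₀ * θ) * μ := by gcongr
        _ = c₀ * (θ * μ) := by ring
        _ ≤ _ := by gcongr
    linarith
  have h3 : ∑ i ∈ I, ((blk (X / 2 ^ i) r).card : ℝ) ≤ 2 * C * X * E := by
    refine (Finset.sum_le_sum h2).trans ?_
    rw [← Finset.sum_mul, ← Finset.mul_sum]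
    have h4 : ∑ i ∈ I, ((X / 2 ^ i : ℕ) : ℝ) ≤ 2 * X := by
      refine le_trans ?_ (sum_half X (Nat.log 2 X + 1))
      exact Finset.sum_le_sum_of_subset_of_nonneg (Finset.filter_subset _ _)
        fun _ _ _ => Nat.cast_nonneg _
    calc (C * ∑ i ∈ I, ((X / 2 ^ i : ℕ) : ℝ)) * E
        ≤ (C * (2 * X)) * E := by gcongr
      _ = _ := by ring
  have h4 : (Nat.sqrt X : ℝ) ≤ X * E := by
    have e1 : (Nat.sqrt X : ℝ) ≤ √(X : ℝ) := Real.nat_sqrt_le_real_sqrt
    have e2 : √(X : ℝ) = Real.exp (Real.log X / 2) := by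
      rw [Real.sqrt_eq_rpow, Real.rpow_def_of_pos hX0]
      congr 1
      ring
    have e3 : (X : ℝ) = Real.exp (Real.log X) := (Real.exp_log hX0).symm
    have e4 : c * μ ≤ Real.log X / 2 := by
      have a1 : μ ≤ Real.log X := by
        refine hμL.trans ?_
        calc Real.log X ^ δ ≤ Real.log X ^ (1 : ℝ) := Real.rpow_le_rpow_of_exponent_le hL1 hδ1
          _ = _ := Real.rpow_one _
      calc c * μ ≤ 1 / 2 * Real.log X := by gcongr
        _ = _ := by ring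
    refine e1.trans ?_
    rw [e2, hE]
    nth_rewrite 2 [e3]
    rw [← Real.exp_add]
    apply Real.exp_le_exp.2
    linarith
  calc (((sqZ X).filter (fun m => Van m r)).card : ℝ)
      ≤ 3 * (X * E) + 2 * C * X * E := h1.trans (add_le_add (by linarith) h3)
    _ = _ := by ring

end Momy

variable [Crv]

/-- Module I3y -/
theorem pfMomy (hB : StBlocky) : StMomy := by
  classical
  intro a ha
  obtain ⟨c, δ, C, hc, hδ, hC, h⟩ := Momy.count_m hB
  refine ⟨c, δ, C, hc, hδ, hC, fun X hX z hz => ?_⟩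
  have h1 := h X ⌈z⌉₊ hX
  have hsub : (sqZ X).filter (fun m => m ≠ 1 ∧ z ≤ (a m : ℝ)) ⊆
      (sqZ X).filter (fun m => Van m ⌈z⌉₊) := by
    intro m hm
    rw [Finset.mem_filter] at hm
    rw [Finset.mem_filter]
    refine ⟨hm.1, ?_⟩
    have hV := ha m (mem_sqZ.1 hm.1).2 hm.2.1
    exact fun i hi => hV i (lt_of_lt_of_le hi (Nat.ceil_le.2 hm.2.2))
  have h2 : (((sqZ X).filter (fun m => m ≠ 1 ∧ z ≤ (a m : ℝ))).card : ℝ) ≤
      (((sqZ X).filter (fun m => Van m ⌈z⌉₊)).card : ℝ) := by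
    exact_mod_cast Finset.card_le_card hsub
  refine h2.trans (h1.trans ?_)
  refine mul_le_mul_of_nonneg_left ?_ (by positivity)
  apply Real.exp_le_exp.2
  have h3 : z ≤ (⌈z⌉₊ : ℝ) := Nat.le_ceil z
  have h4 : min z (Real.log X ^ δ) ≤ min (⌈z⌉₊ : ℝ) (Real.log X ^ δ) := min_le_min_right _ h3
  nlinarith

end P004G
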