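import Vale.Agent.P004.R2.H880.AllX
import Vale.Agent.P004.R2.H880.TailExpy

/-!
# P004: exponentially small tails with uniform constants, assembly of the modules
-/

namespace P004G

section

variable [Crv]

theorem blocky (hF : StFold) (hV : StVan2) : StBlocky :=
  pfBlocky (full hF) hV pfWf (mollx (full hF))

end

theorem mainy : ∀ [Crv], StTF → StMomy := fun h => pfMomy (blocky (pfZ1 h) (pfZ2 h))

end P004G
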