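import Vale.Agent.P004E.H503.Dec

/-!
# P004: the identity for a twist with root number `1` and `Van m 3`
-/

open Real MeasureTheory Set Filter
open scoped ENNReal Topology

namespace P004E.Two

open P004G P004G.Asm
open P004.Asm (ηf_nonneg ηf_le_one ηf_zero ηf_one ηf_cont)
open P004E.Fin (rf integral_inv_comp integrable_inv_comp int_right k1 decomp1 ηR_cont ηR_cont'
  k1_cont k1_supp k1_mem ηf_abs int_η int_k1 int_ks int_gp lin_growth)

variable [Crv]

/-- the pure functional equation with root number `1` -/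
def FE (m : ℤ) (q : ℝ) : Prop :=
  0 < q ∧ ∀ u : ℝ, 0 < u → theta m u = 1 / (q * u ^ 2) * theta m (1 / (q * u))

lemma refl_point {m : ℤ} {q : ℝ} (h : FE m q) {Y : ℕ} (hY : 3 ≤ Y) (f : ℝ → ℝ) {v : ℝ}
    (hv : 0 < v) : theta m (1 / (q * v)) * f (Real.log (1 / (q * v) * Y)) * (1 / (q * v ^ 2)) =
      theta m v * rf (Real.log (√q / Y)) f (Real.log (v * Y)) := by
  obtain ⟨hq, hfe⟩ := h
  have hY0 : (0 : ℝ) < Y := by exact_mod_cast (by omega : 0 < Y)
  have h1 : Real.log (1 / (q * v) * Y) = -2 * Real.log (√q / Y) - Real.log (v * Y) := by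
    rw [Real.log_mul (by positivity) (by positivity), Real.log_div (by norm_num) (by positivity),
      Real.log_mul hq.ne' hv.ne', Real.log_div (by positivity) (by positivity),
      Real.log_mul hv.ne' hY0.ne', Real.log_sqrt hq.le, Real.log_one]
    ring
  have h2 := hfe v hv
  unfold rf
  rw [h1, h2]
  field_simp

/-- **Reflection.** -/
lemma Fw_rf {m : ℤ} {q : ℝ} (h : FE m q) {Y : ℕ} (hY : 3 ≤ Y) (f : ℝ → ℝ) :
    Fw Y (rf (Real.log (√q / Y)) f) m = Fw Y f m := by
  unfold Fw Fn P004.cfY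
  rw [← integral_inv_comp h.1 (fun u => theta m u * f (Real.log (u * Y)))]
  refine setIntegral_congr_fun measurableSet_Ioi fun v hv => ?_
  change _ = (theta m (1 / (q * v)) * f (Real.log (1 / (q * v) * Y)) * (1 / (q * v ^ 2)))
  rw [refl_point h hY f hv]

lemma int_rf {m : ℤ} {q : ℝ} (h : FE m q) {Y : ℕ} (hY : 3 ≤ Y) {f : ℝ → ℝ}
    (hf : IntegrableOn (fun u => theta m u * f (Real.log (u * Y))) (Ioi 0)) :
    IntegrableOn (fun u => theta m u * rf (Real.log (√q / Y)) f (Real.log (u * Y))) (Ioi 0) := by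
  have h1 := integrable_inv_comp h.1 hf
  refine h1.congr_fun (fun v hv => ?_) measurableSet_Ioi
  simp only
  rw [refl_point h hY f hv]

/-- integrability of continuous functions vanishing for `x ≤ x₁`, of at most quadratic growth -/
lemma int_right2 (m : ℤ) {Y : ℕ} (hY : 3 ≤ Y) {f : ℝ → ℝ} (hf : Continuous f) {x₁ D : ℝ}
    (hD : ∀ x, |f x| ≤ D * (1 + |x|) ^ 2) (hx₁ : ∀ x, f x ≠ 0 → x₁ ≤ x) :
    IntegrableOn (fun u => theta m u * f (Real.log (u * Y))) (Ioi 0) := by
  have hY0 : (0 : ℝ) < Y := by exact_mod_cast (by omega : 0 < Y)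
  set α := Real.exp x₁ / (2 * Y) with hα
  have hα0 : 0 < α := by positivity
  rw [(Ioc_union_Ioi_eq_Ioi hα0.le).symm]
  refine IntegrableOn.union ?_ ?_
  · refine (integrableOn_zero (s := Ioc 0 α)).congr_fun (fun u hu => ?_) measurableSet_Ioc
    have hu0 : 0 < u := hu.1
    by_cases h : f (Real.log (u * Y)) = 0
    · rw [h]; simp
    · exfalso
      have h1 := hx₁ _ h
      have h2 : Real.exp x₁ ≤ u * Y := by
        rw [← Real.exp_log (show 0 < u * Y by positivity)]
        exact Real.exp_le_exp.2 h1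
      have h3 : u * Y ≤ Real.exp x₁ / 2 := by
        calc u * Y ≤ α * Y := by gcongr; exact hu.2
          _ = Real.exp x₁ / 2 := by rw [hα]; field_simp
      linarith [Real.exp_pos x₁]
  · have hD0 : 0 ≤ D := by
      have := (abs_nonneg _).trans (hD 0)
      simpa using this
    set c : ℝ := Y + 1 / (α ^ 2 * Y) with hcdef
    have hc : 0 ≤ c := by positivity
    refine Th.integrable_of_growth m hα0 (P004.Asm.meas_log hf Y)
      (b := D * (1 + 2 * c + 2 * c ^ 2)) ?_
    intro u hu
    have hu0 : 0 < u := lt_of_lt_of_le hα0 hu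
    have h1 : |Real.log (u * Y)| ≤ u * Y + 1 / (u * Y) := by
      have hp : 0 < u * Y := by positivity
      rcases le_total 1 (u * Y) with h | h
      · rw [abs_of_nonneg (Real.log_nonneg h)]
        have := Real.log_le_sub_one_of_pos hp
        have : 0 ≤ 1 / (u * Y) := by positivity
        linarith
      · rw [abs_of_nonpos (Real.log_nonpos hp.le h), ← Real.log_inv]
        have := Real.log_le_sub_one_of_pos (inv_pos.2 hp)
        rw [← one_div] at this ⊢
        have h7 : 0 < u * Y := hp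
        linarith
    have h2 : u * Y + 1 / (u * Y) ≤ c * u := by
      have h3 : 1 / (u * Y) ≤ 1 / (α ^ 2 * Y) * u := by
        rw [div_mul_eq_mul_div, one_mul, div_le_div_iff₀ (by positivity) (by positivity)]
        have : α ^ 2 ≤ u ^ 2 := by gcongr
        nlinarith
      rw [hcdef]
      nlinarith
    have h4 : u ≤ Real.exp u := by linarith [Real.add_one_le_exp u]
    have h5 : 1 ≤ Real.exp u := Real.one_le_exp hu0.le
    have h6 : u ^ 2 ≤ 2 * Real.exp u := by
      have := Real.quadratic_le_exp_of_nonneg hu0.le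
      nlinarith
    have h7 : |Real.log (u * Y)| ≤ c * u := h1.trans h2
    calc |f (Real.log (u * Y))| ≤ D * (1 + |Real.log (u * Y)|) ^ 2 := hD _
      _ ≤ D * (1 + c * u) ^ 2 := by gcongr
      _ = D * (1 + 2 * c * u + c ^ 2 * u ^ 2) := by ring
      _ ≤ D * (1 * Real.exp u + 2 * c * Real.exp u + c ^ 2 * (2 * Real.exp u)) := by
          gcongr
          rw [one_mul]
          exact h5
      _ = _ := by ring

/-- the right part -/
noncomputable def gq (R s x : ℝ) : ℝ := (x + s) ^ 2 * ηf (x / R)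

/-- the strip kernel -/
noncomputable def kq (R s x : ℝ) : ℝ := (x + s) ^ 2 * k1 R s x

lemma decomp2 {R s : ℝ} (hR : 0 < R) (hs : -s ≤ R) (x : ℝ) :
    (x + s) ^ 2 = kq R s x + gq R s x + rf s (gq R s) x := by
  have e0 : rf s (gq R s) x = (-2 * s - x + s) ^ 2 * ηf ((-2 * s - x) / R) := rfl
  have e1 : (-2 * s - x + s) ^ 2 = (x + s) ^ 2 := by ring
  have e2 := decomp1 hR hs x
  have e3 : rf s (fun y => ηf (y / R)) x = ηf ((-2 * s - x) / R) := rfl
  rw [e3] at e2
  rw [e0, e1]
  unfold kq gq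
  calc (x + s) ^ 2 = (x + s) ^ 2 * 1 := (mul_one _).symm
    _ = (x + s) ^ 2 * (k1 R s x + ηf (x / R) + ηf ((-2 * s - x) / R)) := by rw [← e2]
    _ = _ := by ring

lemma gq_cont (R s : ℝ) : Continuous (gq R s) := by
  unfold gq
  exact ((continuous_id.add continuous_const).pow 2).mul (ηR_cont R)

lemma kq_cont (R s : ℝ) : Continuous (kq R s) := by
  unfold kq
  exact ((continuous_id.add continuous_const).pow 2).mul (k1_cont R s)

lemma kq_supp {R s x : ℝ} (hR : 0 < R) (h : kq R s x ≠ 0) : -2 * s - 2 * R ≤ x ∧ x ≤ 2 * R :=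
  k1_supp hR (right_ne_zero_of_mul h)

lemma gq_supp {R s x : ℝ} (hR : 0 < R) (h : gq R s x ≠ 0) : R ≤ x := by
  unfold gq at h
  by_contra h'
  push Not at h'
  apply h
  rw [ηf_zero (t := x / R) (by rw [div_le_one hR]; linarith), mul_zero]

lemma quad_growth (s : ℝ) {w : ℝ → ℝ} (hw : ∀ x, |w x| ≤ 1) (x : ℝ) :
    |(x + s) ^ 2 * w x| ≤ (1 + |s|) ^ 2 * (1 + |x|) ^ 2 := by
  rw [abs_mul, abs_pow]
  have h1 : |x + s| ≤ (1 + |s|) * (1 + |x|) := by
    have := abs_add_le x s
    nlinarith [abs_nonneg x, abs_nonneg s]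
  calc |x + s| ^ 2 * |w x| ≤ ((1 + |s|) * (1 + |x|)) ^ 2 * 1 := by
        gcongr
        exact hw x
    _ = _ := by ring

lemma int_gq (m : ℤ) {Y : ℕ} (hY : 3 ≤ Y) {R : ℝ} (hR : 0 < R) (s : ℝ) :
    IntegrableOn (fun u => theta m u * gq R s (Real.log (u * Y))) (Ioi 0) :=
  int_right2 m hY (gq_cont R s) (fun x => quad_growth s (fun x => ηf_abs (x / R)) x)
    (fun _ hx => gq_supp hR hx)

lemma int_kq (m : ℤ) {Y : ℕ} (hY : 3 ≤ Y) {R : ℝ} (hR : 0 < R) (s : ℝ) :
    IntegrableOn (fun u => theta m u * kq R s (Real.log (u * Y))) (Ioi 0) :=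
  int_right2 m hY (kq_cont R s) (fun x => quad_growth s (fun x => by
    rw [abs_of_nonneg (k1_mem R s x).1]; exact (k1_mem R s x).2) x)
    (fun _ hx => (kq_supp hR hx).1)

/-- **The identity**: for root number `1` and `Van m 3`. -/
theorem van_identity {m : ℤ} {q : ℝ} (h : FE m q) {Y : ℕ} (hY : 3 ≤ Y) {R : ℝ}
    (hR : 0 < R) (hs : -Real.log (√q / Y) ≤ R) (hV : Van m 3) :
    Fw Y (kq R (Real.log (√q / Y))) m + 2 * Fw Y (gq R (Real.log (√q / Y))) m = 0 := by
  set s := Real.log (√q / Y) with hsdef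
  have hY0 : (0 : ℝ) < Y := by exact_mod_cast (by omega : 0 < Y)
  have i1 := int_k1 m hY hR s
  have i2 := int_η m hY hR
  have i3 := int_rf h hY (f := fun y => ηf (y / R)) i2
  have i4 := int_ks m hY hR s
  have i5 := int_gp m hY hR s
  have i6 := int_rf h hY i5
  have i7 := int_kq m hY hR s
  have i8 := int_gq m hY hR s
  have i9 := int_rf h hY i8
  rw [← hsdef] at i3 i6 i9
  -- integrability of `theta`, `theta * (x + s)` and `theta * (x + s) ^ 2`
  have j1 : IntegrableOn (fun u => theta m u) (Ioi 0) := by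
    refine ((i1.add i2).add i3).congr_fun (fun u _ => ?_) measurableSet_Ioi
    simp only [Pi.add_apply]
    rw [← mul_add, ← mul_add, ← decomp1 hR hs, mul_one]
  have j2 : IntegrableOn (fun u => theta m u * (Real.log (u * Y) + s)) (Ioi 0) := by
    refine ((i4.add i5).sub i6).congr_fun (fun u _ => ?_) measurableSet_Ioi
    simp only [Pi.add_apply, Pi.sub_apply]
    rw [Fin.decomp hR hs (Real.log (u * Y))]
    ring
  have j3 : IntegrableOn (fun u => theta m u * Real.log u) (Ioi 0) := by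
    refine (j2.sub (j1.mul_const (Real.log Y + s))).congr_fun (fun u hu => ?_) measurableSet_Ioi
    simp only [Pi.sub_apply]
    rw [Real.log_mul (mem_Ioi.1 hu).ne' hY0.ne']
    ring
  have j4 : IntegrableOn (fun u => theta m u * (Real.log (u * Y) + s) ^ 2) (Ioi 0) := by
    refine ((i7.add i8).add i9).congr_fun (fun u _ => ?_) measurableSet_Ioi
    simp only [Pi.add_apply]
    rw [decomp2 hR hs (Real.log (u * Y))]
    ring
  have j5 : IntegrableOn (fun u => theta m u * Real.log u ^ 2) (Ioi 0) := by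
    refine ((j4.sub (j3.mul_const (2 * (Real.log Y + s)))).sub
      (j1.mul_const ((Real.log Y + s) ^ 2))).congr_fun (fun u hu => ?_) measurableSet_Ioi
    simp only [Pi.sub_apply]
    rw [Real.log_mul (mem_Ioi.1 hu).ne' hY0.ne']
    ring
  have v0 := hV 0 (by norm_num)
  have v1 := hV 1 (by norm_num)
  have v2 := hV 2 (by norm_num)
  simp only [pow_zero, mul_one, pow_one] at v0 v1
  have e1 : ∫ u in Ioi (0 : ℝ), theta m u * (Real.log (u * Y) + s) ^ 2 = 0 := by
    have : ∀ u ∈ Ioi (0 : ℝ), theta m u * (Real.log (u * Y) + s) ^ 2 =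
        theta m u * Real.log u ^ 2 + theta m u * Real.log u * (2 * (Real.log Y + s)) +
          theta m u * (Real.log Y + s) ^ 2 := by
      intro u hu
      rw [Real.log_mul (mem_Ioi.1 hu).ne' hY0.ne']
      ring
    have k1' : IntegrableOn (fun u => theta m u * Real.log u ^ 2 +
        theta m u * Real.log u * (2 * (Real.log Y + s))) (Ioi 0) := j5.add (j3.mul_const _)
    rw [setIntegral_congr_fun measurableSet_Ioi this, integral_add k1' (j1.mul_const _),
      integral_add j5 (j3.mul_const _), integral_mul_const, integral_mul_const, v0, v1, v2]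
    ring
  have e2 : ∫ u in Ioi (0 : ℝ), theta m u * (Real.log (u * Y) + s) ^ 2 =
      Fw Y (kq R s) m + Fw Y (gq R s) m + Fw Y (rf s (gq R s)) m := by
    unfold Fw Fn P004.cfY
    have e3 := integral_add (i7.add i8) i9
    rw [integral_add' i7 i8] at e3
    rw [← e3]
    refine setIntegral_congr_fun measurableSet_Ioi fun u _ => ?_
    simp only [Pi.add_apply]
    rw [decomp2 hR hs (Real.log (u * Y))]
    ring
  rw [e1, Fw_rf h hY] at e2
  linarith

end P004E.Two
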