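import Vale.Agent.P004E.H156.Win
import Vale.Agent.P004.R2.H880.Four

/-!
# P004: the main window with the weight `x²`
-/

open Real MeasureTheory Set Filter Topology
open scoped ENNReal

namespace P004E.Two

open P004 (ηf)
open P004.Wf (eta_zero eta_one eta_nonneg eta_le_one eta_smooth)
open P004G
open P004E.H156 (gF hmain_neg hmain_nonneg hmain_le hmain_cont hmain_Kw)

/-- the main window with the weight `x²` -/
noncomputable def hmain2 (ε : ℝ) (Y : ℕ) (x : ℝ) : ℝ := x / Real.log Y * hmain ε Y x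

variable {Y : ℕ} {ε : ℝ}

lemma hmain2_neg (hY : 1 < (Y : ℝ)) (hε : 0 < ε) {x : ℝ} (hx : x ≤ 0) : hmain2 ε Y x = 0 := by
  unfold hmain2
  rw [hmain_neg hY hε hx, mul_zero]

lemma hmain2_nonneg (hY : 1 < (Y : ℝ)) (hε : 0 < ε) (x : ℝ) : 0 ≤ hmain2 ε Y x := by
  have hL : 0 < Real.log Y := Real.log_pos hY
  rcases le_or_gt x 0 with h | h
  · rw [hmain2_neg hY hε h]
  · unfold hmain2
    have h1 := hmain_nonneg hY hε x
    positivity

lemma hmain_far (hY : 1 < (Y : ℝ)) {x : ℝ} (hx : 3 * Real.log Y < x) : hmain ε Y x = 0 := by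
  have hL : 0 < Real.log Y := Real.log_pos hY
  unfold hmain
  rw [eta_one (t := x / (3 / 2 * Real.log Y))]
  · simp
  · rw [le_div_iff₀ (by positivity)]; linarith

lemma hmain2_le (hY : 1 < (Y : ℝ)) (hε : 0 < ε) (x : ℝ) : hmain2 ε Y x ≤ 9 := by
  have hL : 0 < Real.log Y := Real.log_pos hY
  rcases le_or_gt x 0 with h | h
  · rw [hmain2_neg hY hε h]; norm_num
  · unfold hmain2
    rcases le_or_gt x (3 * Real.log Y) with h3 | h3
    · have h1 := hmain_nonneg hY hε x
      have h2 := hmain_le hY hε x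
      have h5 : x / Real.log Y ≤ 3 := by rw [div_le_iff₀ hL]; exact h3
      calc x / Real.log Y * hmain ε Y x ≤ 3 * 3 := by gcongr
        _ = 9 := by norm_num
    · rw [hmain_far hY h3]
      norm_num

lemma hmain2_cont (Y : ℕ) (ε : ℝ) : Continuous (hmain2 ε Y) := by
  unfold hmain2
  exact (continuous_id.div_const _).mul (hmain_cont Y ε)

lemma hmain2_Kw (hY : 1 < (Y : ℝ)) (hε : 0 < ε) (x : ℝ) :
    hmain2 ε Y x * Real.exp (-(1 / Real.log Y) * x) = Kw ε (x / Real.log Y) := by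
  unfold hmain2
  rw [mul_assoc, hmain_Kw hY hε]
  unfold Kw Vf H156.Kw H156.Vf
  ring

/-- the Fourier representation of the main window -/
lemma hmain2_rep (hY : 1 < (Y : ℝ)) (hε : 0 < ε)
    (hinv : ∀ x : ℝ, (Kw ε x : ℂ) = ∫ τ : ℝ, gF (Kw ε) τ * Complex.exp (τ * x * Complex.I))
    (x : ℝ) : ((hmain2 ε Y x : ℝ) * (Real.exp (-(1 / Real.log Y) * x) : ℝ) : ℂ) =
      ∫ τ : ℝ, ((Real.log Y : ℝ) * gF (Kw ε) (Real.log Y * τ)) *
        Complex.exp (τ * x * Complex.I) := by
  have hL : 0 < Real.log Y := Real.log_pos hY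
  rw [← Complex.ofReal_mul, hmain2_Kw hY hε, hinv]
  have h1 := MeasureTheory.Measure.integral_comp_mul_left
    (fun t : ℝ => gF (Kw ε) t * Complex.exp (t * ((x / Real.log Y : ℝ) : ℂ) * Complex.I))
    (Real.log Y)
  rw [abs_of_pos (inv_pos.2 hL), Complex.real_smul] at h1
  have hLc : ((Real.log Y : ℝ) : ℂ) ≠ 0 := by exact_mod_cast hL.ne'
  have h2 : (∫ τ : ℝ, gF (Kw ε) τ * Complex.exp (τ * ((x / Real.log Y : ℝ) : ℂ) * Complex.I)) =
      ((Real.log Y : ℝ) : ℂ) * ∫ t : ℝ, gF (Kw ε) (Real.log Y * t) *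
        Complex.exp (((Real.log Y * t : ℝ) : ℂ) * ((x / Real.log Y : ℝ) : ℂ) * Complex.I) := by
    rw [h1, Complex.ofReal_inv, ← mul_assoc, mul_inv_cancel₀ hLc, one_mul]
  rw [h2, ← integral_const_mul]
  refine integral_congr_ae (Eventually.of_forall fun τ => ?_)
  simp only
  have e : (((Real.log Y * τ : ℝ) : ℂ) * ((x / Real.log Y : ℝ) : ℂ) * Complex.I) =
      (τ * x * Complex.I) := by
    rw [← Complex.ofReal_mul, ← Complex.ofReal_mul]
    congr 2
    field_simp
  rw [e]
  ring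

variable [Crv]

/-- the value at `n = 1` -/
lemma bet_one_ge (hL : 2 ≤ Real.log Y) (hε : 0 < ε) (hε1 : ε ≤ 1 / 2) :
    4 * Real.exp (-2 * π) ≤ bet (cfY Y (hmain2 ε Y)) 1 := by
  have hY : 1 < (Y : ℝ) := by
    by_contra hcon
    rw [not_lt] at hcon
    have := Real.log_nonpos (Nat.cast_nonneg Y) hcon
    linarith
  have hY0 : (0 : ℝ) < Y := by linarith
  have hL0 : 0 < Real.log Y := by linarith
  unfold bet
  rw [pfCoef.one, Int.cast_one, mul_one]
  have hm : Measurable (cfY Y (hmain2 ε Y)) := by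
    unfold cfY
    exact (hmain2_cont Y ε).measurable.comp (Real.measurable_log.comp (measurable_id.mul_const _))
  have hint : IntegrableOn (fun u => Real.exp (-π * (1 : ℕ) * u) * cfY Y (hmain2 ε Y) u)
      (Ioi 0) := by
    have h1 : IntegrableOn (fun u : ℝ => Real.exp (-π * u)) (Ioi 0) :=
      integrableOn_exp_mul_Ioi (by linarith [Real.pi_pos]) 0
    refine Integrable.mono' (h1.mul_const 9) ?_ (Eventually.of_forall fun u => ?_)
    · exact ((by fun_prop : Measurable fun u : ℝ => Real.exp (-π * (1 : ℕ) * u)).mul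
        hm).aestronglyMeasurable
    · rw [norm_mul, Real.norm_eq_abs, Real.norm_eq_abs, abs_of_pos (Real.exp_pos _),
        Nat.cast_one, mul_one]
      have h2 : |cfY Y (hmain2 ε Y) u| ≤ 9 := by
        unfold cfY
        rw [abs_of_nonneg (hmain2_nonneg hY hε _)]
        exact hmain2_le hY hε _
      gcongr
  have hsub : Icc (1 : ℝ) 2 ⊆ Ioi 0 := fun u hu => lt_of_lt_of_le one_pos hu.1
  have h1 : ∫ u in Icc (1 : ℝ) 2, Real.exp (-π * (1 : ℕ) * u) * cfY Y (hmain2 ε Y) u ≤
      ∫ u in Ioi 0, Real.exp (-π * (1 : ℕ) * u) * cfY Y (hmain2 ε Y) u := by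
    refine setIntegral_mono_set hint ?_ (Eventually.of_forall hsub)
    refine Eventually.of_forall fun u => ?_
    have := hmain2_nonneg hY hε (Real.log (u * Y))
    unfold cfY
    change 0 ≤ _
    positivity
  have h2 : ∫ u in Icc (1 : ℝ) 2, Real.exp (-2 * π) ≤
      ∫ u in Icc (1 : ℝ) 2, Real.exp (-π * (1 : ℕ) * u) * cfY Y (hmain2 ε Y) u := by
    refine setIntegral_mono_on (integrableOn_const (by simp)) (hint.mono_set hsub)
      measurableSet_Icc fun u hu => ?_
    have hu0 : 0 < u := lt_of_lt_of_le one_pos hu.1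
    have e1 : Real.exp (-2 * π) ≤ Real.exp (-π * (1 : ℕ) * u) := by
      apply Real.exp_le_exp.2
      rw [Nat.cast_one, mul_one]
      nlinarith [Real.pi_pos, hu.2]
    have hlog : Real.log (u * Y) = Real.log u + Real.log Y := Real.log_mul hu0.ne' hY0.ne'
    have hl0 : 0 ≤ Real.log u := Real.log_nonneg hu.1
    have hl1 : Real.log u ≤ 1 := by
      have := Real.log_le_sub_one_of_pos hu0
      linarith [hu.2]
    have e3 : 1 ≤ (Real.log u + Real.log Y) / Real.log Y := by
      rw [le_div_iff₀ hL0]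
      linarith
    have e2 : 1 ≤ cfY Y (hmain2 ε Y) u := by
      unfold cfY hmain2 hmain
      rw [hlog, eta_one, eta_zero]
      · rw [sub_zero, mul_one, mul_one]
        nlinarith
      · rw [div_le_iff₀ (by positivity)]
        linarith
      · rw [le_div_iff₀ (by positivity)]
        nlinarith
    calc Real.exp (-2 * π) = Real.exp (-2 * π) * 1 := by ring
      _ ≤ _ := by gcongr
  have h3 : ∫ u in Icc (1 : ℝ) 2, Real.exp (-2 * π) = Real.exp (-2 * π) := by
    rw [setIntegral_const]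
    simp
    norm_num
  rw [h3] at h2
  linarith

lemma bet_summable (hY : 1 < (Y : ℝ)) (hε : 0 < ε) :
    Summable fun n => |bet (cfY Y (hmain2 ε Y)) n| := by
  have hY0 : (0 : ℝ) < Y := by linarith
  refine P004G.H128.summable_bet pfCoef (U := 1 / Y) (b := 9) (by positivity) (fun u _ => ?_)
    fun u hu hu1 => ?_
  · unfold cfY
    rw [abs_of_nonneg (hmain2_nonneg hY hε _)]
    exact hmain2_le hY hε _
  · unfold cfY
    refine hmain2_neg hY hε (Real.log_nonpos (by positivity) ?_)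
    rw [lt_div_iff₀ hY0] at hu1
    exact hu1.le

end P004E.Two
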