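import Vale.Agent.P004E.H503.Dec2
import Vale.Agent.P004.R2.H880.Dec
import Vale.Agent.P004.R2.H880.Win

/-!
# P004: dyadic decomposition of the right part, weight `(x + s)²`
-/

open Real MeasureTheory Set Filter
open scoped ENNReal Topology ContDiff

namespace P004E.Two

open P004G P004G.Asm
open P004.Asm (ηf_nonneg ηf_le_one ηf_zero ηf_one ηf_cont)
open P004E.Fin (hx h1 hm1 ht win_der hη_supp η2_smooth div_two_w h1_bound h1_smooth h1_supp hx_eq
  hx_smooth hx_supp hm1_supp hm1_smooth hmain_eq hmain_smooth decomp_gp IO Fw_add' Fw_sum'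
  Fw_const_mul hm1_abs h1_abs ηb_supp io_bdd io_lin ηR_cont ηf_abs ηf_smooth)

/-- windows with the weight `x² / L²` -/
noncomputable def hq (w L x : ℝ) : ℝ := x / L * hx w L x

/-- the tail -/
noncomputable def hu (Y : ℕ) (s x : ℝ) : ℝ := (x + s) / Real.log Y * ht Y s x

lemma hq_bound (n : ℕ) : ∃ C : ℝ, 1 ≤ C ∧ ∀ w L : ℝ, 0 < w → 0 < L → ∀ i ≤ n, ∀ x,
    |iteratedDeriv i (hq w L) x| ≤ C * (w / L) ^ 2 * w⁻¹ ^ i := by
  obtain ⟨C, hC, h⟩ := win_der (φ := fun t => t ^ 2 * (ηf t * (1 - ηf (t / 2))))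
    ((contDiff_id.pow 2).mul (ηf_smooth.mul (contDiff_const.sub (η2_smooth 2)))) (by
      intro t ht
      by_contra hc
      obtain ⟨h1, h2⟩ := hη_supp (right_ne_zero_of_mul hc)
      rw [abs_of_pos (by linarith)] at ht
      linarith) n
  refine ⟨C, hC, fun w L hw hL i hi x => ?_⟩
  have e : hq w L = fun x => (w / L) ^ 2 *
      (fun x => (fun t => t ^ 2 * (ηf t * (1 - ηf (t / 2)))) (x / w)) x := by
    funext x
    unfold hq hx
    rw [div_two_w]
    field_simp
  rw [e, iteratedDeriv_const_mul_field, abs_mul, abs_of_pos (by positivity)]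
  calc (w / L) ^ 2 * |iteratedDeriv i
        (fun x => (fun t => t ^ 2 * (ηf t * (1 - ηf (t / 2)))) (x / w)) x|
      ≤ (w / L) ^ 2 * (C * w⁻¹ ^ i) := by gcongr; exact h w hw i hi x
    _ = _ := by ring

lemma hq_smooth (w L : ℝ) (n : ℕ) : ContDiff ℝ n (hq w L) := by
  have e : hq w L = fun x => x / L * hx w L x := funext fun x => rfl
  rw [e]
  exact (contDiff_id.div_const _).mul (hx_smooth w L n)

lemma hq_supp {w L x : ℝ} (hw : 0 < w) (h : hq w L x ≠ 0) : w ≤ x ∧ x ≤ 4 * w :=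
  hx_supp hw (right_ne_zero_of_mul h)

/-! ### decomposition -/

lemma decomp_gq {R s ε : ℝ} {Y J : ℕ} (hL : 0 < Real.log Y) (hε : 0 < ε) (hε1 : ε ≤ 3 / 4)
    (hJ : 2 ^ J * R = ε * Real.log Y) (x : ℝ) :
    1 / Real.log Y ^ 2 * gq R s x =
      ∑ q ∈ Finset.range J, (hq (2 ^ q * R) (Real.log Y) x +
        (2 * s / Real.log Y * hx (2 ^ q * R) (Real.log Y) x +
          (s / Real.log Y) ^ 2 * h1 (2 ^ q * R) x)) +
        hmain2 ε Y x + 2 * s / Real.log Y * hmain ε Y x + (s / Real.log Y) ^ 2 * hm1 ε Y x +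
        hu Y s x := by
  have h := decomp_gp (R := R) (s := s) hL hε hε1 hJ x
  have e1 : 1 / Real.log Y ^ 2 * gq R s x =
      (x + s) / Real.log Y * (1 / Real.log Y * Fin.gp R s x) := by
    unfold gq Fin.gp
    field_simp
  have e2 : ∑ q ∈ Finset.range J, (hq (2 ^ q * R) (Real.log Y) x +
        (2 * s / Real.log Y * hx (2 ^ q * R) (Real.log Y) x +
          (s / Real.log Y) ^ 2 * h1 (2 ^ q * R) x)) = (x + s) / Real.log Y *
      ∑ q ∈ Finset.range J, (hx (2 ^ q * R) (Real.log Y) x +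
        s / Real.log Y * h1 (2 ^ q * R) x) := by
    rw [Finset.mul_sum]
    refine Finset.sum_congr rfl fun q _ => ?_
    unfold hq
    simp_rw [hx_eq]
    ring
  rw [e1, h, e2]
  unfold hmain2 hu
  rw [hmain_eq]
  ring

variable [Crv]

lemma io_q (m : ℤ) {Y : ℕ} (hY : 3 ≤ Y) {f : ℝ → ℝ} (hf : Continuous f) {x₁ : ℝ} (s : ℝ)
    (hf1 : ∀ x, |f x| ≤ 1) (hx₁ : ∀ x, f x ≠ 0 → x₁ ≤ x) :
    IO m Y (fun x => (x + s) / Real.log Y * ((x + s) / Real.log Y * f x)) := by
  have h : IO m Y (fun x => (x + s) ^ 2 * f x) := int_right2 m hY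
    (((continuous_id.add continuous_const).pow 2).mul hf) (fun x => quad_growth s hf1 x)
    (fun x hx => hx₁ x (right_ne_zero_of_mul hx))
  have h2 := h.smul ((1 / Real.log Y) ^ 2)
  convert h2 using 2
  ring

/-- **the identity, summed over the dyadic windows** -/
theorem van_windows {m : ℤ} {q : ℝ} (h : FE m q) {Y : ℕ} (hY : 3 ≤ Y) {R ε : ℝ} {J : ℕ}
    (hR : 0 < R) (hs : -Real.log (√q / Y) ≤ R) (hV : Van m 3) (hε : 0 < ε) (hε1 : ε ≤ 3 / 4)
    (hJ : 2 ^ J * R = ε * Real.log Y) :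
    Fw Y (hmain2 ε Y) m =
      -(1 / (2 * Real.log Y ^ 2) * Fw Y (kq R (Real.log (√q / Y))) m +
        ∑ i ∈ Finset.range J, (Fw Y (hq (2 ^ i * R) (Real.log Y)) m +
          (2 * Real.log (√q / Y) / Real.log Y * Fw Y (hx (2 ^ i * R) (Real.log Y)) m +
          (Real.log (√q / Y) / Real.log Y) ^ 2 * Fw Y (h1 (2 ^ i * R)) m)) +
        2 * Real.log (√q / Y) / Real.log Y * Fw Y (hmain ε Y) m +
        (Real.log (√q / Y) / Real.log Y) ^ 2 * Fw Y (hm1 ε Y) m +
        Fw Y (hu Y (Real.log (√q / Y))) m) := by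
  have hY0 : (1 : ℝ) < Y := by exact_mod_cast (by omega : 1 < Y)
  have hL : 0 < Real.log Y := Real.log_pos hY0
  have hid := van_identity h hY hR hs hV
  set s := Real.log (√q / Y) with hsdef
  have hw : ∀ i : ℕ, 0 < (2 : ℝ) ^ i * R := fun i => by positivity
  have hεL : 0 < ε * Real.log Y := by positivity
  have h32 : 0 < 3 / 2 * Real.log Y := by positivity
  -- integrability
  have i0 : ∀ i : ℕ, IO m Y (hq (2 ^ i * R) (Real.log Y)) := fun i => by
    have := io_q m hY (h1_smooth (2 ^ i * R) 0).continuous (x₁ := 2 ^ i * R) 0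
      (h1_abs _) (fun x hx => (h1_supp (hw i) hx).1)
    simp only [add_zero] at this
    exact this
  have i1 : ∀ i : ℕ, IO m Y (hx (2 ^ i * R) (Real.log Y)) := fun i => by
    have := io_lin m hY (h1_smooth (2 ^ i * R) 0).continuous (x₁ := 2 ^ i * R) 0
      (h1_abs _) (fun x hx => (h1_supp (hw i) hx).1)
    simp only [add_zero] at this
    exact this
  have i2 : ∀ i : ℕ, IO m Y (h1 (2 ^ i * R)) := fun i =>
    io_bdd m hY (h1_smooth (2 ^ i * R) 0).continuous (h1_abs _)
      (fun x hx => (h1_supp (hw i) hx).1)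
  have i3' : IO m Y (hmain2 ε Y) := by
    have := io_q m hY (hm1_smooth ε Y 0).continuous (x₁ := ε * Real.log Y) 0
      (hm1_abs _ _) (fun x hx => (hm1_supp hε hL hx).1)
    simp only [add_zero] at this
    exact this
  have i3 : IO m Y (hmain ε Y) := by
    have := io_lin m hY (hm1_smooth ε Y 0).continuous (x₁ := ε * Real.log Y) 0
      (hm1_abs _ _) (fun x hx => (hm1_supp hε hL hx).1)
    simp only [add_zero] at this
    exact this
  have i4 : IO m Y (hm1 ε Y) :=
    io_bdd m hY (hm1_smooth ε Y 0).continuous (hm1_abs _ _) (fun x hx => (hm1_supp hε hL hx).1)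
  have i5 : IO m Y (hu Y s) :=
    io_q m hY (f := fun x => ηf (x / (3 / 2 * Real.log Y))) (ηR_cont _)
      (x₁ := 3 / 2 * Real.log Y) s (fun x => ηf_abs _) (fun x hx => ηb_supp h32 hx)
  have j0 : ∀ i : ℕ, IO m Y (fun x => 2 * s / Real.log Y * hx (2 ^ i * R) (Real.log Y) x +
      (s / Real.log Y) ^ 2 * h1 (2 ^ i * R) x) := fun i => ((i1 i).smul _).add ((i2 i).smul _)
  have j1 : ∀ i : ℕ, IO m Y (fun x => hq (2 ^ i * R) (Real.log Y) x +
      (2 * s / Real.log Y * hx (2 ^ i * R) (Real.log Y) x +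
      (s / Real.log Y) ^ 2 * h1 (2 ^ i * R) x)) := fun i => (i0 i).add (j0 i)
  have j2 := IO.sum (Finset.range J) (fun i _ => j1 i)
  have j3 := j2.add i3'
  have j4 := j3.add (i3.smul (2 * s / Real.log Y))
  have j5 := j4.add (i4.smul ((s / Real.log Y) ^ 2))
  have e : 1 / Real.log Y ^ 2 * Fw Y (gq R s) m =
      ∑ i ∈ Finset.range J, (Fw Y (hq (2 ^ i * R) (Real.log Y)) m +
          (2 * s / Real.log Y * Fw Y (hx (2 ^ i * R) (Real.log Y)) m +
          (s / Real.log Y) ^ 2 * Fw Y (h1 (2 ^ i * R)) m)) +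
        Fw Y (hmain2 ε Y) m + 2 * s / Real.log Y * Fw Y (hmain ε Y) m +
        (s / Real.log Y) ^ 2 * Fw Y (hm1 ε Y) m + Fw Y (hu Y s) m := by
    have e0 : ∑ i ∈ Finset.range J, (Fw Y (hq (2 ^ i * R) (Real.log Y)) m +
          (2 * s / Real.log Y * Fw Y (hx (2 ^ i * R) (Real.log Y)) m +
          (s / Real.log Y) ^ 2 * Fw Y (h1 (2 ^ i * R)) m)) = Fw Y (fun x =>
        ∑ i ∈ Finset.range J, (hq (2 ^ i * R) (Real.log Y) x +
          (2 * s / Real.log Y * hx (2 ^ i * R) (Real.log Y) x +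
          (s / Real.log Y) ^ 2 * h1 (2 ^ i * R) x))) m := by
      rw [Fw_sum' _ (fun i _ => j1 i)]
      refine Finset.sum_congr rfl fun i _ => ?_
      rw [Fw_add' (i0 i) (j0 i), Fw_add' ((i1 i).smul _) ((i2 i).smul _), Fw_const_mul,
        Fw_const_mul]
    rw [e0, ← Fw_const_mul, ← Fw_const_mul, ← Fw_const_mul, ← Fw_add' j2 i3',
      ← Fw_add' j3 (i3.smul _), ← Fw_add' j4 (i4.smul _), ← Fw_add' j5 i5]
    congr 1
    funext x
    exact decomp_gq (s := s) hL hε hε1 hJ x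
  have e2 : 1 / (2 * Real.log Y ^ 2) * Fw Y (kq R s) m +
      1 / Real.log Y ^ 2 * Fw Y (gq R s) m = 0 := by
    have : 1 / (2 * Real.log Y ^ 2) * (Fw Y (kq R s) m + 2 * Fw Y (gq R s) m) = 0 := by
      rw [hid, mul_zero]
    rw [← this]
    field_simp
  rw [e] at e2
  linarith

/-! ### the tail -/

lemma hu_le (m : ℤ) {Y : ℕ} (hY : 3 ≤ Y) {s a : ℝ} (hs : |s| ≤ a) :
    |Fw Y (hu Y s) m| ≤ 2 * Th.C0 * (1 + a) ^ 2 * Y ^ 2 * Real.exp (-√(Y : ℝ)) := by
  have h0 : (0 : ℝ) < Y := by exact_mod_cast (by omega : 0 < Y)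
  have hY3 : (3 : ℝ) ≤ Y := by exact_mod_cast hY
  have hL1 : 1 ≤ Real.log Y := by
    rw [Real.le_log_iff_exp_le h0]
    linarith [Real.exp_one_lt_d9]
  have hL : 0 < Real.log Y := by linarith
  have hC0 := Th.C0_nonneg
  have ha : 0 ≤ a := (abs_nonneg s).trans hs
  set Bd := 2 * Th.C0 * (1 + a) ^ 2 * Y ^ 2 * Real.exp (-√(Y : ℝ)) with hBd
  have hBd0 : 0 ≤ Bd := by positivity
  have h1 : ∀ u ∈ Ioi (0 : ℝ), |theta m u * hu Y s (Real.log (u * Y))| ≤ Bd * Real.exp (-u) := by
    intro u hu'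
    have hu0 : 0 < u := hu'
    by_cases hu2 : Real.log (u * Y) ≤ 3 / 2 * Real.log Y
    · have h5 : ηf (Real.log (u * Y) / (3 / 2 * Real.log Y)) = 0 := by
        apply ηf_zero
        rw [div_le_one (by positivity)]; exact hu2
      unfold hu ht
      rw [h5, mul_zero, mul_zero, mul_zero, abs_zero]
      positivity
    · push Not at hu2
      set x := Real.log (u * Y) with hx
      have hx0 : 0 < x := by
        have : 0 < 3 / 2 * Real.log Y := by positivity
        linarith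
      have hu3 : √(Y : ℝ) ≤ u := by
        have h7 : (1 / 2) * Real.log Y < Real.log u := by
          rw [hx, Real.log_mul hu0.ne' h0.ne'] at hu2
          linarith
        have h8 : Real.log (√(Y : ℝ)) < Real.log u := by
          rw [Real.log_sqrt h0.le]; linarith
        exact ((Real.log_lt_log_iff (by positivity) hu0).1 h8).le
      have hY1 : 1 ≤ √(Y : ℝ) := by rw [Real.one_le_sqrt]; linarith
      have hu1 : 1 ≤ u := hY1.trans hu3
      have huY : 1 ≤ u * Y := by nlinarith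
      have hxu : x ≤ u * Y := by
        have := Real.log_le_sub_one_of_pos (show 0 < u * Y by positivity)
        linarith
      have h2 : |hu Y s x| ≤ (1 + a) ^ 2 * (u * Y) ^ 2 := by
        unfold hu ht
        have e1 : |ηf (x / (3 / 2 * Real.log Y))| ≤ 1 := ηf_abs _
        have e2 : |x + s| ≤ (1 + a) * (u * Y) := by
          calc |x + s| ≤ |x| + |s| := abs_add_le _ _
            _ ≤ u * Y + a := by rw [abs_of_pos hx0]; gcongr
            _ ≤ (1 + a) * (u * Y) := by nlinarith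
        have e3 : |(x + s) / Real.log Y| ≤ (1 + a) * (u * Y) := by
          rw [abs_div, abs_of_pos hL]
          exact (div_le_self (abs_nonneg _) hL1).trans e2
        rw [abs_mul, abs_mul]
        calc |(x + s) / Real.log Y| * (|(x + s) / Real.log Y| *
              |ηf (x / (3 / 2 * Real.log Y))|)
            ≤ ((1 + a) * (u * Y)) * (((1 + a) * (u * Y)) * 1) := by gcongr
          _ = _ := by ring
      have h7 := Th.theta_le m hu1
      have h8 : Real.exp (-Real.pi * u) * u ^ 2 ≤ 2 * (Real.exp (-√(Y : ℝ)) * Real.exp (-u)) := by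
        have h9 : u ^ 2 ≤ 2 * Real.exp u := by
          have := Real.quadratic_le_exp_of_nonneg hu0.le
          nlinarith
        calc Real.exp (-Real.pi * u) * u ^ 2 ≤ Real.exp (-Real.pi * u) * (2 * Real.exp u) := by
              gcongr
          _ = 2 * Real.exp (-Real.pi * u + u) := by rw [Real.exp_add]; ring
          _ ≤ 2 * Real.exp (-√(Y : ℝ) + -u) := by
            have h10 : -Real.pi * u + u ≤ -√(Y : ℝ) + -u := by
              nlinarith [Real.pi_gt_three]
            have h11 := Real.exp_le_exp.2 h10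
            linarith
          _ = _ := by rw [Real.exp_add]
      rw [abs_mul]
      calc |theta m u| * |hu Y s x| ≤ (Th.C0 * Real.exp (-Real.pi * u)) *
            ((1 + a) ^ 2 * (u * Y) ^ 2) := by gcongr
        _ = Th.C0 * (1 + a) ^ 2 * Y ^ 2 * (Real.exp (-Real.pi * u) * u ^ 2) := by ring
        _ ≤ Th.C0 * (1 + a) ^ 2 * Y ^ 2 * (2 * (Real.exp (-√(Y : ℝ)) * Real.exp (-u))) := by
            gcongr
        _ = Bd * Real.exp (-u) := by rw [hBd]; ring
  have i3 : IntegrableOn (fun u => Bd * Real.exp (-u)) (Ioi (0 : ℝ)) :=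
    ((integrableOn_exp_neg_Ioi 0)).const_mul Bd
  unfold Fw Fn P004.cfY
  rw [← Real.norm_eq_abs]
  refine (norm_integral_le_of_norm_le i3 ?_).trans ?_
  · filter_upwards [ae_restrict_mem measurableSet_Ioi] with u hu
    rw [Real.norm_eq_abs]
    exact h1 u hu
  · rw [integral_const_mul, integral_exp_neg_Ioi]
    simp

end P004E.Two
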