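import Vale.Agent.P004E.H503.Bad
import Vale.Agent.P004.R2.H880.Dec2

/-!
# P004: the contribution of the twists with root number `1` and `Van m 3`
-/

open Real MeasureTheory Set Filter
open scoped ENNReal Topology ContDiff

namespace P004E.Two

open P004G P004G.Asm
open P004E.Fin (hx h1 hm1 cs_two cs_one sum_up sum_down hx_smooth hx_supp h1_smooth h1_supp)

variable [Crv]

/-- **The twists with `Van m 3`** -/
theorem bad_le {Y n J : ℕ} {ε ζ R a Cw Cn Cr Cm Cs : ℝ} {q : ℤ → ℝ} {T : Finset ℤ} {M : ℤ → ℝ}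
    (hY : 3 ≤ Y) (hL1 : 1 ≤ Real.log Y) (hε : 0 < ε) (hε1 : ε ≤ 3 / 4) (hζ : 0 ≤ ζ)
    (hR1 : 1 ≤ R) (hR2 : R ≤ Real.log Y ^ (1 / 100 : ℝ) / 2)
    (hR3 : Real.log Y ^ (1 / 200 : ℝ) ≤ R)
    (hJ : 2 ^ J * R = ε * Real.log Y) (ha : 0 ≤ a) (haR : a ≤ R) (hCw : 0 ≤ Cw) (hCn : 0 ≤ Cn)
    (hCr : 0 ≤ Cr) (hCm : 0 ≤ Cm) (hCs : 0 ≤ Cs)
    (hT : T ⊆ (sqZ Y).filter (fun m => Y < 2 * m.natAbs))
    (hfe : ∀ m ∈ T, FE m (q m) ∧ |Real.log (√(q m) / Y)| ≤ a ∧ Van m 3)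
    (hwin : ∀ (w b : ℝ) (h : ℝ → ℝ), Real.log Y ^ (1 / 200 : ℝ) ≤ w → w ≤ ε * Real.log Y → 0 ≤ b →
      ContDiff ℝ n h → (∀ x, h x ≠ 0 → w ≤ x ∧ x ≤ 4 * w) →
      (∀ k ≤ n, ∀ x, |iteratedDeriv k h x| ≤ b * w⁻¹ ^ k) →
      ∑ m ∈ sqZ Y, |M m * Fw Y h m| ≤ Cw * Y * b * ζ * (w / Real.log Y) ^ (-(7 / 8) : ℝ))
    (hhq : ∀ w L : ℝ, 0 < w → 0 < L → ∀ i ≤ n, ∀ x, |iteratedDeriv i (hq w L) x| ≤
      Cn * (w / L) ^ 2 * w⁻¹ ^ i)
    (hhx : ∀ w L : ℝ, 0 < w → 0 < L → ∀ i ≤ n, ∀ x, |iteratedDeriv i (hx w L) x| ≤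
      Cn * (w / L) * w⁻¹ ^ i)
    (hh1 : ∀ w : ℝ, 0 < w → ∀ i ≤ n, ∀ x, |iteratedDeriv i (h1 w) x| ≤ Cn * w⁻¹ ^ i)
    (hM : ∑ m ∈ sqZ Y, M m ^ 2 ≤ Cr * Y * Real.log Y ^ (28 / 25 : ℝ))
    (hm' : ∑ m ∈ sqZ Y, (M m * Fw Y (hmain ε Y) m) ^ 2 ≤ Cm * Y)
    (hm : ∑ m ∈ sqZ Y, (M m * Fw Y (hm1 ε Y) m) ^ 2 ≤ Cm * Y)
    (hstrip : ∑ m ∈ T, (Fw Y (kq R (Real.log (√(q m) / Y))) m) ^ 2 ≤
      Cs * R ^ 4 * Y * Real.log Y ^ (4 / 5 : ℝ)) :
    |∑ m ∈ T, M m * Fw Y (hmain2 ε Y) m| ≤ 12 * (Cw * Cn) * ζ * Y + Y * (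
      √(Cr * Cs) * Real.log Y ^ (-(1 / 50) : ℝ) + 4 * a ^ 2 * (Cw * Cn * ζ) *
        Real.log Y ^ (-(1 / 8) : ℝ) +
      (24 * a * (Cw * Cn * ζ) + (2 * a + a ^ 2) * √(2 * Cm)) * (Real.log Y)⁻¹ +
      √(2 * Cr) * (2 * Th.C0 * (1 + a) ^ 2) * ((Y : ℝ) ^ 3 * Real.exp (-√(Y : ℝ)))) := by
  have hY0 : (0 : ℝ) < Y := by exact_mod_cast (by omega : 0 < Y)
  have hY1 : (1 : ℝ) ≤ Y := by exact_mod_cast (by omega : 1 ≤ Y)
  have hTs : T ⊆ sqZ Y := hT.trans (Finset.filter_subset _ _)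
  set L := Real.log Y with hL
  have hL0 : 0 < L := by linarith
  have hR0 : 0 < R := by linarith
  have hC0 := Th.C0_nonneg
  set s : ℤ → ℝ := fun m => Real.log (√(q m) / Y) with hs
  -- pointwise identity
  have hpt : ∀ m ∈ T, |M m * Fw Y (hmain2 ε Y) m| ≤
      1 / (2 * L ^ 2) * (|M m| * |Fw Y (kq R (s m)) m|) +
        ∑ i ∈ Finset.range J, (|M m * Fw Y (hq (2 ^ i * R) L) m| +
          (2 * a / L * |M m * Fw Y (hx (2 ^ i * R) L) m| +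
          (a / L) ^ 2 * |M m * Fw Y (h1 (2 ^ i * R)) m|)) +
        2 * a / L * |M m * Fw Y (hmain ε Y) m| +
        (a / L) ^ 2 * |M m * Fw Y (hm1 ε Y) m| +
        |M m| * (2 * Th.C0 * (1 + a) ^ 2 * Y ^ 2 * Real.exp (-√(Y : ℝ))) := by
    intro m hmT
    obtain ⟨h1', h2', h3'⟩ := hfe m hmT
    have hsR : -Real.log (√(q m) / Y) ≤ R := by
      have := (abs_le.1 h2').1
      linarith
    have hid := van_windows h1' hY hR0 hsR h3' hε hε1 hJ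
    have htl := hu_le m hY h2'
    rw [← hL] at hid
    rw [hid]
    have e0 : ∀ x : ℝ, |x * -(1 / (2 * L ^ 2) * Fw Y (kq R (s m)) m +
        ∑ i ∈ Finset.range J, (Fw Y (hq (2 ^ i * R) L) m +
          (2 * s m / L * Fw Y (hx (2 ^ i * R) L) m +
          (s m / L) ^ 2 * Fw Y (h1 (2 ^ i * R)) m)) +
        2 * s m / L * Fw Y (hmain ε Y) m + (s m / L) ^ 2 * Fw Y (hm1 ε Y) m +
        Fw Y (hu Y (s m)) m)| ≤
      |1 / (2 * L ^ 2) * (x * Fw Y (kq R (s m)) m)| +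
        |∑ i ∈ Finset.range J, (x * Fw Y (hq (2 ^ i * R) L) m +
          (2 * s m / L * (x * Fw Y (hx (2 ^ i * R) L) m) +
          (s m / L) ^ 2 * (x * Fw Y (h1 (2 ^ i * R)) m)))| +
        |2 * s m / L * (x * Fw Y (hmain ε Y) m)| +
        |(s m / L) ^ 2 * (x * Fw Y (hm1 ε Y) m)| + |x * Fw Y (hu Y (s m)) m| := by
      intro x
      have e1 : x * -(1 / (2 * L ^ 2) * Fw Y (kq R (s m)) m +
        ∑ i ∈ Finset.range J, (Fw Y (hq (2 ^ i * R) L) m +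
          (2 * s m / L * Fw Y (hx (2 ^ i * R) L) m +
          (s m / L) ^ 2 * Fw Y (h1 (2 ^ i * R)) m)) +
        2 * s m / L * Fw Y (hmain ε Y) m + (s m / L) ^ 2 * Fw Y (hm1 ε Y) m +
        Fw Y (hu Y (s m)) m) =
        -(1 / (2 * L ^ 2) * (x * Fw Y (kq R (s m)) m) +
        ∑ i ∈ Finset.range J, (x * Fw Y (hq (2 ^ i * R) L) m +
          (2 * s m / L * (x * Fw Y (hx (2 ^ i * R) L) m) +
          (s m / L) ^ 2 * (x * Fw Y (h1 (2 ^ i * R)) m))) +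
        2 * s m / L * (x * Fw Y (hmain ε Y) m) +
        (s m / L) ^ 2 * (x * Fw Y (hm1 ε Y) m) + x * Fw Y (hu Y (s m)) m) := by
        have e2 : ∑ i ∈ Finset.range J, (x * Fw Y (hq (2 ^ i * R) L) m +
          (2 * s m / L * (x * Fw Y (hx (2 ^ i * R) L) m) +
          (s m / L) ^ 2 * (x * Fw Y (h1 (2 ^ i * R)) m))) = x * ∑ i ∈ Finset.range J,
            (Fw Y (hq (2 ^ i * R) L) m + (2 * s m / L * Fw Y (hx (2 ^ i * R) L) m +
              (s m / L) ^ 2 * Fw Y (h1 (2 ^ i * R)) m)) := by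
          rw [Finset.mul_sum]
          exact Finset.sum_congr rfl fun i _ => by ring
        rw [e2]
        ring
      rw [e1, abs_neg]
      refine (abs_add_le _ _).trans (add_le_add ?_ le_rfl)
      refine (abs_add_le _ _).trans (add_le_add ?_ le_rfl)
      refine (abs_add_le _ _).trans (add_le_add ?_ le_rfl)
      exact abs_add_le _ _
    refine (e0 (M m)).trans ?_
    have hsa1 : |s m| / L ≤ a / L := by
      gcongr
    have hsa : |2 * s m / L| ≤ 2 * a / L := by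
      rw [abs_div, abs_mul, abs_of_pos hL0, abs_of_pos (by norm_num : (0 : ℝ) < 2)]
      gcongr
    have hsb : |(s m / L) ^ 2| ≤ (a / L) ^ 2 := by
      rw [abs_pow, abs_div, abs_of_pos hL0]
      gcongr
    refine add_le_add (add_le_add (add_le_add (add_le_add ?_ ?_) ?_) ?_) ?_
    · rw [abs_mul, abs_mul, abs_of_pos (by positivity)]
    · refine (Finset.abs_sum_le_sum_abs _ _).trans (Finset.sum_le_sum fun i _ => ?_)
      refine (abs_add_le _ _).trans (add_le_add le_rfl ?_)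
      refine (abs_add_le _ _).trans (add_le_add ?_ ?_)
      · rw [abs_mul]
        gcongr
      · rw [abs_mul]
        gcongr
    · rw [abs_mul]
      gcongr
    · rw [abs_mul]
      gcongr
    · rw [abs_mul]
      gcongr
  -- the sums
  have hsub : ∀ f : ℤ → ℝ, ∑ m ∈ T, |f m| ≤ ∑ m ∈ sqZ Y, |f m| := fun f =>
    Finset.sum_le_sum_of_subset_of_nonneg hTs fun _ _ _ => abs_nonneg _
  have hwi : ∀ i < J, L ^ (1 / 200 : ℝ) ≤ 2 ^ i * R ∧ 2 ^ i * R ≤ ε * L := by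
    intro i hi
    constructor
    · calc L ^ (1 / 200 : ℝ) ≤ R := hR3
        _ = 1 * R := (one_mul R).symm
        _ ≤ 2 ^ i * R := by gcongr; exact one_le_pow₀ (by norm_num)
    · rw [← hJ]
      gcongr
      · norm_num
  have b1 : ∑ m ∈ T, |M m| * |Fw Y (kq R (s m)) m| ≤ 2 * L * (Y * (√(Cr * Cs) *
      L ^ (-(1 / 50) : ℝ))) := by
    refine (cs_two hTs M (fun m => Fw Y (kq R (s m)) m) hM hstrip).trans ?_
    rw [← Real.sqrt_mul (by positivity)]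
    have e1 : Cr * Y * L ^ (28 / 25 : ℝ) * (Cs * R ^ 4 * Y * L ^ (4 / 5 : ℝ)) ≤
        (Cr * Cs) * (Y * L ^ (49 / 50 : ℝ)) ^ 2 := by
      have hR4 : R ^ 4 ≤ L ^ (1 / 25 : ℝ) := by
        calc R ^ 4 ≤ (L ^ (1 / 100 : ℝ)) ^ 4 := by
              gcongr
              have : 0 ≤ L ^ (1 / 100 : ℝ) := by positivity
              linarith
          _ = L ^ (1 / 25 : ℝ) := by
              rw [← Real.rpow_natCast, ← Real.rpow_mul hL0.le]; norm_num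
      have hLL : L ^ (28 / 25 : ℝ) * (L ^ (1 / 25 : ℝ) * L ^ (4 / 5 : ℝ)) =
          (L ^ (49 / 50 : ℝ)) ^ 2 := by
        rw [← Real.rpow_add hL0, ← Real.rpow_add hL0, ← Real.rpow_natCast, ← Real.rpow_mul hL0.le]
        norm_num
      calc Cr * Y * L ^ (28 / 25 : ℝ) * (Cs * R ^ 4 * Y * L ^ (4 / 5 : ℝ))
          ≤ Cr * Y * L ^ (28 / 25 : ℝ) * (Cs * L ^ (1 / 25 : ℝ) * Y * L ^ (4 / 5 : ℝ)) := by gcongr
        _ = (Cr * Cs) * Y ^ 2 * (L ^ (28 / 25 : ℝ) * (L ^ (1 / 25 : ℝ) * L ^ (4 / 5 : ℝ))) := by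
            ring
        _ = _ := by rw [hLL]; ring
    refine (Real.sqrt_le_sqrt e1).trans ?_
    rw [Real.sqrt_mul (by positivity), Real.sqrt_sq (by positivity)]
    have e2 : L ^ (49 / 50 : ℝ) = L * L ^ (-(1 / 50) : ℝ) := by
      nth_rewrite 2 [← Real.rpow_one L]
      rw [← Real.rpow_add hL0]
      norm_num
    rw [e2]
    have : 0 ≤ √(Cr * Cs) * (Y * (L * L ^ (-(1 / 50) : ℝ))) := by positivity
    nlinarith
  have hwL : ∀ i < J, 2 ^ i * R / L ≤ 1 := by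
    intro i hi
    obtain ⟨-, h3⟩ := hwi i hi
    rw [div_le_one hL0]
    nlinarith
  have hupp := sum_up (T := R / L) (J := J) (e := ε) (by positivity) (by
      rw [← mul_div_assoc, hJ]; field_simp) (by linarith)
  have b0 : ∑ i ∈ Finset.range J, ∑ m ∈ T, |M m * Fw Y (hq (2 ^ i * R) L) m| ≤
      12 * (Cw * Cn) * ζ * Y := by
    have h1 : ∀ i ∈ Finset.range J, ∑ m ∈ T, |M m * Fw Y (hq (2 ^ i * R) L) m| ≤
        (Cw * Cn) * ζ * Y * (2 ^ i * (R / L)) ^ (1 / 8 : ℝ) := by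
      intro i hi
      obtain ⟨h2, h3⟩ := hwi i (Finset.mem_range.1 hi)
      have hw0 : 0 < (2 : ℝ) ^ i * R := by positivity
      have h4 := hwin (2 ^ i * R) (Cn * (2 ^ i * R / L) ^ 2) (hq (2 ^ i * R) L) h2 h3
        (by positivity) (hq_smooth _ _ _) (fun x hx0 => hq_supp hw0 hx0)
        (fun k hk x => hhq _ _ hw0 hL0 k hk x)
      refine (hsub _).trans (h4.trans ?_)
      have e3 : (2 ^ i * R / L) * (2 ^ i * R / L) ^ (-(7 / 8) : ℝ) =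
          (2 ^ i * (R / L)) ^ (1 / 8 : ℝ) := by
        rw [← mul_div_assoc]
        nth_rewrite 1 [← Real.rpow_one (2 ^ i * R / L)]
        rw [← Real.rpow_add (by positivity)]
        norm_num
      have h5 := hwL i (Finset.mem_range.1 hi)
      have h6 : 0 ≤ Cw * Cn * ζ * Y * ((2 ^ i * R / L) * (2 ^ i * R / L) ^ (-(7 / 8) : ℝ)) := by
        positivity
      rw [← e3]
      calc Cw * Y * (Cn * (2 ^ i * R / L) ^ 2) * ζ * (2 ^ i * R / L) ^ (-(7 / 8) : ℝ)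
          = (Cw * Cn * ζ * Y * ((2 ^ i * R / L) * (2 ^ i * R / L) ^ (-(7 / 8) : ℝ))) *
            (2 ^ i * R / L) := by ring
        _ ≤ (Cw * Cn * ζ * Y * ((2 ^ i * R / L) * (2 ^ i * R / L) ^ (-(7 / 8) : ℝ))) * 1 := by
            gcongr
        _ = _ := mul_one _
    refine (Finset.sum_le_sum h1).trans ?_
    rw [← Finset.mul_sum]
    calc Cw * Cn * ζ * Y * ∑ i ∈ Finset.range J, (2 ^ i * (R / L)) ^ (1 / 8 : ℝ)
        ≤ Cw * Cn * ζ * Y * 12 := by gcongr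
      _ = _ := by ring
  have b2 : ∑ i ∈ Finset.range J, ∑ m ∈ T, |M m * Fw Y (hx (2 ^ i * R) L) m| ≤
      12 * (Cw * Cn) * ζ * Y := by
    have h1 : ∀ i ∈ Finset.range J, ∑ m ∈ T, |M m * Fw Y (hx (2 ^ i * R) L) m| ≤
        (Cw * Cn) * ζ * Y * (2 ^ i * (R / L)) ^ (1 / 8 : ℝ) := by
      intro i hi
      obtain ⟨h2, h3⟩ := hwi i (Finset.mem_range.1 hi)
      have hw0 : 0 < (2 : ℝ) ^ i * R := by positivity
      have h4 := hwin (2 ^ i * R) (Cn * (2 ^ i * R / L)) (hx (2 ^ i * R) L) h2 h3 (by positivity)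
        (hx_smooth _ _ _) (fun x hx0 => hx_supp hw0 hx0)
        (fun k hk x => hhx _ _ hw0 hL0 k hk x)
      refine (hsub _).trans (h4.trans (le_of_eq ?_))
      have e3 : (2 ^ i * R / L) * (2 ^ i * R / L) ^ (-(7 / 8) : ℝ) =
          (2 ^ i * (R / L)) ^ (1 / 8 : ℝ) := by
        rw [← mul_div_assoc]
        nth_rewrite 1 [← Real.rpow_one (2 ^ i * R / L)]
        rw [← Real.rpow_add (by positivity)]
        norm_num
      rw [← e3]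
      ring
    refine (Finset.sum_le_sum h1).trans ?_
    rw [← Finset.mul_sum]
    calc Cw * Cn * ζ * Y * ∑ i ∈ Finset.range J, (2 ^ i * (R / L)) ^ (1 / 8 : ℝ)
        ≤ Cw * Cn * ζ * Y * 12 := by gcongr
      _ = _ := by ring
  have b3 : ∑ i ∈ Finset.range J, ∑ m ∈ T, |M m * Fw Y (h1 (2 ^ i * R)) m| ≤
      Cw * Cn * ζ * Y * (4 * L ^ (7 / 8 : ℝ)) := by
    have h1' : ∀ i ∈ Finset.range J, ∑ m ∈ T, |M m * Fw Y (h1 (2 ^ i * R)) m| ≤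
        (Cw * Cn) * ζ * Y * (2 ^ i * R / L) ^ (-(7 / 8) : ℝ) := by
      intro i hi
      obtain ⟨h2, h3⟩ := hwi i (Finset.mem_range.1 hi)
      have hw0 : 0 < (2 : ℝ) ^ i * R := by positivity
      have h4 := hwin (2 ^ i * R) Cn (h1 (2 ^ i * R)) h2 h3 hCn
        (h1_smooth _ _) (fun x hx0 => h1_supp hw0 hx0)
        (fun k hk x => hh1 _ hw0 k hk x)
      refine (hsub _).trans (h4.trans (le_of_eq ?_))
      ring
    refine (Finset.sum_le_sum h1').trans ?_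
    rw [← Finset.mul_sum]
    have h5 := sum_down (L := L) (R := R) hL0 hR1 J
    gcongr
  have b4 : ∀ f : ℤ → ℝ, ∑ m ∈ sqZ Y, (M m * f m) ^ 2 ≤ Cm * Y →
      ∑ m ∈ T, |M m * f m| ≤ √(2 * Cm) * Y := by
    intro f hf
    refine (cs_one hTs _ hf).trans ?_
    rw [← Real.sqrt_mul (by positivity)]
    have : Cm * Y * (2 * Y) = (2 * Cm) * (Y : ℝ) ^ 2 := by ring
    rw [this, Real.sqrt_mul (by positivity), Real.sqrt_sq hY0.le]
  have b4a := b4 _ hm'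
  have b4b := b4 _ hm
  have b5 : ∑ m ∈ T, |M m| ≤ √(2 * Cr) * (Y * Y) := by
    refine (cs_one hTs _ hM).trans ?_
    rw [← Real.sqrt_mul (by positivity)]
    have hLY : L ^ (28 / 25 : ℝ) ≤ (Y : ℝ) ^ 2 := by
      have h2 : L ≤ Y := (Real.log_le_sub_one_of_pos hY0).trans (by linarith)
      calc L ^ (28 / 25 : ℝ) ≤ L ^ (2 : ℝ) :=
            Real.rpow_le_rpow_of_exponent_le hL1 (by norm_num)
        _ = L ^ 2 := by rw [← Real.rpow_natCast]; norm_num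
        _ ≤ _ := by gcongr
    have : Cr * Y * L ^ (28 / 25 : ℝ) * (2 * Y) ≤ (2 * Cr) * ((Y : ℝ) * Y) ^ 2 := by
      calc Cr * Y * L ^ (28 / 25 : ℝ) * (2 * Y) ≤ Cr * Y * (Y : ℝ) ^ 2 * (2 * Y) := by gcongr
        _ = _ := by ring
    refine (Real.sqrt_le_sqrt this).trans ?_
    rw [Real.sqrt_mul (by positivity), Real.sqrt_sq (by positivity)]
  -- conclusion
  have hLi1 : L⁻¹ ≤ 1 := inv_le_one_of_one_le₀ hL1
  have hLi0 : 0 < L⁻¹ := inv_pos.2 hL0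
  have e4 : L⁻¹ * L ^ (7 / 8 : ℝ) = L ^ (-(1 / 8) : ℝ) := by
    rw [← Real.rpow_neg_one, ← Real.rpow_add hL0]
    norm_num
  have c1 : 1 / (2 * L ^ 2) * (2 * L * (Y * (√(Cr * Cs) * L ^ (-(1 / 50) : ℝ)))) ≤
      Y * (√(Cr * Cs) * L ^ (-(1 / 50) : ℝ)) := by
    have e : 1 / (2 * L ^ 2) * (2 * L * (Y * (√(Cr * Cs) * L ^ (-(1 / 50) : ℝ)))) =
        L⁻¹ * (Y * (√(Cr * Cs) * L ^ (-(1 / 50) : ℝ))) := by
      field_simp
    rw [e]
    exact mul_le_of_le_one_left (by positivity) hLi1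
  have c2 : (a / L) ^ 2 * (Cw * Cn * ζ * Y * (4 * L ^ (7 / 8 : ℝ))) ≤
      4 * a ^ 2 * (Cw * Cn * ζ) * L ^ (-(1 / 8) : ℝ) * Y := by
    have e : (a / L) ^ 2 * (Cw * Cn * ζ * Y * (4 * L ^ (7 / 8 : ℝ))) =
        L⁻¹ * (4 * a ^ 2 * (Cw * Cn * ζ) * (L⁻¹ * L ^ (7 / 8 : ℝ)) * Y) := by
      rw [div_eq_mul_inv]
      ring
    rw [e, e4]
    exact mul_le_of_le_one_left (by positivity) hLi1
  have c3 : (a / L) ^ 2 * (√(2 * Cm) * Y) ≤ a ^ 2 * √(2 * Cm) * L⁻¹ * Y := by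
    have e : (a / L) ^ 2 * (√(2 * Cm) * Y) = L⁻¹ * (a ^ 2 * √(2 * Cm) * L⁻¹ * Y) := by
      rw [div_eq_mul_inv]
      ring
    rw [e]
    exact mul_le_of_le_one_left (by positivity) hLi1
  calc |∑ m ∈ T, M m * Fw Y (hmain2 ε Y) m| ≤ ∑ m ∈ T, |M m * Fw Y (hmain2 ε Y) m| :=
        Finset.abs_sum_le_sum_abs _ _
    _ ≤ ∑ m ∈ T, (1 / (2 * L ^ 2) * (|M m| * |Fw Y (kq R (s m)) m|) +
        ∑ i ∈ Finset.range J, (|M m * Fw Y (hq (2 ^ i * R) L) m| +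
          (2 * a / L * |M m * Fw Y (hx (2 ^ i * R) L) m| +
          (a / L) ^ 2 * |M m * Fw Y (h1 (2 ^ i * R)) m|)) +
        2 * a / L * |M m * Fw Y (hmain ε Y) m| +
        (a / L) ^ 2 * |M m * Fw Y (hm1 ε Y) m| +
        |M m| * (2 * Th.C0 * (1 + a) ^ 2 * Y ^ 2 * Real.exp (-√(Y : ℝ)))) :=
        Finset.sum_le_sum hpt
    _ = 1 / (2 * L ^ 2) * ∑ m ∈ T, |M m| * |Fw Y (kq R (s m)) m| +
        (∑ i ∈ Finset.range J, ∑ m ∈ T, |M m * Fw Y (hq (2 ^ i * R) L) m| +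
          (2 * a / L * ∑ i ∈ Finset.range J, ∑ m ∈ T, |M m * Fw Y (hx (2 ^ i * R) L) m| +
          (a / L) ^ 2 * ∑ i ∈ Finset.range J, ∑ m ∈ T, |M m * Fw Y (h1 (2 ^ i * R)) m|)) +
        2 * a / L * ∑ m ∈ T, |M m * Fw Y (hmain ε Y) m| +
        (a / L) ^ 2 * ∑ m ∈ T, |M m * Fw Y (hm1 ε Y) m| +
        (∑ m ∈ T, |M m|) * (2 * Th.C0 * (1 + a) ^ 2 * Y ^ 2 * Real.exp (-√(Y : ℝ))) := by
        rw [Finset.sum_add_distrib, Finset.sum_add_distrib, Finset.sum_add_distrib,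
          Finset.sum_add_distrib, ← Finset.mul_sum, ← Finset.mul_sum, ← Finset.mul_sum,
          ← Finset.sum_mul, Finset.sum_comm]
        congr 4
        simp_rw [Finset.sum_add_distrib, Finset.mul_sum]
    _ ≤ 1 / (2 * L ^ 2) * (2 * L * (Y * (√(Cr * Cs) * L ^ (-(1 / 50) : ℝ)))) +
        (12 * (Cw * Cn) * ζ * Y + (2 * a / L * (12 * (Cw * Cn) * ζ * Y) +
          (a / L) ^ 2 * (Cw * Cn * ζ * Y * (4 * L ^ (7 / 8 : ℝ))))) +
        2 * a / L * (√(2 * Cm) * Y) + (a / L) ^ 2 * (√(2 * Cm) * Y) +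
        (√(2 * Cr) * (Y * Y)) * (2 * Th.C0 * (1 + a) ^ 2 * Y ^ 2 * Real.exp (-√(Y : ℝ))) := by
        gcongr
    _ ≤ Y * (√(Cr * Cs) * L ^ (-(1 / 50) : ℝ)) +
        (12 * (Cw * Cn) * ζ * Y + (2 * a / L * (12 * (Cw * Cn) * ζ * Y) +
          4 * a ^ 2 * (Cw * Cn * ζ) * L ^ (-(1 / 8) : ℝ) * Y)) +
        2 * a / L * (√(2 * Cm) * Y) + a ^ 2 * √(2 * Cm) * L⁻¹ * Y +
        (√(2 * Cr) * (Y * Y)) * (2 * Th.C0 * (1 + a) ^ 2 * Y ^ 2 * Real.exp (-√(Y : ℝ))) := by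
        linarith
    _ = _ := by
        rw [div_eq_mul_inv]
        ring

end P004E.Two
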