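import Vale.Agent.P004E.H156.Main
import Vale.Agent.P004.R2.H880.Win

/-!
# P004: the main value of the first moment, weight `x²`
-/

open Real MeasureTheory Set Filter Topology
open scoped ENNReal

namespace P004E.Two

open P004G
open P004 (EN Xf)
open P004E.H156 (gF far_arith comb_aux one_le_aux L_aux Ge AA0 AA0_pos TK TK_sub_le AAK aak_near
  aak_far)

variable [Crv]

/-- the lower bound for `K` fixed -/
theorem TK_ge {C₀ c₀ η θ z η₁ C δ C₁ C₂ T A L ε r : ℝ} {y N D K B Y : ℕ} {S : ℕ → Finset ℕ}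
    {c : ℕ → ℕ → ℝ}
    (hC : ∀ x : ℝ, 1 ≤ x → |∑ p ∈ gp x, (lam p ^ 2 - 1) * Real.log p / p| ≤ C) (hCn : 0 ≤ C)
    (hC₀ : 1 ≤ C₀) (hη : η ≤ 1) (hθ : 0 < θ) (hθ1 : θ ≤ 1)
    (hc₀ : 0 ≤ c₀) (hη₁ : 0 < η₁) (hη₁' : η₁ ≤ 1 / 4) (hz : 0 < z) (hz1 : z ≤ 1 / 2)
    (h2 : z ^ θ ≤ 1 / 2) (h3 : z ^ (θ * (θ * c₀ / 2)) ≤ 1 / 2)
    (h4 : 1 ≤ θ * Real.log (1 / z)) (hLdef : L = Real.log Y) (hLz : 5 ≤ L * z)
    (hB : BlkOK C₀ c₀ η (y : ℝ) θ z L S c) (hN : 0 < N) (hNy : N ≤ y) (hy : 2 ≤ y)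
    (hyD : y ≤ D) (hD : (D : ℝ) ≤ Real.exp (L * z)) (hK : Real.exp (L * z) + 1 ≤ K)
    (hδ0 : 0 ≤ δ) (hδ1 : δ ≤ 1)
    (hr : ∀ D : ℕ, y ≤ D → ∀ z : ℂ,
      ‖z‖ ≤ r → ‖∏ p ∈ (y + 1).primesBelow, Ge N D p (1 + z) - AA0 N y‖ ≤ δ * AA0 N y)
    (hTdef : T = z ^ (-1 + η₁ / 2)) (hT : (1 + T) / L ≤ r)
    (hδb : 2 * √C₀ * (2 * z ^ (θ * c₀ / 2) + 6 * ((1 + T) * z) + 600 * (y : ℝ) ^ (-1 / 8 : ℝ)) ≤ δ)
    (hδl : C * (3 / (L * z) + 2 * ((1 + T) / L) * Real.log (1 + 1 / (2 * z))) +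
      1092 / Real.exp (L * z) ≤ δ) (hεdef : ε = z ^ (1 - η₁)) (hε1 : ε ≤ 1 / 2)
    (hAdef : A = 4 * (24001 + C₀)) (hBA : A + 2 * (A + 795) / η₁ ≤ B)
    (g1 : Continuous (gF (Kw ε))) (g2 : Integrable (gF (Kw ε)))
    (g3 : ∀ x : ℝ, (Kw ε x : ℂ) = ∫ τ : ℝ, gF (Kw ε) τ * Complex.exp (τ * x * Complex.I))
    (g4 : (∫ τ, ‖gF (Kw ε) τ‖) ≤ C₁)
    (g5 : Integrable (fun τ => ‖gF (Kw ε) τ‖ * (1 + |τ| * ε) ^ B))
    (g6 : (∫ τ, ‖gF (Kw ε) τ‖ * (1 + |τ| * ε) ^ B) ≤ C₂ / ε)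
    (k1 : 4 * Real.exp 1 * (17 * δ * C₁) ≤ Real.exp (-2 * π))
    (k2 : 4 * Real.exp 1 * ((((25 / 4) ^ (y + 1) * Real.exp (1216 * √C₀) * Real.exp 1792 +
      AA0 N y) * 2 ^ A * z ^ 3) * (C₂ / ε)) ≤ Real.exp (-2 * π) * AA0 N y) :
    2 * Real.exp (-2 * π) * AA0 N y ≤
      TK N D K S c (nb θ z L + 1) (cfY Y (hmain2 ε Y)) := by
  have hL10 : 10 ≤ L := L_aux hz hz1 hLz
  have hL0 : 0 < L := by linarith only [hL10]
  have hYR : 1 < (Y : ℝ) := by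
    by_contra hcon
    rw [not_lt] at hcon
    have := Real.log_nonpos (Nat.cast_nonneg Y) hcon
    linarith only [this, hL0, hLdef]
  have hY0 : (0 : ℝ) < Y := by linarith only [hYR]
  have hY : 1 ≤ Y := by exact_mod_cast hY0
  have hε0 : 0 < ε := by rw [hεdef]; positivity
  have hA0 : 0 ≤ A := by rw [hAdef]; linarith only [hC₀]
  have hAA := AA0_pos N y
  set G : ℝ := (25 / 4) ^ (y + 1) * Real.exp (1216 * √C₀) * Real.exp 1792 with hG
  have hG0 : 0 < G := by positivity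
  set R : ℝ := (G + AA0 N y) * 2 ^ A * z ^ 3 with hR
  have hR0 : 0 ≤ R := by positivity
  set g : ℝ → ℂ := fun τ => (L : ℝ) * gF (Kw ε) (L * τ) with hg
  have hgc : Continuous g := continuous_const.mul (g1.comp (continuous_const.mul continuous_id))
  have hgi : Integrable g := (g2.comp_mul_left' hL0.ne').const_mul _
  have hgn : ∀ τ, ‖g τ‖ = L * ‖gF (Kw ε) (L * τ)‖ := by
    intro τ
    simp only [hg]
    rw [norm_mul, Complex.norm_real, Real.norm_of_nonneg hL0.le]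
  have hrep : ∀ x : ℝ, ((hmain2 ε Y x : ℝ) * (Real.exp (-(1 / L) * x) : ℝ) : ℂ) =
      ∫ τ : ℝ, g τ * Complex.exp (τ * x * Complex.I) := by
    intro x
    have := hmain2_rep hYR hε0 g3 x
    rw [← hLdef] at this
    exact this
  -- the bound of the integrand
  have hBd : ∀ τ : ℝ, ‖AAK N D K S c (nb θ z L + 1) (((1 / L : ℝ) : ℂ) + τ * Complex.I) -
      AA0 N y‖ ≤ 17 * δ * AA0 N y + R * (1 + |L * τ| * ε) ^ B := by
    intro τ
    rcases le_or_gt |L * τ| T with h | h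
    · have h5 := aak_near hC hCn hC₀ hθ.le hc₀ hz hz1 h2 h3 hLz hB hN hNy hy
        hyD hD hK hδ0 hδ1 hr hT hδb hδl h
      have h6 : 0 ≤ R * (1 + |L * τ| * ε) ^ B := by positivity
      exact h5.trans (le_add_of_nonneg_right h6)
    · have h5 := aak_far hC₀ hη hθ hθ1 hc₀ hz hz1 h2 h3 h4 hLz hB hN hNy hy hyD hD hK τ
      have h6 := far_arith (T := |L * τ|) (ε := ε) hz (by linarith only [hz1]) hη₁ hη₁' hεdef hA0
        hBA (by rw [← hTdef]; exact h.le)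
      rw [← hG, ← hAdef, mul_assoc] at h5
      have h7 : 1 ≤ z ^ (-792 : ℝ) * (1 + |L * τ|) ^ A := one_le_aux
        (Real.one_le_rpow_of_pos_of_le_one_of_nonpos hz (by linarith only [hz1]) (by norm_num))
        (Real.one_le_rpow (by linarith only [abs_nonneg (L * τ)]) hA0)
      have h8 : ‖AAK N D K S c (nb θ z L + 1) (((1 / L : ℝ) : ℂ) + τ * Complex.I) -
          AA0 N y‖ ≤ G * (z ^ (-792 : ℝ) * (1 + |L * τ|) ^ A) + AA0 N y := by
        refine (norm_sub_le _ _).trans ?_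
        rw [Complex.norm_real, Real.norm_of_nonneg hAA.le]
        exact add_le_add h5 le_rfl
      have h9 := comb_aux h8 h7 hAA.le hG0.le h6
      have h11 : (G + AA0 N y) * (2 ^ A * z ^ 3 * (1 + |L * τ| * ε) ^ B) =
          R * (1 + |L * τ| * ε) ^ B := by rw [hR]; ring
      have h12 : 0 ≤ 17 * δ * AA0 N y := by positivity
      rw [h11] at h9
      exact h9.trans (le_add_of_nonneg_left h12)
  -- the integral of the bound
  set F : ℝ → ℝ := fun t => ‖gF (Kw ε) t‖ * (17 * δ * AA0 N y + R * (1 + |t| * ε) ^ B) with hF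
  have hFi : Integrable F := by
    refine ((g2.norm.const_mul (17 * δ * AA0 N y)).add (g5.const_mul R)).congr
      (Eventually.of_forall fun t => ?_)
    simp only [hF, Pi.add_apply]
    ring
  have hFint : ∫ t, F t ≤ 17 * δ * AA0 N y * C₁ + R * (C₂ / ε) := by
    have e : (∫ t, F t) = ∫ t, (17 * δ * AA0 N y * ‖gF (Kw ε) t‖ +
        R * (‖gF (Kw ε) t‖ * (1 + |t| * ε) ^ B)) := by
      refine integral_congr_ae (Eventually.of_forall fun t => ?_)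
      simp only [hF]
      ring
    rw [e, integral_add (g2.norm.const_mul _) (g5.const_mul _), integral_const_mul,
      integral_const_mul]
    gcongr
  have e1 : ∀ τ, ‖g τ‖ * (17 * δ * AA0 N y + R * (1 + |L * τ| * ε) ^ B) = L * F (L * τ) := by
    intro τ
    simp only [hF]
    rw [hgn]
    ring
  have hBi : Integrable (fun τ => ‖g τ‖ * (17 * δ * AA0 N y + R * (1 + |L * τ| * ε) ^ B)) := by
    simp only [e1]
    exact (hFi.comp_mul_left' hL0.ne').const_mul L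
  have hBint : ∫ τ, ‖g τ‖ * (17 * δ * AA0 N y + R * (1 + |L * τ| * ε) ^ B) = ∫ t, F t := by
    simp only [e1]
    rw [integral_const_mul, MeasureTheory.Measure.integral_comp_mul_left F L, smul_eq_mul,
      abs_of_pos (inv_pos.2 hL0), ← mul_assoc, mul_inv_cancel₀ hL0.ne', one_mul]
  have hTK := TK_sub_le (N := N) (D := D) (K := K) (S := S) (c := c) (n := nb θ z L + 1) hY
    (σ := 1 / L) (by positivity) (by rw [div_le_iff₀ hL0]; linarith only [hL10]) hgc hgi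
    (h := hmain2 ε Y) hrep hBd hBi
  have hYσ : (Y : ℝ) ^ (1 / L) = Real.exp 1 := by
    rw [Real.rpow_def_of_pos hY0, ← hLdef]
    congr 1
    field_simp
  rw [hBint, hYσ] at hTK
  have hb1 := bet_one_ge (Y := Y) (ε := ε) (by rw [← hLdef]; linarith only [hL10]) hε0 hε1
  have h5 := (abs_le.1 hTK).1
  have he : 0 < Real.exp 1 := Real.exp_pos 1
  have h6 : 4 * Real.exp 1 * ∫ t, F t ≤ 2 * (Real.exp (-2 * π) * AA0 N y) := by
    calc 4 * Real.exp 1 * ∫ t, F t ≤ 4 * Real.exp 1 * (17 * δ * AA0 N y * C₁ + R * (C₂ / ε)) := by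
          gcongr
      _ = (4 * Real.exp 1 * (17 * δ * C₁)) * AA0 N y + 4 * Real.exp 1 * (R * (C₂ / ε)) := by ring
      _ ≤ Real.exp (-2 * π) * AA0 N y + Real.exp (-2 * π) * AA0 N y := by gcongr
      _ = _ := by ring
  have h7 : AA0 N y * (4 * Real.exp (-2 * π)) ≤ AA0 N y * bet (cfY Y (hmain2 ε Y)) 1 := by gcongr
  linarith only [h5, h6, h7]

end P004E.Two
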