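import Vale.Agent.P004E.H156.Pf
import Vale.Agent.P004.R2.H880.Main

/-!
# P004: the main value of the first moment, weight `x²`
-/

open Real MeasureTheory Set Filter Topology
open scoped ENNReal

namespace P004E.Two

open P004G
open P004 (EN Xf)
open P004E.H156 (gF rhoN exists_y exists_z exists_L small_near AA0 AA0_pos TK tendsto_lin)

variable [Crv]

/-- Module F3 : the main value. -/
def StMainVal2 : Prop := ∀ C₀ c₀ η : ℝ, 1 ≤ C₀ → 0 < c₀ → 0 < η → η ≤ 1 →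
  ∀ N : ℕ, 0 < N → ∃ c₁ y₀ : ℝ, 0 < c₁ ∧ 2 ≤ y₀ ∧ (N : ℝ) ≤ y₀ ∧
  ∀ θ η₁ : ℝ, 0 < θ → θ ≤ 1 / 10 → 0 < η₁ → η₁ ≤ 1 / 4 → ∃ z₀ : ℝ, 0 < z₀ ∧
  ∀ z : ℝ, 0 < z → z ≤ z₀ → ∀ D : ℕ, y₀ ≤ D → ∃ Y₀ : ℕ,
    ∀ (Y : ℕ) (S : ℕ → Finset ℕ) (c : ℕ → ℕ → ℝ), Y₀ ≤ Y →
    BlkOK C₀ c₀ η y₀ θ z (Real.log Y) S c →
    ∀ (A : Finset ℕ) (m : ℕ → ℝ), (∀ a ∈ A, a ≠ 0) →
    (∀ X : ℕ → ℝ, P004.CM X →
      ∏ i ∈ Finset.range (nb θ z (Real.log Y) + 1), Mi S c i X = ∑ a ∈ A, m a * X a) →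
    c₁ ≤ ∑ a ∈ A, m a *
      ∑' n : ℕ, bet (cfY Y (hmain2 (z ^ (1 - η₁)) Y)) n * rhoN N D (a * n)


/-- Module F3 : the main value. -/
theorem pfMainVal2 (hM : StMert) : StMainVal2 := by
  intro C₀ c₀ η hC₀ hc₀ hη0 hη N hN
  obtain ⟨C, hC1, hC⟩ := hM
  obtain ⟨C₁, hC₁, hspec⟩ := Kw_spec
  have he : 0 < Real.exp 1 := Real.exp_pos 1
  have he2 : 0 < Real.exp (-2 * π) := Real.exp_pos _
  set δ : ℝ := Real.exp (-2 * π) / (68 * Real.exp 1 * C₁) with hδ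
  have hδ0 : 0 < δ := by positivity
  have hδ1 : δ ≤ 1 := by
    rw [hδ, div_le_one (by positivity)]
    have h1 : Real.exp (-2 * π) ≤ 1 := Real.exp_le_one_iff.2 (by linarith [Real.pi_pos])
    have h2 : 1 ≤ Real.exp 1 := Real.one_le_exp zero_le_one
    nlinarith
  have k1 : 4 * Real.exp 1 * (17 * δ * C₁) ≤ Real.exp (-2 * π) := by
    rw [hδ]
    apply le_of_eq
    field_simp
    ring
  obtain ⟨y, hy2, hNy, hyb⟩ := exists_y N (2 * √C₀ * 600) (b := δ / 2) (by positivity)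
  have hAA := AA0_pos N y
  refine ⟨2 * Real.exp (-2 * π) * AA0 N y, y, by positivity, by exact_mod_cast hy2,
    by exact_mod_cast hNy, fun θ η₁ hθ hθ1 hη₁ hη₁' => ?_⟩
  obtain ⟨r, hr0, hr⟩ := small_near N y (δ := δ * AA0 N y) (by positivity)
  set A : ℝ := 4 * (24001 + C₀) with hA
  obtain ⟨B, hB⟩ := exists_nat_ge (A + 2 * (A + 795) / η₁)
  obtain ⟨C₂, hC₂, hsp⟩ := hspec B
  set G : ℝ := (25 / 4) ^ (y + 1) * Real.exp (1216 * √C₀) * Real.exp 1792 with hG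
  obtain ⟨z₀, hz₀, hz⟩ := exists_z (θ := θ) (c₀ := c₀) (η₁ := η₁) (a := 2 * √C₀) (b := δ / 2)
    (M := 4 * Real.exp 1 * ((G + AA0 N y) * 2 ^ A * C₂)) (κ := Real.exp (-2 * π) * AA0 N y)
    hθ hc₀ hη₁ hη₁' (by positivity) (by positivity)
  refine ⟨z₀, hz₀, fun z hz0 hzz₀ D hyD => ?_⟩
  obtain ⟨f1, f2, f3, f4, f5, f6, f7⟩ := hz z hz0 hzz₀
  have hLev := exists_L (z := z) (D := D) (T := z ^ (-1 + η₁ / 2)) (r := r) (δ := δ) (C := C)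
    (ℓ := Real.log (1 + 1 / (2 * z))) hz0 hr0 hδ0
  obtain ⟨Y₀, hY₀⟩ := eventually_atTop.1
    ((Real.tendsto_log_atTop.comp (tendsto_natCast_atTop_atTop (R := ℝ))).eventually hLev)
  refine ⟨Y₀, fun Y S c hY hBlk A' m hA' hprod => ?_⟩
  obtain ⟨l1, l2, l3, l4⟩ := hY₀ Y hY
  simp only [Function.comp] at l1 l2 l3 l4
  set L := Real.log Y with hL
  have hε0 : 0 < z ^ (1 - η₁) := by positivity
  obtain ⟨g1, g2, g3, g4, g5, g6⟩ := hsp (z ^ (1 - η₁)) hε0 (by linarith)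
  have hYR : 1 < (Y : ℝ) := by
    by_contra hcon
    rw [not_lt] at hcon
    have h1 := Real.log_nonpos (Nat.cast_nonneg Y) hcon
    rw [← hL] at h1
    nlinarith
  have hδb : 2 * √C₀ * (2 * z ^ (θ * c₀ / 2) + 6 * ((1 + z ^ (-1 + η₁ / 2)) * z) +
      600 * (y : ℝ) ^ (-1 / 8 : ℝ)) ≤ δ := by
    calc _ = 2 * √C₀ * (2 * z ^ (θ * c₀ / 2) + 6 * ((1 + z ^ (-1 + η₁ / 2)) * z)) +
          2 * √C₀ * 600 * (y : ℝ) ^ (-1 / 8 : ℝ) := by ring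
      _ ≤ δ / 2 + δ / 2 := by gcongr
      _ = δ := by ring
  have k2 : 4 * Real.exp 1 * (((G + AA0 N y) * 2 ^ A * z ^ 3) * (C₂ / z ^ (1 - η₁))) ≤
      Real.exp (-2 * π) * AA0 N y := by
    refine le_trans (le_of_eq ?_) f7
    ring
  -- the limit
  have hlim := tendsto_lin (bet_summable hYR hε0) (P004G.H128.bet_zero pfCoef _) hA' m N D
  refine ge_of_tendsto hlim ?_
  have hKev := (tendsto_natCast_atTop_atTop (R := ℝ)).eventually_ge_atTop (Real.exp (L * z) + 1)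
  filter_upwards [hKev] with K hK
  have hfin := TK_ge (K := K) (D := D) hC (by linarith) hC₀ hη hθ (by linarith) hc₀.le hη₁ hη₁' hz0
    f1 f2 f3 f4 hL l1 hBlk hN hNy hy2 (by exact_mod_cast hyD) l2 hK hδ0.le hδ1 hr rfl l3 hδb l4 rfl
    f6 hA hB g1 g2 g3 g4 g5 g6 k1 k2
  refine hfin.trans (le_of_eq ?_)
  unfold TK
  refine P004.H128.EN_congr fun ω => ?_
  rw [hprod _ (P004.H128.Xf_CM ω)]

end P004E.Two
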