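import Vale.Agent.P004E.H147.Swap
import Vale.Agent.P004.R2.H880.Win

/-!
# P004: the twisted first moment over the class, weight `x²`
-/

open Finset Real MeasureTheory Set

namespace P004E.Two

open P004G
open P004E.H156 (rhoN)
open P004E.H147 (Pr clsD densD tw1_class hmain_zero hmain_abs_le hmain_measurable)
open P004G.H3 (dv_nonneg one_le_dv dv_mul_le dv_le abs_chi_le summable_dv_pow chi_mul)

lemma hmain2_zero {ε : ℝ} (hε : 0 < ε) {Y : ℕ} (hY : 0 < Real.log Y) {x : ℝ}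
    (hx : x ≤ ε * Real.log Y) : hmain2 ε Y x = 0 := by
  unfold hmain2
  rw [hmain_zero hε hY hx, mul_zero]

lemma hmain2_abs_le {ε : ℝ} (hε : 0 < ε) {Y : ℕ} (hY : 0 < Real.log Y) (x : ℝ) :
    |hmain2 ε Y x| ≤ 9 := by
  have hY1 : 1 < (Y : ℝ) := by
    by_contra hcon
    rw [not_lt] at hcon
    have := Real.log_nonpos (Nat.cast_nonneg Y) hcon
    linarith
  rw [abs_of_nonneg (hmain2_nonneg hY1 hε x)]
  exact hmain2_le hY1 hε x

lemma hmain2_measurable (ε : ℝ) (Y : ℕ) : Measurable (hmain2 ε Y) :=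
  (hmain2_cont Y ε).measurable

variable [Crv]

/-- the cut window -/
noncomputable def fc (ε : ℝ) (Y : ℕ) (u : ℝ) : ℝ :=
  if 0 < u then (1 / 9 : ℝ) * cfY Y (hmain2 ε Y) u else 0

lemma Fn_fc (ε : ℝ) (Y : ℕ) (h : ℤ) : Fw Y (hmain2 ε Y) h = 9 * Fn (fc ε Y) h := by
  unfold Fw Fn
  rw [← integral_const_mul]
  refine setIntegral_congr_fun measurableSet_Ioi fun u hu => ?_
  simp only [fc, if_pos (show 0 < u from hu)]
  ring

lemma bet_fc (ε : ℝ) (Y n : ℕ) : bet (cfY Y (hmain2 ε Y)) n = 9 * bet (fc ε Y) n := by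
  unfold bet
  have h1 : ∫ u in Ioi (0 : ℝ), Real.exp (-π * n * u) * cfY Y (hmain2 ε Y) u =
      9 * ∫ u in Ioi (0 : ℝ), Real.exp (-π * n * u) * fc ε Y u := by
    rw [← integral_const_mul]
    refine setIntegral_congr_fun measurableSet_Ioi fun u hu => ?_
    simp only [fc, if_pos (show 0 < u from hu)]
    ring
  rw [h1]
  ring

theorem swap (N D : ℕ) (hN : 1 < N) (h2 : 2 ∣ N) {σ : ℤ} (hσ : σ = 1 ∨ σ = -1) {ε κ : ℝ}
    (hε : 0 < ε) (hε1 : ε ≤ 1) (hκ : 0 < κ) :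
    ∃ Y₀ : ℕ, ∀ Y : ℕ, Y₀ ≤ Y → ∀ (A : Finset ℕ) (m : ℕ → ℝ),
      (∀ a ∈ A, Good a ∧ (a : ℝ) ≤ Real.exp (ε * Real.log Y / 64)) →
      ∑ a ∈ A, |m a| ≤ Real.exp (ε * Real.log Y / 64) →
      |∑ h ∈ clsD N D σ Y, (∑ a ∈ A, m a * chi h a) * Fw Y (hmain2 ε Y) h -
        densD N D * Y * ∑ a ∈ A, m a *
          ∑' n : ℕ, bet (cfY Y (hmain2 ε Y)) n * rhoN N D (a * n)| ≤ κ * Y := by
  obtain ⟨C, hC, B, hcl⟩ := tw1_class
  set δ : ℝ := ε / (4 * (B + 1)) with hδ
  have hδ0 : 0 < δ := by positivity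
  set K : ℝ := 9 * (4 * 2 ^ (Pr N D).card) * C * (1 / δ) ^ B with hK
  have hK0 : 0 < K := by positivity
  refine ⟨⌈(K / κ) ^ (2 / ε)⌉₊ + 3, fun Y hY A m hA hm => ?_⟩
  have hY3 : 3 ≤ Y := by omega
  have hYR : (3 : ℝ) ≤ Y := by exact_mod_cast hY3
  have hY0 : (0 : ℝ) < Y := by linarith
  set L : ℝ := Real.log Y with hL
  have hL1 : 1 ≤ L := by
    rw [hL, Real.le_log_iff_exp_le hY0]
    have := Real.exp_one_lt_d9
    linarith
  have hL0 : 0 < L := by linarith
  have hexpL : Real.exp L = Y := Real.exp_log hY0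
  set U : ℝ := Real.exp ((ε - 1) * L) with hU
  have hU0 : 0 < U := Real.exp_pos _
  have hUL : Real.exp (-L) ≤ U := by
    rw [hU]
    apply Real.exp_le_exp.2
    nlinarith
  have hU1 : U ≤ 1 := Real.exp_le_one_iff.2 (by nlinarith)
  have hfm : Measurable (fc ε Y) := by
    unfold fc
    refine Measurable.ite measurableSet_Ioi ?_ measurable_const
    refine Measurable.const_mul ?_ _
    unfold cfY
    exact (hmain2_measurable ε Y).comp (Real.measurable_log.comp (measurable_id.mul_const _))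
  have hf1 : ∀ u, |fc ε Y u| ≤ 1 := by
    intro u
    unfold fc
    split_ifs
    · rw [abs_mul]
      have h3 := hmain2_abs_le hε hL0 (Real.log (u * Y))
      have e1 : cfY Y (hmain2 ε Y) u = hmain2 ε Y (Real.log (u * Y)) := rfl
      rw [e1, abs_of_pos (show (0 : ℝ) < 1 / 9 by norm_num)]
      linarith
    · simp
  have hf0 : ∀ u, u < U → fc ε Y u = 0 := by
    intro u hu
    unfold fc
    split_ifs with h0
    · have e1 : cfY Y (hmain2 ε Y) u = hmain2 ε Y (Real.log (u * Y)) := rfl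
      rw [e1, hmain2_zero hε hL0, mul_zero]
      rw [Real.log_mul h0.ne' hY0.ne']
      have h3 : Real.log u ≤ (ε - 1) * L := by
        rw [← Real.log_exp ((ε - 1) * L)]
        exact Real.log_le_log h0 hu.le
      have h4 : Real.log (Y : ℝ) = L := rfl
      rw [h4]
      linarith
    · rfl
  have hterm : ∀ a ∈ A, |∑ h ∈ clsD N D σ Y, chi h a * Fw Y (hmain2 ε Y) h -
      densD N D * Y * ∑' n : ℕ, bet (cfY Y (hmain2 ε Y)) n * rhoN N D (a * n)| ≤
      9 * (4 * 2 ^ (Pr N D).card) * C * L ^ B * Real.exp (3 * (ε * L / 64)) / U := by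
    intro a ha
    obtain ⟨h3, h4⟩ := hA a ha
    have h5 := hcl N D hN h2 σ hσ L U Y a (fc ε Y) hL1 hUL hU1 h3.ne_zero hfm hf1 hf0
    have e1 : ∑ h ∈ clsD N D σ Y, chi h a * Fw Y (hmain2 ε Y) h -
        densD N D * Y * ∑' n : ℕ, bet (cfY Y (hmain2 ε Y)) n * rhoN N D (a * n) =
        9 * (∑ h ∈ clsD N D σ Y, chi h a * Fn (fc ε Y) h -
          densD N D * Y * ∑' n : ℕ, bet (fc ε Y) n * rhoN N D (a * n)) := by
      have e2 : ∑ h ∈ clsD N D σ Y, chi h a * Fw Y (hmain2 ε Y) h =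
          9 * ∑ h ∈ clsD N D σ Y, chi h a * Fn (fc ε Y) h := by
        rw [Finset.mul_sum]
        refine Finset.sum_congr rfl fun h _ => ?_
        rw [Fn_fc]
        ring
      have e3 : ∑' n : ℕ, bet (cfY Y (hmain2 ε Y)) n * rhoN N D (a * n) =
          9 * ∑' n : ℕ, bet (fc ε Y) n * rhoN N D (a * n) := by
        rw [← tsum_mul_left]
        refine tsum_congr fun n => ?_
        rw [bet_fc]
        ring
      rw [e2, e3]
      ring
    rw [e1, abs_mul, abs_of_pos (show (0 : ℝ) < 9 by norm_num)]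
    have h6 : (a : ℝ) ^ 3 ≤ Real.exp (3 * (ε * L / 64)) := by
      have e4 : Real.exp (3 * (ε * L / 64)) = Real.exp (ε * L / 64) ^ 3 := by
        rw [← Real.exp_nat_mul]
        norm_num
      rw [e4]
      exact pow_le_pow_left₀ (Nat.cast_nonneg _) h4 3
    calc 9 * |∑ h ∈ clsD N D σ Y, chi h a * Fn (fc ε Y) h -
          densD N D * Y * ∑' n : ℕ, bet (fc ε Y) n * rhoN N D (a * n)|
        ≤ 9 * (4 * 2 ^ (Pr N D).card * (C * L ^ B * (a : ℝ) ^ 3 / U)) := by gcongr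
      _ ≤ 9 * (4 * 2 ^ (Pr N D).card * (C * L ^ B * Real.exp (3 * (ε * L / 64)) / U)) := by
          gcongr
      _ = _ := by ring
  have hsum : ∑ h ∈ clsD N D σ Y, (∑ a ∈ A, m a * chi h a) * Fw Y (hmain2 ε Y) h -
      densD N D * Y * ∑ a ∈ A, m a * ∑' n : ℕ, bet (cfY Y (hmain2 ε Y)) n * rhoN N D (a * n) =
      ∑ a ∈ A, m a * (∑ h ∈ clsD N D σ Y, chi h a * Fw Y (hmain2 ε Y) h -
        densD N D * Y * ∑' n : ℕ, bet (cfY Y (hmain2 ε Y)) n * rhoN N D (a * n)) := by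
    have e1 : ∑ h ∈ clsD N D σ Y, (∑ a ∈ A, m a * chi h a) * Fw Y (hmain2 ε Y) h =
        ∑ a ∈ A, m a * ∑ h ∈ clsD N D σ Y, chi h a * Fw Y (hmain2 ε Y) h := by
      simp_rw [Finset.sum_mul, Finset.mul_sum]
      rw [Finset.sum_comm]
      refine Finset.sum_congr rfl fun a _ => Finset.sum_congr rfl fun h _ => ?_
      ring
    rw [e1, Finset.mul_sum, ← Finset.sum_sub_distrib]
    refine Finset.sum_congr rfl fun a _ => ?_
    ring
  rw [hsum]
  have hlog : L ^ B ≤ (1 / δ) ^ B * Real.exp (ε * L / 4) := by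
    have h3 : L ≤ (1 / δ) * Real.exp (δ * L) := by
      have h4 := Real.add_one_le_exp (δ * L)
      rw [one_div, inv_mul_eq_div, le_div_iff₀ hδ0]
      nlinarith
    calc L ^ B ≤ ((1 / δ) * Real.exp (δ * L)) ^ B := pow_le_pow_left₀ hL0.le h3 B
      _ = (1 / δ) ^ B * Real.exp (B * (δ * L)) := by rw [mul_pow, ← Real.exp_nat_mul]
      _ ≤ (1 / δ) ^ B * Real.exp (ε * L / 4) := by
          gcongr
          have h5 : (B : ℝ) * δ ≤ ε / 4 := by
            rw [hδ, mul_div_assoc', div_le_div_iff₀ (by positivity) (by norm_num)]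
            nlinarith [hε.le]
          nlinarith
  have hlast : K ≤ κ * Real.exp (ε * L / 2) := by
    have h3 : (K / κ) ^ (2 / ε) ≤ Y := by
      have h4 : ((⌈(K / κ) ^ (2 / ε)⌉₊ : ℕ) : ℝ) ≤ Y := by
        exact_mod_cast (by omega : ⌈(K / κ) ^ (2 / ε)⌉₊ ≤ Y)
      exact (Nat.le_ceil _).trans h4
    have h5 : K / κ ≤ (Y : ℝ) ^ (ε / 2) := by
      have h6 := Real.rpow_le_rpow (by positivity) h3 (show 0 ≤ ε / 2 by positivity)
      rw [← Real.rpow_mul (by positivity)] at h6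
      have h7 : 2 / ε * (ε / 2) = 1 := by field_simp
      rwa [h7, Real.rpow_one] at h6
    rw [div_le_iff₀ hκ] at h5
    have h8 : (Y : ℝ) ^ (ε / 2) = Real.exp (ε * L / 2) := by
      rw [Real.rpow_def_of_pos hY0]
      congr 1
      ring
    rw [h8] at h5
    linarith
  calc |∑ a ∈ A, m a * (∑ h ∈ clsD N D σ Y, chi h a * Fw Y (hmain2 ε Y) h -
        densD N D * Y * ∑' n : ℕ, bet (cfY Y (hmain2 ε Y)) n * rhoN N D (a * n))|
      ≤ ∑ a ∈ A, |m a| * (9 * (4 * 2 ^ (Pr N D).card) * C * L ^ B *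
          Real.exp (3 * (ε * L / 64)) / U) := by
        refine (Finset.abs_sum_le_sum_abs _ _).trans (Finset.sum_le_sum fun a ha => ?_)
        rw [abs_mul]
        exact mul_le_mul_of_nonneg_left (hterm a ha) (abs_nonneg _)
    _ = (∑ a ∈ A, |m a|) * (9 * (4 * 2 ^ (Pr N D).card) * C * L ^ B *
          Real.exp (3 * (ε * L / 64)) / U) := by rw [Finset.sum_mul]
    _ ≤ Real.exp (ε * L / 64) * (9 * (4 * 2 ^ (Pr N D).card) * C *
          ((1 / δ) ^ B * Real.exp (ε * L / 4)) * Real.exp (3 * (ε * L / 64)) / U) := by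
        gcongr
    _ = K * (Real.exp (ε * L / 64) * Real.exp (ε * L / 4) * Real.exp (3 * (ε * L / 64)) *
          Real.exp (-((ε - 1) * L))) := by
        rw [hK, hU, Real.exp_neg]
        field_simp
    _ = K * Real.exp ((1 - 11 / 16 * ε) * L) := by
        rw [← Real.exp_add, ← Real.exp_add, ← Real.exp_add]
        congr 2
        ring
    _ ≤ K * Real.exp (L - ε * L / 2) := by
        gcongr
        nlinarith
    _ ≤ κ * Real.exp (ε * L / 2) * Real.exp (L - ε * L / 2) := by gcongr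
    _ = κ * Y := by
        rw [mul_assoc, ← Real.exp_add, ← hexpL]
        congr 2
        ring

end P004E.Two
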