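import Vale.Agent.P004E.H628.F3
import Vale.Agent.P004.R2.H880.Pf
import Vale.Agent.P004.R2.H880.Swap

/-!
# P004: the first moment, weight `x²`
-/

open Finset Real

namespace P004E.Two

open P004G P004E.F
open P004E.H147 (Pr clsD densD)
open P004E.H156 (rhoN)

/-! ### the main window -/

/-- the profile of the main window -/
noncomputable def prof2 (ε t : ℝ) : ℝ := t * F.prof ε t

lemma prof2_smooth (ε : ℝ) (n : ℕ) : ContDiff ℝ n (prof2 ε) := by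
  unfold prof2
  exact contDiff_id.mul (F.prof_smooth ε n)

lemma prof2_zero {ε t : ℝ} (hε : 0 < ε) (h : t ≤ ε ∨ 3 ≤ t) : prof2 ε t = 0 := by
  unfold prof2
  rw [F.prof_zero hε h, mul_zero]

lemma prof2_compact {ε : ℝ} (hε : 0 < ε) : HasCompactSupport (prof2 ε) := by
  apply HasCompactSupport.intro (isCompact_Icc (a := ε) (b := 3))
  intro t ht
  apply prof2_zero hε
  rw [Set.mem_Icc, not_and_or, not_le, not_le] at ht
  rcases ht with ht | ht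
  · exact Or.inl ht.le
  · exact Or.inr ht.le

lemma prof2_bound {ε : ℝ} (hε : 0 < ε) (k : ℕ) : ∃ B : ℝ, ∀ t, |iteratedDeriv k (prof2 ε) t| ≤ B := by
  have h1 : Continuous (iteratedFDeriv ℝ k (prof2 ε)) :=
    (prof2_smooth ε k).continuous_iteratedFDeriv le_rfl
  obtain ⟨B, hB⟩ := h1.bounded_above_of_compact_support ((prof2_compact hε).iteratedFDeriv k)
  refine ⟨B, fun t => ?_⟩
  rw [← Real.norm_eq_abs, ← norm_iteratedFDeriv_eq_norm_iteratedDeriv]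
  exact hB t

lemma hmain2_eq {ε : ℝ} (Y : ℕ) (h : 0 < Real.log Y) :
    hmain2 ε Y = fun x => prof2 ε ((Real.log Y)⁻¹ * x) := by
  funext x
  unfold hmain2 prof2
  rw [F.hmain_eq Y h, div_eq_inv_mul]

lemma hmain2_window {ε : ℝ} (hε : 0 < ε) (hε1 : ε ≤ 1) (n : ℕ) : ∃ b : ℝ, 0 ≤ b ∧
    ∀ Y : ℕ, 0 < Real.log Y → ContDiff ℝ n (hmain2 ε Y) ∧
      (∀ x, hmain2 ε Y x ≠ 0 → ε * Real.log Y ≤ x ∧ x ≤ 3 * Real.log Y) ∧
      ∀ k ≤ n, ∀ x, |iteratedDeriv k (hmain2 ε Y) x| ≤ b * (ε * Real.log Y)⁻¹ ^ k := by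
  choose B hB using fun k => prof2_bound hε k
  have hB0 : ∀ k, 0 ≤ B k := fun k => (abs_nonneg _).trans (hB k 0)
  refine ⟨∑ k ∈ range (n + 1), B k, sum_nonneg fun k _ => hB0 k, fun Y hL => ⟨?_, ?_, ?_⟩⟩
  · rw [hmain2_eq Y hL]
    exact (prof2_smooth ε n).comp (contDiff_const.mul contDiff_id)
  · intro x hx
    rw [hmain2_eq Y hL] at hx
    simp only at hx
    have h1 : ¬ ((Real.log Y)⁻¹ * x ≤ ε ∨ 3 ≤ (Real.log Y)⁻¹ * x) := fun h => hx (prof2_zero hε h)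
    rw [not_or, not_le, not_le] at h1
    obtain ⟨h2, h3⟩ := h1
    rw [← div_eq_inv_mul] at h2 h3
    rw [lt_div_iff₀ hL] at h2
    rw [div_lt_iff₀ hL] at h3
    exact ⟨h2.le, h3.le⟩
  · intro k hk x
    rw [hmain2_eq Y hL, iteratedDeriv_comp_const_mul (prof2_smooth ε k)]
    simp only
    rw [abs_mul, abs_of_nonneg (by positivity : (0 : ℝ) ≤ (Real.log Y)⁻¹ ^ k), mul_inv, mul_pow]
    have h1 := hB k ((Real.log Y)⁻¹ * x)
    have h2 : B k ≤ ∑ k ∈ range (n + 1), B k :=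
      single_le_sum (f := B) (fun i _ => hB0 i) (mem_range.2 (by omega))
    have h3 : (1 : ℝ) ≤ ε⁻¹ ^ k := one_le_pow₀ ((one_le_inv₀ hε).2 hε1)
    have h4 : (0 : ℝ) ≤ (Real.log Y)⁻¹ ^ k := by positivity
    calc (Real.log Y)⁻¹ ^ k * |iteratedDeriv k (prof2 ε) ((Real.log Y)⁻¹ * x)|
        ≤ (Real.log Y)⁻¹ ^ k * ((∑ k ∈ range (n + 1), B k) * ε⁻¹ ^ k) := by
          apply mul_le_mul_of_nonneg_left _ h4
          calc |iteratedDeriv k (prof2 ε) ((Real.log Y)⁻¹ * x)| ≤ B k := h1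
            _ ≤ ∑ k ∈ range (n + 1), B k := h2
            _ = (∑ k ∈ range (n + 1), B k) * 1 := (mul_one _).symm
            _ ≤ _ := mul_le_mul_of_nonneg_left h3 ((hB0 k).trans h2)
      _ = _ := by ring

variable [Crv]

/-- the second moment of the main window, over all integers -/
theorem second2 (hWin : StWin) {C₀ c₀ η : ℝ} (hC₀ : 1 ≤ C₀) (hc₀ : 0 < c₀) (hη : 0 < η)
    (hη1 : η ≤ 1) {y₀ θ η₁ : ℝ} (hy₀ : 2 ≤ y₀) (hθ : 0 < θ) (hθ1 : θ ≤ 1 / 10)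
    (h12 : 2 * θ * η ≤ η₁) (hη₁ : 0 < η₁) (hη₁' : η₁ ≤ 1 / 4) :
    ∃ z₀ : ℝ, 0 < z₀ ∧ ∀ z : ℝ, 0 < z → z ≤ z₀ → ∃ K : ℝ, 0 ≤ K ∧ ∃ Y₀ : ℕ,
      ∀ (Y : ℕ) (S : ℕ → Finset ℕ) (c : ℕ → ℕ → ℝ), Y₀ ≤ Y →
      BlkOK C₀ c₀ η y₀ θ z (Real.log Y) S c →
      ∑ k ∈ Icc (-(Y : ℤ)) Y, (Mh S c 0 (nb θ z (Real.log Y) + 1) k *
        Fw Y (hmain2 (z ^ (1 - η₁)) Y) k) ^ 2 ≤ K * Y := by
  obtain ⟨A, hA⟩ := hWin C₀ c₀ η hC₀ hc₀ hη hη1
  obtain ⟨n, C, z₁, hC, hz₁, h1⟩ := hA y₀ θ hy₀ hθ hθ1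
  have hz0' : 0 < (1 / (256 * C₀)) ^ (2 / η₁) := Real.rpow_pos_of_pos (by positivity) _
  refine ⟨min z₁ (min 1 ((1 / (256 * C₀)) ^ (2 / η₁))), by positivity, fun z hz hzz => ?_⟩
  have hzz1 : z ≤ z₁ := hzz.trans (min_le_left _ _)
  have hz1 : z ≤ 1 := hzz.trans ((min_le_right _ _).trans (min_le_left _ _))
  have hz2 : z ≤ (1 / (256 * C₀)) ^ (2 / η₁) := hzz.trans ((min_le_right _ _).trans (min_le_right _ _))
  set ε := z ^ (1 - η₁) with hε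
  have hε0 : 0 < ε := Real.rpow_pos_of_pos hz _
  have hε1 : ε ≤ 1 := Real.rpow_le_one hz.le hz1 (by linarith)
  obtain ⟨b, hb, hwin⟩ := hmain2_window hε0 hε1 n
  have hΛ : 1 ≤ 3 / ε := by rw [le_div_iff₀ hε0]; linarith
  obtain ⟨Y₁, hY₁⟩ := h1 z hz hzz1 (3 / ε) hΛ
  set K := C * (3 / ε) ^ n * b ^ 2 * (ε / z) ^ A * (3 / ε) ^ (A * θ) * (1 + Real.log (3 / ε)) with hK
  have hK0 : 0 ≤ K := by
    have : 0 ≤ Real.log (3 / ε) := Real.log_nonneg hΛ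
    positivity
  have hc0 := P004.H1.c0_pos
  -- `Y` large
  have hlarge : ∀ᶠ Y : ℕ in Filter.atTop, 1 ≤ Real.log Y ∧
      Real.log Y ^ (1 / 200 : ℝ) ≤ ε * Real.log Y := by
    have h2 : Filter.Tendsto (fun Y : ℕ => Real.log (Y : ℝ)) Filter.atTop Filter.atTop :=
      Real.tendsto_log_atTop.comp tendsto_natCast_atTop_atTop
    have h3 : Filter.Tendsto (fun Y : ℕ => Real.log (Y : ℝ) ^ (199 / 200 : ℝ)) Filter.atTop
        Filter.atTop := (tendsto_rpow_atTop (by norm_num)).comp h2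
    filter_upwards [h2.eventually_ge_atTop 1, h3.eventually_ge_atTop (1 / ε)] with Y h4 h5
    refine ⟨h4, ?_⟩
    have hL : 0 < Real.log Y := by linarith
    rw [div_le_iff₀ hε0] at h5
    calc Real.log Y ^ (1 / 200 : ℝ) = Real.log Y ^ (1 / 200 : ℝ) * 1 := (mul_one _).symm
      _ ≤ Real.log Y ^ (1 / 200 : ℝ) * (Real.log Y ^ (199 / 200 : ℝ) * ε) :=
          mul_le_mul_of_nonneg_left h5 (Real.rpow_nonneg hL.le _)
      _ = (Real.log Y ^ (1 / 200 : ℝ) * Real.log Y ^ (199 / 200 : ℝ)) * ε := by ring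
      _ = ε * Real.log Y := by
          rw [← Real.rpow_add hL]
          norm_num
          ring
  obtain ⟨Y₂, hY₂⟩ := Filter.eventually_atTop.1 hlarge
  refine ⟨K / P004.H1.c0, by positivity, max Y₁ (max Y₂ 1), fun Y S c hY hblk => ?_⟩
  have hYY₁ : Y₁ ≤ Y := (le_max_left _ _).trans hY
  have hYY₂ : Y₂ ≤ Y := (le_max_left _ _).trans ((le_max_right _ _).trans hY)
  have hYpos : 0 < Y := lt_of_lt_of_le Nat.one_pos ((le_max_right _ _).trans ((le_max_right _ _).trans hY))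
  obtain ⟨hL1, hLε⟩ := hY₂ Y hYY₂
  have hL : 0 < Real.log Y := by linarith
  obtain ⟨hw1, hw2, hw3⟩ := hwin Y hL
  have hcond : 64 * C₀ * (Real.log Y * zi θ z 0) * Real.exp (η * li θ z 0) ≤ ε * Real.log Y := by
    have e1 : 64 * C₀ * (Real.log Y * zi θ z 0) * Real.exp (η * li θ z 0) =
        64 * C₀ * Real.log Y * (zi θ z 0 * Real.exp (η * li θ z 0)) := by ring
    rw [e1, exp_li hz, P004G.E3W.zi_zero]
    have h3 : z ^ (η₁ / 2) ≤ 1 / (256 * C₀) := by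
      calc z ^ (η₁ / 2) ≤ ((1 / (256 * C₀)) ^ (2 / η₁)) ^ (η₁ / 2) :=
            Real.rpow_le_rpow hz.le hz2 (by linarith)
        _ = 1 / (256 * C₀) := by
            rw [← Real.rpow_mul (by positivity)]
            have : 2 / η₁ * (η₁ / 2) = 1 := by field_simp
            rw [this, Real.rpow_one]
    have h2 : z ^ (1 - η * θ) ≤ ε * (1 / (256 * C₀)) := by
      calc z ^ (1 - η * θ) ≤ z ^ (1 - η₁) * z ^ (η₁ / 2) := by
            rw [← Real.rpow_add hz]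
            apply Real.rpow_le_rpow_of_exponent_ge hz hz1
            nlinarith
        _ ≤ _ := mul_le_mul_of_nonneg_left h3 hε0.le
    calc 64 * C₀ * Real.log Y * z ^ (1 - η * θ)
        ≤ 64 * C₀ * Real.log Y * (ε * (1 / (256 * C₀))) :=
          mul_le_mul_of_nonneg_left h2 (by positivity)
      _ = ε * Real.log Y / 4 := by
          field_simp
          ring
      _ ≤ ε * Real.log Y := by
          have : 0 ≤ ε * Real.log Y := by positivity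
          linarith
  obtain ⟨hs, hle⟩ := hY₁ Y S c hYY₁ hblk 0 (ε * Real.log Y) b (hmain2 ε Y) (Nat.zero_le _) hLε
    (by nlinarith) hcond hb hw1 (fun x hx => by
      obtain ⟨h4, h5⟩ := hw2 x hx
      refine ⟨h4, ?_, h5⟩
      have : 3 / ε * (ε * Real.log Y) = 3 * Real.log Y := by field_simp
      rw [this]; exact h5) hw3
  have e2 : ε * Real.log Y / (Real.log Y * zi θ z 0) = ε / z := by
    rw [P004G.E3W.zi_zero]; field_simp
  have e3 : 3 * Real.log Y / (ε * Real.log Y) = 3 / ε := by field_simp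
  rw [e2, e3] at hle
  have e4 : C * (3 / ε) ^ n * Y * b ^ 2 * (ε / z) ^ A * (3 / ε) ^ (A * θ) * (1 + Real.log (3 / ε)) =
      K * Y := by rw [hK]; ring
  rw [e4] at hle
  have hfin : P004.H1.c0 * ∑ k ∈ Icc (-(Y : ℤ)) Y, (Mh S c 0 (nb θ z (Real.log Y) + 1) k *
      Fw Y (hmain2 ε Y) k) ^ 2 ≤ K * Y := by
    rw [mul_sum]
    refine le_trans ?_ hle
    refine le_trans (sum_le_sum fun k hk => ?_) (hs.sum_le_tsum (Icc (-(Y : ℤ)) Y) (fun k _ => ?_))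
    · rw [mem_Icc] at hk
      exact mul_le_mul_of_nonneg_right (c0_le_ah hYpos (abs_le.2 hk)) (sq_nonneg _)
    · exact mul_nonneg (P004.H1.ah_nonneg _ _) (sq_nonneg _)
  rw [div_mul_eq_mul_div, le_div_iff₀ hc0]
  linarith

/-- Module F : the first moment in a class. The constant `c₁` does not depend on `θ, η₁, z`. -/
def StFirst2 : Prop := ∀ C₀ c₀ η : ℝ, 1 ≤ C₀ → 0 < c₀ → 0 < η → η ≤ 1 →
  ∀ (σ : ℤ) (N : ℕ), (σ = 1 ∨ σ = -1) → 0 < N → 8 ∣ N → bd ∣ N →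
  ∃ c₁ y₀ : ℝ, 0 < c₁ ∧ 2 ≤ y₀ ∧ ∀ θ η₁ : ℝ, 0 < θ → θ ≤ 1 / 10 → 2 * θ * η ≤ η₁ → 0 < η₁ →
    η₁ ≤ 1 / 4 → ∃ z₀ : ℝ, 0 < z₀ ∧ ∀ z : ℝ, 0 < z → z ≤ z₀ → ∃ Y₀ : ℕ,
    ∀ (Y : ℕ) (S : ℕ → Finset ℕ) (c : ℕ → ℕ → ℝ), Y₀ ≤ Y →
    BlkOK C₀ c₀ η y₀ θ z (Real.log Y) S c →
    c₁ * Y ≤ ∑ m ∈ Cl σ N Y, Mh S c 0 (nb θ z (Real.log Y) + 1) m *
      Fw Y (hmain2 (z ^ (1 - η₁)) Y) m

/-- the exchange of summations (helper147) -/
def StSwap2 : Prop := ∀ (N D : ℕ), 1 < N → 2 ∣ N → ∀ σ : ℤ, (σ = 1 ∨ σ = -1) → ∀ ε κ : ℝ, 0 < ε →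
  ε ≤ 1 → 0 < κ → ∃ Y₀ : ℕ, ∀ Y : ℕ, Y₀ ≤ Y → ∀ (A : Finset ℕ) (m : ℕ → ℝ),
    (∀ a ∈ A, Good a ∧ (a : ℝ) ≤ Real.exp (ε * Real.log Y / 64)) →
    ∑ a ∈ A, |m a| ≤ Real.exp (ε * Real.log Y / 64) →
    |∑ h ∈ clsD N D σ Y, (∑ a ∈ A, m a * chi h a) * Fw Y (hmain2 ε Y) h -
      densD N D * Y * ∑ a ∈ A, m a * ∑' n : ℕ, bet (cfY Y (hmain2 ε Y)) n * rhoN N D (a * n)| ≤
      κ * Y

/-- **Module F**, from its parts -/
theorem pfFirst2_of (hMV : StMainVal2) (hSw : StSwap2) (hWin : StWin) : StFirst2 := by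
  intro C₀ c₀ η hC₀ hc₀ hη hη1 σ N hσ hN h8 hbd
  obtain ⟨c₁, y₀, hc₁, hy₀, hNy, hmv⟩ := hMV C₀ c₀ η hC₀ hc₀ hη hη1 N hN
  have hN2 : 2 ∣ N := Dvd.dvd.trans ⟨4, by norm_num⟩ h8
  have hN1 : 1 < N := lt_of_lt_of_le (by norm_num) (Nat.le_of_dvd hN h8)
  have hN0 : (0 : ℝ) < N := by exact_mod_cast hN
  refine ⟨c₁ / (8 * N), y₀, by positivity, hy₀, ?_⟩
  intro θ η₁ hθ hθ1 h12 hη₁ hη₁'
  obtain ⟨z₁, hz₁, h1⟩ := hmv θ η₁ hθ hθ1 hη₁ hη₁'
  obtain ⟨z₂, hz₂, h2⟩ := second2 hWin hC₀ hc₀ hη hη1 hy₀ hθ hθ1 h12 hη₁ hη₁'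
  have hz0' : 0 < (1 / (256 * C₀)) ^ (2 / η₁) := Real.rpow_pos_of_pos (by positivity) _
  have hexp : 0 < Real.exp (-(1 / θ)) := Real.exp_pos _
  refine ⟨min (min z₁ z₂) (min (Real.exp (-(1 / θ))) (min 1 ((1 / (256 * C₀)) ^ (2 / η₁)))),
    by positivity, fun z hz hzz => ?_⟩
  have hzz1 : z ≤ z₁ := hzz.trans ((min_le_left _ _).trans (min_le_left _ _))
  have hzz2 : z ≤ z₂ := hzz.trans ((min_le_left _ _).trans (min_le_right _ _))
  have hzz3 : z ≤ Real.exp (-(1 / θ)) := hzz.trans ((min_le_right _ _).trans (min_le_left _ _))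
  have hzz4 : z ≤ 1 :=
    hzz.trans ((min_le_right _ _).trans ((min_le_right _ _).trans (min_le_left _ _)))
  have hzz5 : z ≤ (1 / (256 * C₀)) ^ (2 / η₁) :=
    hzz.trans ((min_le_right _ _).trans ((min_le_right _ _).trans (min_le_right _ _)))
  obtain ⟨K, hK, Y₂, h2z⟩ := h2 z hz hzz2
  set ε := z ^ (1 - η₁) with hε
  have hε0 : 0 < ε := Real.rpow_pos_of_pos hz _
  have hε1 : ε ≤ 1 := Real.rpow_le_one hz.le hzz4 (by linarith)
  set κ := c₁ / (16 * N) with hκ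
  have hκ0 : 0 < κ := by positivity
  -- the choice of `D`
  obtain ⟨D, hD⟩ := exists_nat_ge (max y₀ (2 * K / κ ^ 2))
  have hDy : y₀ ≤ D := (le_max_left _ _).trans hD
  have hDK : 2 * K / κ ^ 2 ≤ D := (le_max_right _ _).trans hD
  have hD1 : 1 ≤ D := by
    have : (2 : ℝ) ≤ D := hy₀.trans hDy
    have : 2 ≤ D := by exact_mod_cast this
    omega
  have hD0 : (0 : ℝ) < D := by exact_mod_cast hD1
  obtain ⟨Y₁, h1z⟩ := h1 z hz hzz1 D hDy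
  obtain ⟨Y₃, h3z⟩ := hSw N D hN1 hN2 σ hσ ε κ hε0 hε1 hκ0
  refine ⟨max (max Y₁ Y₂) (max Y₃ 1), fun Y S c hY hblk => ?_⟩
  have hYY₁ : Y₁ ≤ Y := ((le_max_left _ _).trans (le_max_left _ _)).trans hY
  have hYY₂ : Y₂ ≤ Y := ((le_max_right _ _).trans (le_max_left _ _)).trans hY
  have hYY₃ : Y₃ ≤ Y := ((le_max_left _ _).trans (le_max_right _ _)).trans hY
  have hYY₄ : 1 ≤ Y := ((le_max_right _ _).trans (le_max_right _ _)).trans hY
  have hY0 : (0 : ℝ) ≤ Y := Nat.cast_nonneg Y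
  have hL0 : 0 ≤ Real.log Y := Real.log_nonneg (by exact_mod_cast hYY₄)
  -- the expansion of the mollifier
  obtain ⟨A, m, hA1, hA2, hA3⟩ := moll (by linarith : (0 : ℝ) ≤ C₀) hz hL0 hblk
  have hlen : len C₀ η θ z (Real.log Y) ≤ ε * Real.log Y / 64 :=
    len_le hC₀ hη hη1 hθ hθ1 h12 hη₁ hz hzz3 hzz5 hL0
  have hexpl := Real.exp_le_exp.2 hlen
  have hmn := h1z Y S c hYY₁ hblk A m (fun a ha => (hA1 a ha).1.ne_zero) hA3
  have hswap := h3z Y hYY₃ A m (fun a ha => ⟨(hA1 a ha).1, (hA1 a ha).2.trans hexpl⟩)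
    (hA2.trans hexpl)
  have hsec := h2z Y S c hYY₂ hblk
  set F : ℤ → ℝ := fun k => Mh S c 0 (nb θ z (Real.log Y) + 1) k * Fw Y (hmain2 ε Y) k with hF
  have hMh : ∀ h : ℤ, Mh S c 0 (nb θ z (Real.log Y) + 1) h = ∑ a ∈ A, m a * chi h a := by
    intro h
    unfold Mh
    rw [← hA3 (chi h) (cm_chi h), ← Finset.range_eq_Ico]
  have hsum : ∑ h ∈ clsD N D σ Y, (∑ a ∈ A, m a * chi h a) * Fw Y (hmain2 ε Y) h =
      ∑ h ∈ clsD N D σ Y, F h := by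
    apply sum_congr rfl
    intro h _
    simp only [hF]
    rw [hMh]
  rw [hsum] at hswap
  -- the elements which are not squarefree
  have hsdiff : ∑ h ∈ clsD N D σ Y, F h = ∑ h ∈ Cl σ N Y, F h + ∑ h ∈ clsD N D σ Y \ Cl σ N Y, F h := by
    rw [add_comm]
    exact (sum_sdiff (Cl_subset σ N D Y)).symm
  have hbad : |∑ h ∈ clsD N D σ Y \ Cl σ N Y, F h| ≤ κ * Y := by
    have h4 : ((clsD N D σ Y \ Cl σ N Y).card : ℝ) ≤ 2 * Y / D := by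
      apply card_bad hD1
      intro h hh
      rw [mem_sdiff] at hh
      exact diff_bad hh.1 hh.2
    have h5 : ∑ h ∈ clsD N D σ Y \ Cl σ N Y, F h ^ 2 ≤ K * Y := by
      refine le_trans (sum_le_sum_of_subset_of_nonneg ?_ fun _ _ _ => sq_nonneg _) hsec
      intro h hh
      rw [mem_sdiff, mem_clsD] at hh
      rw [mem_Icc]
      exact hh.1.1
    have h6 : (∑ h ∈ clsD N D σ Y \ Cl σ N Y, F h) ^ 2 ≤ (κ * Y) ^ 2 := by
      calc (∑ h ∈ clsD N D σ Y \ Cl σ N Y, F h) ^ 2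
          ≤ ((clsD N D σ Y \ Cl σ N Y).card : ℝ) * ∑ h ∈ clsD N D σ Y \ Cl σ N Y, F h ^ 2 :=
            sq_sum_le_card_mul_sum_sq
        _ ≤ (2 * Y / D) * (K * Y) :=
            mul_le_mul h4 h5 (sum_nonneg fun _ _ => sq_nonneg _) (by positivity)
        _ = (2 * K / D) * Y ^ 2 := by ring
        _ ≤ κ ^ 2 * Y ^ 2 := by
            apply mul_le_mul_of_nonneg_right _ (sq_nonneg _)
            rw [div_le_iff₀ hD0]
            rw [div_le_iff₀ (by positivity)] at hDK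
            linarith
        _ = (κ * Y) ^ 2 := by ring
    exact abs_le_of_sq_le_sq h6 (by positivity)
  have hd := densD_ge D hN hN2
  set V := ∑ a ∈ A, m a * ∑' n : ℕ, bet (cfY Y (hmain2 ε Y)) n * rhoN N D (a * n) with hV
  have h7 : c₁ / (4 * N) * Y ≤ densD N D * Y * V := by
    calc c₁ / (4 * N) * Y = 1 / (4 * N) * Y * c₁ := by ring
      _ ≤ densD N D * Y * V :=
          mul_le_mul (mul_le_mul_of_nonneg_right hd hY0) hmn hc₁.le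
            (mul_nonneg (le_trans (by positivity) hd) hY0)
  have h8' := (abs_le.1 hswap).1
  have h9 := (abs_le.1 hbad).2
  have h10 : c₁ / (4 * N) * Y = c₁ / (8 * N) * Y + 2 * (κ * Y) := by
    rw [hκ]; field_simp; norm_num
  linarith


end P004E.Two
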