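import Vale.Agent.P004E.H503.Strip
import Vale.Agent.P004.R2.H880.Dec

/-!
# P004: the second moment of the strip functional, weight `(x + s)²`
-/

open Real MeasureTheory Set Filter
open scoped ENNReal Topology ContDiff

namespace P004E.Two

open P004G P004G.Asm
open P004.Asm (ηf_nonneg ηf_le_one ηf_zero ηf_one ηf_cont)
open P004E.Fin (K0 K0_smooth K0_zero far_zero fam_bound sobolev Ph Ph_cont Fw_eq_Icc strip_one
  k1)

/-- the scaled kernel -/
noncomputable def K2 (p : ℝ × ℝ) : ℝ := (p.2 + p.1) * K0 p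

lemma K2_smooth : ContDiff ℝ ∞ K2 := (contDiff_snd.add contDiff_fst).mul K0_smooth

/-- the derivative in the first variable -/
noncomputable def D2 (p : ℝ × ℝ) : ℝ := fderiv ℝ K2 p (1, 0)

lemma D2_smooth : ContDiff ℝ ∞ D2 :=
  (K2_smooth.fderiv_right (m := ∞) le_rfl).clm_apply contDiff_const

lemma K2_zero {σ t : ℝ} (h : 2 < t ∨ t < -2 * σ - 2) : K2 (σ, t) = 0 := by
  unfold K2
  rw [K0_zero h, mul_zero]

lemma D2_zero {σ t : ℝ} (h : 2 < t ∨ t < -2 * σ - 2) : D2 (σ, t) = 0 := by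
  unfold D2
  have e : K2 =ᶠ[𝓝 (σ, t)] fun _ => 0 := by
    have ho : IsOpen {p : ℝ × ℝ | 2 < p.2 ∨ p.2 < -2 * p.1 - 2} := by
      refine IsOpen.union ?_ ?_
      · exact isOpen_lt continuous_const continuous_snd
      · exact isOpen_lt continuous_snd (by fun_prop)
    filter_upwards [ho.mem_nhds (show (σ, t) ∈ {p : ℝ × ℝ | 2 < p.2 ∨ p.2 < -2 * p.1 - 2} from h)]
      with p hp
    exact K2_zero hp
  rw [e.fderiv_eq]
  simp

lemma kq_scale {R : ℝ} (hR : 0 < R) (s x : ℝ) : kq R s x = R ^ 2 * K2 (s / R, x / R) := by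
  unfold kq K2 K0 k1
  simp only
  have e : -2 * (s / R) - x / R = (-2 * s - x) / R := by field_simp
  rw [e]
  field_simp

/-- the derivative of `kq` in `s` -/
noncomputable def dq (R s x : ℝ) : ℝ := R * D2 (s / R, x / R)

lemma hasDerivAt_kq {R : ℝ} (hR : 0 < R) (s x : ℝ) :
    HasDerivAt (fun s => kq R s x) (dq R s x) s := by
  have e : (fun s => kq R s x) = fun s => R ^ 2 * K2 (s / R, x / R) :=
    funext fun s => kq_scale hR s x
  rw [e]
  have h1 : HasFDerivAt K2 (fderiv ℝ K2 (s / R, x / R)) (s / R, x / R) :=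
    (K2_smooth.differentiable (by simp)).differentiableAt.hasFDerivAt
  have h2 : HasDerivAt (fun s : ℝ => (s / R, x / R)) (1 / R, (0 : ℝ)) s :=
    ((hasDerivAt_id s).div_const R).prodMk (hasDerivAt_const s (x / R))
  have h3 := (h1.comp_hasDerivAt s h2).const_mul (R ^ 2)
  have e2 : R ^ 2 * (fderiv ℝ K2 (s / R, x / R)) (1 / R, 0) = dq R s x := by
    unfold dq D2
    have : ((1 / R : ℝ), (0 : ℝ)) = (1 / R : ℝ) • ((1 : ℝ), (0 : ℝ)) := by simp
    rw [this, map_smul, smul_eq_mul]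
    field_simp
  rw [← e2]
  exact h3

lemma dq_cont {R : ℝ} : Continuous (fun p : ℝ × ℝ => dq R p.1 p.2) := by
  unfold dq
  exact continuous_const.mul (D2_smooth.continuous.comp
    ((continuous_fst.div_const _).prodMk (continuous_snd.div_const _)))

lemma dq_supp {R s x : ℝ} (hR : 0 < R) (h : dq R s x ≠ 0) : -2 * s - 2 * R ≤ x ∧ x ≤ 2 * R := by
  by_contra hc
  apply h
  unfold dq
  rw [D2_zero, mul_zero]
  rw [not_and_or] at hc
  rcases hc with hc | hc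
  · right
    push Not at hc
    have : x / R < (-2 * s - 2 * R) / R := div_lt_div_of_pos_right hc hR
    have e : (-2 * s - 2 * R) / R = -2 * (s / R) - 2 := by field_simp
    linarith
  · left
    push Not at hc
    rw [lt_div_iff₀ hR]
    exact hc

lemma kq_bound (n : ℕ) : ∃ C : ℝ, 1 ≤ C ∧ ∀ R s : ℝ, 1 ≤ R → |s| ≤ R → ∀ i ≤ n, ∀ x,
    |iteratedDeriv i (kq R s) x| ≤ C * R ^ 2 := by
  obtain ⟨C, hC, h⟩ := fam_bound K2_smooth
    (fun σ t hσ ht => K2_zero (far_zero hσ ht)) n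
  refine ⟨C, hC, fun R s hR hs i hi x => ?_⟩
  have hR0 : 0 < R := by linarith
  have e : kq R s = fun x => R ^ 2 * (fun x => K2 (s / R, x / R)) x :=
    funext fun x => kq_scale hR0 s x
  rw [e, iteratedDeriv_const_mul_field, abs_mul, abs_of_pos (by positivity), mul_comm]
  exact mul_le_mul_of_nonneg_right (h R s hR hs i hi x) (by positivity)

lemma dq_bound (n : ℕ) : ∃ C : ℝ, 1 ≤ C ∧ ∀ R s : ℝ, 1 ≤ R → |s| ≤ R → ∀ i ≤ n, ∀ x,
    |iteratedDeriv i (dq R s) x| ≤ C * R := by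
  obtain ⟨C, hC, h⟩ := fam_bound D2_smooth
    (fun σ t hσ ht => D2_zero (far_zero hσ ht)) n
  refine ⟨C, hC, fun R s hR hs i hi x => ?_⟩
  have hR0 : 0 < R := by linarith
  have e : dq R s = fun x => R * (fun x => D2 (s / R, x / R)) x := rfl
  rw [e, iteratedDeriv_const_mul_field, abs_mul, abs_of_pos hR0, mul_comm]
  exact mul_le_mul_of_nonneg_right (h R s hR hs i hi x) hR0.le

lemma kq_smooth {R : ℝ} (hR : 0 < R) (s : ℝ) (n : ℕ) : ContDiff ℝ n (kq R s) := by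
  have e : kq R s = fun x => R ^ 2 * (fun x => K2 (s / R, x / R)) x :=
    funext fun x => kq_scale hR s x
  rw [e]
  refine contDiff_const.mul ?_
  refine (K2_smooth.of_le (by exact_mod_cast le_top)).comp ?_
  exact contDiff_const.prodMk (contDiff_id.div_const R)

lemma dq_smooth {R : ℝ} (s : ℝ) (n : ℕ) : ContDiff ℝ n (dq R s) := by
  unfold dq
  refine contDiff_const.mul ((D2_smooth.of_le (by exact_mod_cast le_top)).comp ?_)
  exact contDiff_const.prodMk (contDiff_id.div_const R)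

variable [Crv]

/-- **The strip.** -/
theorem strip_sum (hS : StStrip) : ∃ C : ℝ, 1 ≤ C ∧ ∀ (Y : ℕ) (R a : ℝ) (s : ℤ → ℝ) (T : Finset ℤ),
    3 ≤ Y → 1 ≤ R → 0 ≤ a → a ≤ R → R + a ≤ Real.log Y ^ (1 / 100 : ℝ) →
    T ⊆ (sqZ Y).filter (fun m => Y < 2 * m.natAbs) → (∀ m ∈ T, |s m| ≤ a) →
    ∑ m ∈ T, (Fw Y (kq R (s m)) m) ^ 2 ≤ C * R ^ 4 * Y * Real.log Y ^ (4 / 5 : ℝ) := by
  obtain ⟨n, C, hC, h⟩ := strip_one hS
  obtain ⟨C₁, hC₁, hk⟩ := kq_bound n
  obtain ⟨C₂, hC₂, hd⟩ := dq_bound n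
  refine ⟨2 * (C * C₁ ^ 2) + 8 * (C * C₂ ^ 2), by nlinarith [one_le_pow₀ hC₁ (n := 2)],
    fun Y R a s T hY hR ha haR hRa hT hs => ?_⟩
  have hR0 : 0 < R := by linarith
  have hY0 : (0 : ℝ) < Y := by exact_mod_cast (by omega : 0 < Y)
  have hL : 0 ≤ Real.log Y := Real.log_nonneg (by exact_mod_cast (by omega : 1 ≤ Y))
  set E := (Y : ℝ) * Real.log Y ^ (4 / 5 : ℝ) with hE
  have hE0 : 0 ≤ E := by positivity
  set c := 2 * R + 2 * a with hc
  have hsuppk : ∀ t, |t| ≤ a → ∀ x, kq R t x ≠ 0 → |x| ≤ c := by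
    intro t ht x hx
    obtain ⟨h1, h2⟩ := kq_supp hR0 hx
    obtain ⟨h3, h4⟩ := abs_le.1 ht
    rw [abs_le]; constructor <;> linarith
  have hsuppd : ∀ t, |t| ≤ a → ∀ x, dq R t x ≠ 0 → |x| ≤ c := by
    intro t ht x hx
    obtain ⟨h1, h2⟩ := dq_supp hR0 hx
    obtain ⟨h3, h4⟩ := abs_le.1 ht
    rw [abs_le]; constructor <;> linarith
  have hcL : c ≤ 2 * Real.log Y ^ (1 / 100 : ℝ) := by rw [hc]; linarith
  have ha1 : |(-a)| ≤ a := by rw [abs_neg, abs_of_nonneg ha]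
  -- the two second moments
  have b1 : ∑ m ∈ T, (Fw Y (kq R (-a)) m) ^ 2 ≤
      C * (C₁ * R ^ 2) ^ 2 * Y * Real.log Y ^ (4 / 5 : ℝ) := by
    refine (Finset.sum_le_sum_of_subset_of_nonneg hT fun _ _ _ => sq_nonneg _).trans ?_
    exact h Y _ (C₁ * R ^ 2) hY (by positivity) (kq_smooth hR0 _ n)
      (fun x hx => (hsuppk _ ha1 x hx).trans hcL) (fun i hi x => hk R _ hR (ha1.trans haR) i hi x)
  have b2 : ∀ t ∈ Icc (-a) a, ∑ m ∈ T, (Fw Y (dq R t) m) ^ 2 ≤
      C * (C₂ * R) ^ 2 * Y * Real.log Y ^ (4 / 5 : ℝ) := by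
    intro t ht
    have ht1 : |t| ≤ a := abs_le.2 ht
    refine (Finset.sum_le_sum_of_subset_of_nonneg hT fun _ _ _ => sq_nonneg _).trans ?_
    exact h Y _ (C₂ * R) hY (by positivity) (dq_smooth _ n)
      (fun x hx => (hsuppd _ ht1 x hx).trans hcL) (fun i hi x => hd R _ hR (ht1.trans haR) i hi x)
  -- the pointwise inequality
  have h1 : ∀ m ∈ T, (Fw Y (kq R (s m)) m) ^ 2 ≤ 2 * (Fw Y (kq R (-a)) m) ^ 2 +
      4 * a * ∫ t in (-a)..a, (Fw Y (dq R t) m) ^ 2 := by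
    intro m hm
    obtain ⟨h3, h4⟩ := abs_le.1 (hs m hm)
    have h5 := sobolev (Ph_cont m hY) (K := fun s x => kq R s x) (D := fun s x => dq R s x)
      dq_cont (fun s => kq_cont R s) (fun s x => hasDerivAt_kq hR0 s x) c h3 h4
    rw [Fw_eq_Icc m hY (hsuppk _ (hs m hm)), Fw_eq_Icc m hY (hsuppk _ ha1)]
    have e : ∫ t in (-a)..a, (Fw Y (dq R t) m) ^ 2 =
        ∫ t in (-a)..a, (∫ x in Icc (-c) c, Ph m Y x * dq R t x) ^ 2 := by
      apply intervalIntegral.integral_congr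
      intro t ht
      rw [uIcc_of_le (by linarith)] at ht
      simp only
      rw [Fw_eq_Icc m hY (hsuppd t (abs_le.2 ht))]
    rw [e]
    exact h5
  have hcont : ∀ m : ℤ, ContinuousOn (fun t => (Fw Y (dq R t) m) ^ 2) (Icc (-a) a) := by
    intro m
    have h2 : Continuous (fun t => ∫ x in Icc (-c) c, Ph m Y x * dq R t x) :=
      continuous_parametric_integral_of_continuous (μ := (volume : Measure ℝ))
        (f := fun t x => Ph m Y x * dq R t x) (s := Icc (-c) c)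
        (((Ph_cont m hY).comp continuous_snd).mul dq_cont) isCompact_Icc
    refine (h2.pow 2).continuousOn.congr fun t ht => ?_
    rw [Fw_eq_Icc m hY (hsuppd t (abs_le.2 ht))]
    rfl
  have hint : ∀ m ∈ T, IntervalIntegrable (fun t => (Fw Y (dq R t) m) ^ 2) volume (-a) a := by
    intro m _
    apply ContinuousOn.intervalIntegrable
    rw [uIcc_of_le (by linarith)]
    exact hcont m
  have h2 : ∑ m ∈ T, ∫ t in (-a)..a, (Fw Y (dq R t) m) ^ 2 ≤
      2 * a * (C * (C₂ * R) ^ 2 * Y * Real.log Y ^ (4 / 5 : ℝ)) := by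
    rw [← intervalIntegral.integral_finsetSum hint]
    calc ∫ t in (-a)..a, ∑ m ∈ T, (Fw Y (dq R t) m) ^ 2
        ≤ ∫ _ in (-a)..a, C * (C₂ * R) ^ 2 * Y * Real.log Y ^ (4 / 5 : ℝ) := by
          apply intervalIntegral.integral_mono_on (by linarith)
          · apply ContinuousOn.intervalIntegrable
            rw [uIcc_of_le (by linarith)]
            exact continuousOn_finsetSum _ fun m _ => hcont m
          · exact continuous_const.intervalIntegrable _ _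
          · exact b2
      _ = _ := by rw [intervalIntegral.integral_const, smul_eq_mul]; ring
  calc ∑ m ∈ T, (Fw Y (kq R (s m)) m) ^ 2
      ≤ ∑ m ∈ T, (2 * (Fw Y (kq R (-a)) m) ^ 2 +
        4 * a * ∫ t in (-a)..a, (Fw Y (dq R t) m) ^ 2) := Finset.sum_le_sum h1
    _ = 2 * ∑ m ∈ T, (Fw Y (kq R (-a)) m) ^ 2 +
        4 * a * ∑ m ∈ T, ∫ t in (-a)..a, (Fw Y (dq R t) m) ^ 2 := by
        rw [Finset.sum_add_distrib, Finset.mul_sum, Finset.mul_sum]
    _ ≤ 2 * (C * (C₁ * R ^ 2) ^ 2 * Y * Real.log Y ^ (4 / 5 : ℝ)) +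
        4 * a * (2 * a * (C * (C₂ * R) ^ 2 * Y * Real.log Y ^ (4 / 5 : ℝ))) := by gcongr
    _ = (2 * (C * C₁ ^ 2) * R ^ 4 + 8 * (C * C₂ ^ 2) * (R ^ 2 * a ^ 2)) * E := by rw [hE]; ring
    _ ≤ (2 * (C * C₁ ^ 2) * R ^ 4 + 8 * (C * C₂ ^ 2) * R ^ 4) * E := by
        have h7 : R ^ 2 * a ^ 2 ≤ R ^ 4 := by
          calc R ^ 2 * a ^ 2 ≤ R ^ 2 * R ^ 2 := by gcongr
            _ = R ^ 4 := by ring
        gcongr
    _ = _ := by rw [hE]; ring

end P004E.Two
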