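import Vale.Agent.P004E.H503.Good
import Vale.Agent.P004.R2.H880.Bad
import Vale.Agent.P004.R2.H880.Strip
import Vale.Agent.P004.R2.H880.First

/-!
# P004: a positive proportion of the class with root number `1` has `¬ Van m 3`
-/

open Real MeasureTheory Set Filter
open scoped ENNReal Topology ContDiff

namespace P004E.Two

open P004G P004G.Asm
open P004E.Fin (tendsto_log_nat centre cl_sub win_bound M_moment main_moment exists_param hx_bound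
  h1_bound exists_scale hm1 hx h1)

variable [Crv]

lemma tendsto_cube_exp : Tendsto (fun Y : ℕ => (Y : ℝ) ^ 3 * Real.exp (-√(Y : ℝ))) atTop (𝓝 0) := by
  have h1 : Tendsto (fun Y : ℕ => √(Y : ℝ)) atTop atTop := by
    have h2 : Tendsto (fun x : ℝ => √x) atTop atTop := Real.tendsto_sqrt_atTop
    exact h2.comp tendsto_natCast_atTop_atTop
  have h3 := (Real.tendsto_pow_mul_exp_neg_atTop_nhds_zero 6).comp h1
  refine h3.congr fun Y => ?_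
  simp only [Function.comp]
  congr 1
  rw [show (6 : ℕ) = 2 * 3 by norm_num, pow_mul, Real.sq_sqrt (Nat.cast_nonneg Y)]

lemma tendsto_err (a b c d : ℝ) : Tendsto (fun Y : ℕ => a * Real.log Y ^ (-(1 / 50) : ℝ) +
    b * Real.log Y ^ (-(1 / 8) : ℝ) + c * (Real.log Y)⁻¹ +
      d * ((Y : ℝ) ^ 3 * Real.exp (-√(Y : ℝ)))) atTop (𝓝 0) := by
  have h1 : Tendsto (fun Y : ℕ => Real.log Y ^ (-(1 / 50) : ℝ)) atTop (𝓝 0) :=
    (tendsto_rpow_neg_atTop (by norm_num)).comp tendsto_log_nat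
  have h2 : Tendsto (fun Y : ℕ => Real.log Y ^ (-(1 / 8) : ℝ)) atTop (𝓝 0) :=
    (tendsto_rpow_neg_atTop (by norm_num)).comp tendsto_log_nat
  have h3 : Tendsto (fun Y : ℕ => (Real.log Y)⁻¹) atTop (𝓝 0) :=
    tendsto_inv_atTop_zero.comp tendsto_log_nat
  have h := (((h1.const_mul a).add (h2.const_mul b)).add (h3.const_mul c)).add
    (tendsto_cube_exp.const_mul d)
  simpa using h

open scoped Classical in
/-- the twists with `Van m 3` -/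
noncomputable def TB (σ : ℤ) (N Y : ℕ) : Finset ℤ := (Cl σ N Y).filter (fun m => Van m 3)

open scoped Classical in
/-- the others -/
noncomputable def TG (σ : ℤ) (N Y : ℕ) : Finset ℤ := (Cl σ N Y).filter (fun m => ¬ Van m 3)

lemma tb_sub (σ : ℤ) (N Y : ℕ) : TB σ N Y ⊆ (sqZ Y).filter (fun m => Y < 2 * m.natAbs) := by
  classical
  unfold TB
  exact (Finset.filter_subset _ _).trans (cl_sub σ N Y)

lemma tg_sub (σ : ℤ) (N Y : ℕ) : TG σ N Y ⊆ sqZ Y := by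
  classical
  unfold TG
  exact (Finset.filter_subset _ _).trans ((cl_sub σ N Y).trans (Finset.filter_subset _ _))

lemma mem_TB {σ : ℤ} {N Y : ℕ} {m : ℤ} : m ∈ TB σ N Y ↔ m ∈ Cl σ N Y ∧ Van m 3 := by
  classical
  unfold TB
  rw [Finset.mem_filter]

lemma mem_TG {σ : ℤ} {N Y : ℕ} {m : ℤ} : m ∈ TG σ N Y ↔ m ∈ Cl σ N Y ∧ ¬ Van m 3 := by
  classical
  unfold TG
  rw [Finset.mem_filter]

lemma tb_fe {σ : ℤ} {N : ℕ} {q₀ : ℝ} (hq₀ : 0 < q₀)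
    (hfe : ∀ m : ℤ, Squarefree m → m.sign = σ → m % (N : ℤ) = 1 → m ≠ 1 →
      FE m (q₀ * (m : ℝ) ^ 2)) {Y : ℕ} (hY : 3 ≤ Y) : ∀ m ∈ TB σ N Y,
    FE m (q₀ * (m : ℝ) ^ 2) ∧ |Real.log (√(q₀ * (m : ℝ) ^ 2) / Y)| ≤
      |Real.log (√q₀)| + Real.log 2 ∧ Van m 3 := by
  intro m hm
  obtain ⟨hm1, hm2⟩ := mem_TB.1 hm
  unfold Cl at hm1
  rw [Finset.mem_filter, mem_sqZ] at hm1
  obtain ⟨⟨h1, h2⟩, h3, h4, h5⟩ := hm1
  refine ⟨hfe m h2 h4 h5 ?_, centre hq₀ (by omega) h1 h3, hm2⟩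
  rintro rfl
  simp at h3
  omega

/-- the conclusion for one `Y` -/
lemma good_fixed {σ : ℤ} {N Y : ℕ} {M F : ℤ → ℝ} {c₁ Cm : ℝ} (hY : 3 ≤ Y) (hc₁ : 0 < c₁)
    (hCm : 0 ≤ Cm) (hmn : ∑ m ∈ sqZ Y, (M m * F m) ^ 2 ≤ Cm * Y)
    (hfirst : c₁ * Y ≤ ∑ m ∈ Cl σ N Y, M m * F m)
    (hbad : ∑ m ∈ TB σ N Y, M m * F m ≤ c₁ / 2 * Y) :
    c₁ ^ 2 / (4 * (Cm + 1)) * Y ≤ ((TG σ N Y).card : ℝ) := by
  have hY0 : (0 : ℝ) < Y := by exact_mod_cast (by omega : 0 < Y)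
  have hsplit : ∑ m ∈ Cl σ N Y, M m * F m =
      ∑ m ∈ TB σ N Y, M m * F m + ∑ m ∈ TG σ N Y, M m * F m := by
    unfold TB TG
    rw [Finset.sum_filter_add_sum_filter_not]
  set G := TG σ N Y with hG
  have hG1 : ∑ m ∈ G, M m * F m ≤ √(G.card : ℝ) * √(Cm * Y) := by
    have hGs : G ⊆ sqZ Y := tg_sub σ N Y
    have h1 := Real.sum_mul_le_sqrt_mul_sqrt G (fun _ => (1 : ℝ)) (fun m => M m * F m)
    simp only [one_mul, one_pow, Finset.sum_const, nsmul_eq_mul, mul_one] at h1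
    refine h1.trans (mul_le_mul_of_nonneg_left ?_ (Real.sqrt_nonneg _))
    exact Real.sqrt_le_sqrt ((Finset.sum_le_sum_of_subset_of_nonneg hGs
      fun _ _ _ => sq_nonneg _).trans hmn)
  have hmain' : c₁ / 2 * Y ≤ √(G.card : ℝ) * √((Cm + 1) * Y) := by
    have h2 : √(Cm * Y) ≤ √((Cm + 1) * Y) := by
      apply Real.sqrt_le_sqrt
      nlinarith
    have h3 : √(G.card : ℝ) * √(Cm * Y) ≤ √(G.card : ℝ) * √((Cm + 1) * Y) := by gcongr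
    rw [hsplit] at hfirst
    linarith
  have h5 : (c₁ / 2 * Y) ^ 2 ≤ (G.card : ℝ) * ((Cm + 1) * Y) := by
    calc (c₁ / 2 * Y) ^ 2 ≤ (√(G.card : ℝ) * √((Cm + 1) * Y)) ^ 2 := by gcongr
      _ = _ := by rw [mul_pow, Real.sq_sqrt (by positivity), Real.sq_sqrt (by positivity)]
  rw [div_mul_eq_mul_div, div_le_iff₀ (by positivity)]
  have h6 : (c₁ ^ 2 * Y) * Y ≤ ((G.card : ℝ) * (4 * (Cm + 1))) * Y := by nlinarith
  exact le_of_mul_le_mul_right h6 hY0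

/-- eventual conditions on `Y` -/
lemma ev_cond {ε c₁ a L₀ : ℝ} (hε0 : 0 < ε) (hc₁ : 0 < c₁) (A₁ A₂ A₃ A₄ : ℝ) :
    ∀ᶠ Y : ℕ in atTop, (1 ≤ Real.log Y ∧ L₀ ≤ Real.log Y) ∧
      (max 1 a ≤ Real.log Y ^ (1 / 100 : ℝ) / 4 ∧
        Real.log Y ^ (1 / 200 : ℝ) ≤ Real.log Y ^ (1 / 100 : ℝ) / 4) ∧
      Real.log Y ^ (1 / 100 : ℝ) / 2 ≤ ε * Real.log Y ∧
      A₁ * Real.log Y ^ (-(1 / 50) : ℝ) + A₂ *
        Real.log Y ^ (-(1 / 8) : ℝ) + A₃ * (Real.log Y)⁻¹ +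
      A₄ * ((Y : ℝ) ^ 3 * Real.exp (-√(Y : ℝ))) ≤ c₁ / 4 := by
  have t4 := tendsto_err A₁ A₂ A₃ A₄
  filter_upwards [Fin.ev_cond (ε := ε) (c₁ := c₁) (a := a) (L₀ := L₀) hε0 hc₁ 0 0 0 0,
    t4.eventually_le_const (show (0 : ℝ) < c₁ / 4 by positivity)]
    with Y h1 h6
  exact ⟨h1.1, h1.2.1, h1.2.2.1, h6⟩

/-- **Main theorem**: a positive proportion of the class has `¬ Van m 3`. -/
theorem good_count (hF : StFirst2) (hW : StWin) (hMr : StMr) (hB : StBlk) (hS : StStrip)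
    {σ : ℤ} {N : ℕ} {q₀ : ℝ} (hσ : σ = 1 ∨ σ = -1) (hN : 0 < N) (h8 : 8 ∣ N) (hbd : bd ∣ N)
    (hq₀ : 0 < q₀) (hfe : ∀ m : ℤ, Squarefree m → m.sign = σ → m % (N : ℤ) = 1 → m ≠ 1 →
      FE m (q₀ * (m : ℝ) ^ 2)) :
    ∃ c : ℝ, 0 < c ∧ ∃ Y₀ : ℕ, ∀ Y : ℕ, Y₀ ≤ Y → c * Y ≤ ((TG σ N Y).card : ℝ) := by
  obtain ⟨C₀, c₀, hC₀, hc₀, hBlk⟩ := hB (1 / 20) (by norm_num) (by norm_num)
  obtain ⟨A, hwin⟩ := win_bound hW hMr hC₀ hc₀
  obtain ⟨c₁, y₀, hc₁, hy₀, hfirst⟩ := hF C₀ c₀ (1 / 20) hC₀ hc₀ (by norm_num) (by norm_num) σ N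
    hσ hN h8 hbd
  obtain ⟨η₁, θ, hη₁0, hθ0, hη₁1, hθ1, hθη, hsum⟩ := exists_param A
  obtain ⟨zB, hzB0, hzB1, hBlk⟩ := hBlk y₀ θ hy₀ hθ0 (by linarith)
  obtain ⟨n, Cw, zW, hCw, hzW0, hzW4, hwin⟩ := hwin y₀ θ η₁ hy₀ hθ0 (by linarith) hη₁0
    (by linarith) hsum
  obtain ⟨Cr, zR, hCr, hzR0, hMr2⟩ := M_moment hMr hC₀ hc₀ hy₀ hθ0 (by linarith)
  obtain ⟨zM, hzM0, hMain⟩ := main_moment hW hC₀ hc₀ hy₀ hθ0 (by linarith) hη₁0 (by linarith)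
    hθη
  obtain ⟨zQ, hzQ0, hMainQ⟩ := second2 hW hC₀ hc₀ (by norm_num : (0 : ℝ) < 1 / 20) (by norm_num)
    hy₀ hθ0 (by linarith) hθη hη₁0 (by linarith)
  obtain ⟨zF, hzF0, hfirst⟩ := hfirst θ η₁ hθ0 (by linarith) hθη hη₁0 (by linarith)
  obtain ⟨C0, hC0, hhq⟩ := hq_bound n
  obtain ⟨C1, hC1, hhx⟩ := hx_bound n
  obtain ⟨C2, hC2, hh1⟩ := h1_bound n
  obtain ⟨Cs, hCs, hstrip⟩ := strip_sum hS
  set Cn := max C0 (max C1 C2) with hCn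
  have hCn1 : 1 ≤ Cn := le_max_of_le_left hC0
  obtain ⟨z, hz0, z1, z2, z3, z4, z5, z6, z7⟩ : ∃ z : ℝ, 0 < z ∧ z ≤ zB ∧ z ≤ zW ∧ z ≤ zR ∧
      z ≤ zM ∧ z ≤ zF ∧ z ≤ (c₁ / (48 * (Cw * Cn))) ^ 2 ∧ z ≤ zQ := by
    refine ⟨min (min (min zB zW) (min zR zM)) (min (min zF ((c₁ / (48 * (Cw * Cn))) ^ 2)) zQ),
      by positivity, (min_le_left _ _).trans ((min_le_left _ _).trans (min_le_left _ _)),
      (min_le_left _ _).trans ((min_le_left _ _).trans (min_le_right _ _)),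
      (min_le_left _ _).trans ((min_le_right _ _).trans (min_le_left _ _)),
      (min_le_left _ _).trans ((min_le_right _ _).trans (min_le_right _ _)),
      (min_le_right _ _).trans ((min_le_left _ _).trans (min_le_left _ _)),
      (min_le_right _ _).trans ((min_le_left _ _).trans (min_le_right _ _)),
      (min_le_right _ _).trans (min_le_right _ _)⟩
  obtain ⟨L₀, hBlk⟩ := hBlk z hz0 z1
  obtain ⟨Y₁, hwin⟩ := hwin z hz0 z2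
  obtain ⟨Y₂, hMr2⟩ := hMr2 z hz0 z3
  obtain ⟨Cm, Y₃, hCm, hMain⟩ := hMain z hz0 z4
  obtain ⟨Y₄, hfirst⟩ := hfirst z hz0 z5
  obtain ⟨Kq, hKq, Y₆, hMainQ⟩ := hMainQ z hz0 z7
  set ε : ℝ := z ^ (1 - η₁) with hε
  have hε0 : 0 < ε := by positivity
  have hε1 : ε ≤ 1 / 2 := by
    calc z ^ (1 - η₁) ≤ (1 / 4 : ℝ) ^ (1 - η₁) :=
          Real.rpow_le_rpow hz0.le (z2.trans hzW4) (by linarith)
      _ ≤ (1 / 4 : ℝ) ^ (1 / 2 : ℝ) :=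
          Real.rpow_le_rpow_of_exponent_ge (by norm_num) (by norm_num) (by linarith)
      _ = 1 / 2 := by
          rw [show (1 / 4 : ℝ) = (1 / 2) ^ (2 : ℝ) by norm_num, ← Real.rpow_mul (by norm_num)]
          norm_num
  have hzc : 12 * (Cw * Cn) * z ^ (1 / 2 : ℝ) ≤ c₁ / 4 := by
    have h1 : z ^ (1 / 2 : ℝ) ≤ c₁ / (48 * (Cw * Cn)) := by
      calc z ^ (1 / 2 : ℝ) ≤ ((c₁ / (48 * (Cw * Cn))) ^ 2) ^ (1 / 2 : ℝ) := by gcongr
        _ = c₁ / (48 * (Cw * Cn)) := by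
            rw [← Real.rpow_natCast, ← Real.rpow_mul (by positivity)]; norm_num
    calc 12 * (Cw * Cn) * z ^ (1 / 2 : ℝ) ≤ 12 * (Cw * Cn) * (c₁ / (48 * (Cw * Cn))) := by gcongr
      _ = c₁ / 4 := by field_simp; norm_num
  set a : ℝ := |Real.log (√q₀)| + Real.log 2 with ha
  have ha0 : 0 ≤ a := by positivity
  obtain ⟨Y₅, hev⟩ := eventually_atTop.1 (ev_cond (a := a) (L₀ := L₀) hε0 hc₁ (√(Cr * Cs))
    (4 * a ^ 2 * (Cw * Cn * z ^ (1 / 2 : ℝ)))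
    (24 * a * (Cw * Cn * z ^ (1 / 2 : ℝ)) + (2 * a + a ^ 2) * √(2 * Cm))
    (√(2 * Cr) * (2 * Th.C0 * (1 + a) ^ 2)))
  refine ⟨c₁ ^ 2 / (4 * (Kq + 1)), by positivity,
    max (max (max Y₁ Y₂) (max Y₃ Y₄)) (max (max Y₅ 3) Y₆), fun Y hY => ?_⟩
  have y1 : Y₁ ≤ Y := ((le_max_left _ _).trans ((le_max_left _ _).trans (le_max_left _ _))).trans hY
  have y2 : Y₂ ≤ Y := ((le_max_right _ _).trans ((le_max_left _ _).trans (le_max_left _ _))).trans hY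
  have y3 : Y₃ ≤ Y := ((le_max_left _ _).trans ((le_max_right _ _).trans (le_max_left _ _))).trans hY
  have y4 : Y₄ ≤ Y := ((le_max_right _ _).trans ((le_max_right _ _).trans (le_max_left _ _))).trans hY
  have y5 : Y₅ ≤ Y := ((le_max_left _ _).trans ((le_max_left _ _).trans (le_max_right _ _))).trans hY
  have y6 : 3 ≤ Y := ((le_max_right _ _).trans ((le_max_left _ _).trans (le_max_right _ _))).trans hY
  have y7 : Y₆ ≤ Y := ((le_max_right _ _).trans (le_max_right _ _)).trans hY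
  obtain ⟨⟨hL1, hLL₀⟩, ⟨hR1, hR3⟩, hεL, herr⟩ := hev Y y5
  have hL0 : 0 < Real.log Y := by linarith
  have hY0 : (0 : ℝ) < Y := by exact_mod_cast (by omega : 0 < Y)
  obtain ⟨S, c, hOK⟩ := hBlk (Real.log Y) hLL₀
  obtain ⟨R, J, hJ, hRl, hRu⟩ := exists_scale (L := Real.log Y) (ε := ε) hL0 hεL
  have hRmax : max 1 a ≤ R := hR1.trans hRl
  have hRa : R + a ≤ Real.log Y ^ (1 / 100 : ℝ) := by
    have h7 : a ≤ Real.log Y ^ (1 / 100 : ℝ) / 4 := (le_max_right _ _).trans hR1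
    have h8 : 0 ≤ Real.log Y ^ (1 / 100 : ℝ) := by positivity
    linarith
  have hTfe := tb_fe hq₀ hfe (Y := Y) y6
  obtain ⟨hmn, hmo⟩ := hMain Y S c y3 hOK
  have hmq := hMainQ Y S c y7 hOK
  have hmq' : ∑ m ∈ sqZ Y, (Mh S c 0 (nb θ z (Real.log Y) + 1) m * Fw Y (hmain2 ε Y) m) ^ 2 ≤
      Kq * Y := by
    refine le_trans (Finset.sum_le_sum_of_subset_of_nonneg ?_ fun _ _ _ => sq_nonneg _) hmq
    intro m hm
    have h1 := (mem_sqZ.1 hm).1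
    rw [Finset.mem_Icc]
    omega
  have hst := hstrip Y R a (fun m => Real.log (√(q₀ * (m : ℝ) ^ 2) / Y)) (TB σ N Y) y6
    ((le_max_left _ _).trans hRmax) ha0 ((le_max_right _ _).trans hRmax) hRa (tb_sub σ N Y)
    (fun m hm => (hTfe m hm).2.1)
  have hbad := bad_le (Y := Y) (n := n) (J := J) (ε := ε) (ζ := z ^ (1 / 2 : ℝ)) (R := R) (a := a)
    (Cw := Cw) (Cn := Cn) (Cr := Cr) (Cm := Cm) (Cs := Cs) (q := fun m => q₀ * (m : ℝ) ^ 2)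
    (T := TB σ N Y) (M := fun m => Mh S c 0 (nb θ z (Real.log Y) + 1) m)
    y6 hL1 hε0 (by linarith) (by positivity) ((le_max_left _ _).trans hRmax) hRu
    (hR3.trans hRl) hJ ha0 ((le_max_right _ _).trans hRmax) (by linarith) (by linarith) hCr hCm
    (by linarith) (tb_sub σ N Y) hTfe
    (fun w b h h1 h2 h3 h4 h5 h6 => hwin Y S c y1 hOK w b h h1 h2 h3 h4 h5 h6)
    (fun w L hw hL i hi x => (hhq w L hw hL i hi x).trans (by
      gcongr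
      exact le_max_left _ _))
    (fun w L hw hL i hi x => (hhx w L hw hL i hi x).trans (by
      gcongr
      exact (le_max_left _ _).trans (le_max_right _ _)))
    (fun w hw i hi x => (hh1 w hw i hi x).trans (by
      gcongr
      exact (le_max_right _ _).trans (le_max_right _ _)))
    (hMr2 Y S c y2 hOK) hmn hmo hst
  refine good_fixed y6 hc₁ hKq hmq' (hfirst Y S c y4 hOK) ((le_abs_self _).trans (hbad.trans ?_))
  calc 12 * (Cw * Cn) * z ^ (1 / 2 : ℝ) * Y + Y * (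
      √(Cr * Cs) * Real.log Y ^ (-(1 / 50) : ℝ) + 4 * a ^ 2 * (Cw * Cn * z ^ (1 / 2 : ℝ)) *
        Real.log Y ^ (-(1 / 8) : ℝ) +
      (24 * a * (Cw * Cn * z ^ (1 / 2 : ℝ)) + (2 * a + a ^ 2) * √(2 * Cm)) * (Real.log Y)⁻¹ +
      √(2 * Cr) * (2 * Th.C0 * (1 + a) ^ 2) * ((Y : ℝ) ^ 3 * Real.exp (-√(Y : ℝ)))) ≤
        c₁ / 4 * Y + Y * (c₁ / 4) := by gcongr
    _ = _ := by ring

end P004E.Two
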