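import Vale.Agent.P004H.H404.Final
import Vale.Agent.P004.R2.H880.Good

/-!
# P004: analytic rank `0` or `2` for a positive proportion of the twists of every twist of `X_0(11)`
-/

open Real MeasureTheory Set
open scoped NumberTheorySymbols

namespace P004H.Two

open P004G P004G.ML P004E Vale.Agent.P004H.H742
open P004E.Two (StFirst2 mem_TG good_count)
open Vale.Agent.P004H (H792.a)

/-- **the class**: for squarefree `m < 0`, `m ≡ 1 mod 88`, the twist of `X_0(11)` by the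
fundamental discriminant `44 m` has even analytic rank, and the theta series of `crv11` has the
functional equation with sign `1` and conductor parameter `484 m²`. -/
theorem class11 {A : ℕ → ℤ} (hA : Co A) (hH : ∀ p : ℕ, p.Prime → (A p) ^ 2 ≤ 4 * p)
    (hLT : ∀ D : ℤ, Fund1 D → ∀ n : ℕ, LT D n = A n * kron D n) (hF : FE11 A)
    {m : ℤ} (hm : Squarefree m) (hs : m.sign = -1) (h1 : m % 88 = 1) :
    @P004E.Two.FE (crv11 hA hH) m (484 * (m : ℝ) ^ 2) ∧ P004.IsFund (44 * m) ∧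
      Even (aRk (-13392) (-1080432) (44 * m)) ∧
      @Van (crv11 hA hH) m (aRk (-13392) (-1080432) (44 * m)) := by
  let I : Crv := crv11 hA hH
  have hfund := fund44 hm h1
  have hfund1 : Fund1 (44 * m) := Or.inr hfund
  have h11 : (11 : ℤ) ∣ 44 * m := Dvd.dvd.mul_right ⟨4, by norm_num⟩ m
  have hm0 : m ≠ 0 := hm.ne_zero
  have hfe0 := hF.inn (44 * m) hfund1 h11
  have hsgn : (44 * m).sign = -1 := by rw [Int.sign_mul, hs]; norm_num
  rw [hsgn] at hfe0
  have eq : (((44 * m : ℤ) : ℝ)) ^ 2 / 4 = 484 * (m : ℝ) ^ 2 := by push_cast; ring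
  rw [eq] at hfe0
  have hfe : FEq (tw A (44 * m)) (484 * (m : ℝ) ^ 2) 1 := by simpa using hfe0
  have hLD := ldT hA hH (44 * m)
  have hid : ∀ n, tw A (44 * m) n =
      LA (-13392 * (44 * m) ^ 2) (-1080432 * (44 * m) ^ 3) n := fun n => (hLT _ hfund1 n).symm
  have hpar := P004.QN.rank_parity P004G.pfLent P004G.pfLparity hid hLD hfe
  have heven : Even (aRk (-13392) (-1080432) (44 * m)) := hpar.1 rfl
  obtain ⟨L, hL, hU⟩ := P004G.pfLent _ _ _ hLD hfe
  have hA' : tw A (44 * m) = LA (-13392 * (44 * m) ^ 2) (-1080432 * (44 * m) ^ 3) := funext hid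
  have hrk : aRk (-13392) (-1080432) (44 * m) = analyticOrderNatAt L 1 := by
    have hLD' := hLD
    rw [hA'] at hL hU hLD'
    have hLT' : IsLT (-13392) (-1080432) (44 * m) L := (P004G.isLT_iff hLD').2 hL
    have hUT : ∀ L', IsLT (-13392) (-1080432) (44 * m) L' → L' = L :=
      fun L' h' => hU L' ((P004G.isLT_iff hLD').1 h')
    unfold aRk
    have hex : ∃ L, IsLT (-13392) (-1080432) (44 * m) L := ⟨L, hLT'⟩
    rw [dif_pos hex, hUT _ hex.choose_spec]
  have hth : ∀ u : ℝ, P004G.theta m u = TH (tw A (44 * m)) u := by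
    intro u
    unfold P004G.theta TH
    congr 1
    apply tsum_congr
    intro n
    rw [tw_class hA hH m n]
    unfold P004.chi
    push_cast
    rfl
  refine ⟨⟨by positivity, fun u hu => ?_⟩, hfund, heven, ?_⟩
  · have h5 := hfe.2.2 u hu
    rw [hth, hth]
    exact h5
  · rw [hrk]
    exact P004G.pfVan1 m _ _ _ L hLD hfe hL (fun n _ => tw_class hA hH m n)

section

variable {A : ℕ → ℤ} (hA : Co A) (hH : ∀ p : ℕ, p.Prime → (A p) ^ 2 ≤ 4 * p)

open scoped Classical in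
/-- the good set -/
noncomputable def Gd (N Y : ℕ) : Finset ℤ :=
  (sqZ Y).filter (fun m => m < 0 ∧ m % (N : ℤ) = 1 ∧
    (aRk (-13392) (-1080432) (44 * m) = 0 ∨ aRk (-13392) (-1080432) (44 * m) = 2))

include hA hH in
theorem count11 (hLT : ∀ D : ℤ, Fund1 D → ∀ n : ℕ, LT D n = A n * kron D n) (hF : FE11 A)
    (hmod : @StFirst2 (crv11 hA hH) ∧ @StWin (crv11 hA hH) ∧ @StMr (crv11 hA hH) ∧
      @StBlk (crv11 hA hH) ∧ @StStrip (crv11 hA hH)) {N : ℕ} (hN : 0 < N) (h88 : 88 ∣ N) :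
    ∃ c : ℝ, 0 < c ∧ ∃ Y₀ : ℕ, ∀ Y : ℕ, Y₀ ≤ Y → c * Y ≤ ((Gd N Y).card : ℝ) := by
  classical
  let I : Crv := crv11 hA hH
  obtain ⟨h1, h2, h3, h4, h5⟩ := hmod
  have h88' : ∀ m : ℤ, m % (N : ℤ) = 1 → m % 88 = 1 := by
    intro m hm
    have h6 : (N : ℤ) ∣ m - 1 := Int.dvd_self_sub_of_emod_eq hm
    have h7 : (88 : ℤ) ∣ m - 1 := Dvd.dvd.trans (by exact_mod_cast h88) h6
    omega
  have hcls := fun (m : ℤ) (hm : Squarefree m) (hs : m.sign = -1) (hm1 : m % (N : ℤ) = 1) =>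
    class11 hA hH hLT hF hm hs (h88' m hm1)
  obtain ⟨c, hc, Y₀, hY₀⟩ := good_count h1 h2 h3 h4 h5 (σ := -1) (N := N) (q₀ := 484)
    (Or.inr rfl) hN (Dvd.dvd.trans ⟨11, rfl⟩ h88)
    (Dvd.dvd.trans (show bd ∣ 88 from ⟨4, rfl⟩) h88) (by norm_num)
    (fun m hm hs hm1 _ => (hcls m hm hs hm1).1)
  refine ⟨c, hc, Y₀, fun Y hY => ?_⟩
  refine (hY₀ Y hY).trans ?_
  refine Nat.cast_le.2 (Finset.card_le_card fun m hm => ?_)
  obtain ⟨hm1, hm2⟩ := mem_TG.1 hm
  unfold Cl at hm1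
  rw [Finset.mem_filter, mem_sqZ] at hm1
  obtain ⟨⟨g1, g2⟩, g3, g4, g5⟩ := hm1
  obtain ⟨-, -, g6, g7⟩ := hcls m g2 g4 g5
  unfold Gd
  rw [Finset.mem_filter, mem_sqZ]
  refine ⟨⟨g1, g2⟩, Int.sign_eq_neg_one_iff_neg.1 g4, g5, ?_⟩
  have hle : aRk (-13392) (-1080432) (44 * m) < 3 := by
    by_contra hne
    apply hm2
    intro j hj
    apply g7 j
    omega
  obtain ⟨k, hk⟩ := g6
  omega

end

open scoped Classical in
/-- **rank `0` or `2`** for the twists of the twist by `d` -/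
theorem rank_two_d {A : ℕ → ℤ} (hA : Co A) (hH : ∀ p : ℕ, p.Prime → (A p) ^ 2 ≤ 4 * p)
    (hLT : ∀ D : ℤ, Fund1 D → ∀ n : ℕ, LT D n = A n * kron D n) (hF : FE11 A) (hIso : StIso)
    (hmod : @StFirst2 (crv11 hA hH) ∧ @StWin (crv11 hA hH) ∧ @StMr (crv11 hA hH) ∧
      @StBlk (crv11 hA hH) ∧ @StStrip (crv11 hA hH)) {d : ℤ} (hd : d ≠ 0) :
    ∃ c : ℝ, 0 < c ∧ ∃ X₀ : ℕ, ∀ X : ℕ, X₀ ≤ X →
      c * X ≤ (((P004.Fam X).filter
        (fun D => aRk (-13392 * d ^ 2) (-1080432 * d ^ 3) D = 0 ∨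
          aRk (-13392 * d ^ 2) (-1080432 * d ^ 3) D = 2)).card : ℝ) := by
  obtain ⟨s, g, hs, hg, rfl⟩ := exists_sqf d hd
  set e := s11 s with he
  have hes : Squarefree e := s11_sqf hs
  have he0 : e ≠ 0 := hes.ne_zero
  have hs0 : s ≠ 0 := hs.ne_zero
  -- `s e = 11 w²`
  obtain ⟨w, hw0, hw⟩ : ∃ w : ℤ, w ≠ 0 ∧ s * e = 11 * w ^ 2 := by
    rw [he]
    unfold s11
    split_ifs with h
    · obtain ⟨c, rfl⟩ := h
      rw [Int.mul_ediv_cancel_left _ (by norm_num)]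
      refine ⟨c, ?_, by ring⟩
      rintro rfl
      exact hs0 (by norm_num)
    · exact ⟨s, hs0, by ring⟩
  set E₀ := Dm e with hE₀
  obtain ⟨δ, t, hδ, ht0, ht⟩ : ∃ δ t : ℤ, E₀ = δ * e ∧ t ≠ 0 ∧ δ * t ^ 2 = 4 := by
    rw [hE₀]
    unfold Dm
    split_ifs
    · exact ⟨1, 2, by ring, by norm_num, by norm_num⟩
    · exact ⟨4, 1, by ring, by norm_num, by norm_num⟩
  have hδ0 : δ ≠ 0 := by rintro rfl; norm_num at ht
  have hE₀0 : E₀ ≠ 0 := by rw [hδ]; exact mul_ne_zero hδ0 he0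
  set N : ℕ := 88 * e.natAbs with hN
  have hN0 : 0 < N := Nat.mul_pos (by norm_num) (Int.natAbs_pos.2 he0)
  obtain ⟨c, hc, Y₀, hY⟩ := count11 hA hH hLT hF hmod hN0 (Dvd.intro _ rfl)
  set K := E₀.natAbs with hK
  have hK0 : 0 < K := Int.natAbs_pos.2 hE₀0
  refine ⟨c / (2 * K), by positivity, K * (Y₀ + 1), fun X hX => ?_⟩
  set Y := X / K with hYdef
  have hYY₀ : Y₀ + 1 ≤ Y := by
    rw [hYdef, Nat.le_div_iff_mul_le hK0]
    linarith [Nat.mul_comm K (Y₀ + 1)]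
  have hYX : K * Y ≤ X := Nat.mul_div_le X K
  have hXY : X < K * (Y + 1) := by
    have := Nat.lt_mul_div_succ X hK0
    simpa using this
  have h1 := hY Y (by omega)
  have h2 : c / (2 * K) * X ≤ c * Y := by
    have h3 : (X : ℝ) ≤ K * (Y + 1) := by exact_mod_cast hXY.le
    have h4 : (1 : ℝ) ≤ Y := by exact_mod_cast (by omega : 1 ≤ Y)
    have h5 : (0 : ℝ) < K := by exact_mod_cast hK0
    rw [div_mul_eq_mul_div, div_le_iff₀ (by positivity)]
    have h6 : (X : ℝ) ≤ K * (2 * Y) := h3.trans (by gcongr; linarith)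
    calc c * X ≤ c * (K * (2 * Y)) := by gcongr
      _ = _ := by ring
  refine h2.trans (h1.trans ?_)
  refine Nat.cast_le.2 (Finset.card_le_card_of_injOn (fun m => m * E₀) ?_ ?_)
  · intro m hm
    have hm' : m ∈ Gd N Y := hm
    let I : Crv := crv11 hA hH
    unfold Gd at hm'
    rw [Finset.mem_filter, mem_sqZ] at hm'
    obtain ⟨⟨g1, g2⟩, g3, g5, g6⟩ := hm'
    have hNm : (N : ℤ) ∣ m - 1 := Int.dvd_self_sub_of_emod_eq g5
    have h88 : (88 : ℤ) ∣ m - 1 := Dvd.dvd.trans (by rw [hN]; exact ⟨e.natAbs, by push_cast; ring⟩) hNm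
    have hem : e ∣ m - 1 := by
      refine Dvd.dvd.trans ?_ hNm
      rw [hN]
      push_cast
      exact Dvd.dvd.mul_left ((dvd_abs e e).2 dvd_rfl) 88
    have hcop : IsCoprime m e := by
      obtain ⟨k, hk⟩ := hem
      exact ⟨1, -k, by linear_combination hk⟩
    have hme : Squarefree (m * e) := by
      rw [squarefree_mul_iff]
      exact ⟨hcop.isRelPrime, g2, hes⟩
    have hm4 : m % 4 = 1 := by omega
    have hDm : Dm (m * e) = m * E₀ := by
      rw [hE₀]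
      unfold Dm
      have : (m * e) % 4 = e % 4 := by
        rw [Int.mul_emod, hm4, one_mul, Int.emod_emod_of_dvd _ (dvd_refl 4)]
      rw [this]
      split_ifs <;> ring
    have hne : m * e ≠ 1 := by
      intro h
      have h8 := Int.eq_one_or_neg_one_of_mul_eq_one h
      omega
    have hfd := isFund_Dm hme hne
    rw [hDm] at hfd
    change m * E₀ ∈ _
    rw [Finset.mem_coe, Finset.mem_filter]
    unfold P004.Fam
    rw [Finset.mem_filter, Finset.mem_Icc]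
    have hm0 : m ≠ 0 := by omega
    have hrk : aRk (-13392 * (s * g ^ 2) ^ 2) (-1080432 * (s * g ^ 2) ^ 3) (m * E₀) =
        aRk (-13392) (-1080432) (44 * m) := by
      apply aRk_congr
      intro n
      have e1 : -13392 * (s * g ^ 2) ^ 2 * (m * E₀) ^ 2 = -13392 * (s * g ^ 2 * (m * E₀)) ^ 2 := by
        ring
      have e2 : -1080432 * (s * g ^ 2) ^ 3 * (m * E₀) ^ 3 =
          -1080432 * (s * g ^ 2 * (m * E₀)) ^ 3 := by ring
      rw [e1, e2]
      refine hIso _ _ t (g * w) ?_ (by omega) ht0 (mul_ne_zero hg hw0) ?_ n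
      · exact mul_ne_zero (mul_ne_zero hs0 (pow_ne_zero _ hg)) (mul_ne_zero hm0 hE₀0)
      · rw [hδ]
        linear_combination (g ^ 2 * m * δ * t ^ 2) * hw + (11 * w ^ 2 * g ^ 2 * m) * ht
    refine ⟨⟨?_, hfd⟩, ?_⟩
    · have h9 : (m * E₀).natAbs ≤ X := by
        rw [Int.natAbs_mul]
        calc m.natAbs * E₀.natAbs ≤ Y * K := Nat.mul_le_mul (by omega) le_rfl
          _ = K * Y := by ring
          _ ≤ X := hYX
      omega
    · rw [hrk]
      exact g6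
  · intro m _ m' _ h
    exact mul_right_cancel₀ hE₀0 h

/-- the modules F, W, M, S -/
theorem modules2 [Crv] (hTF : StTF) (hM : StMert) (hN0 : StN0) (hN1 : StN1w) (hH : StHlam) :
    StFirst2 ∧ StWin ∧ StMr ∧ StBlk ∧ StStrip := by
  obtain ⟨-, h2, h3, h4, h5⟩ := modulesW hTF hM hN0 hN1 hH
  exact ⟨P004E.Two.pfFirst2_of (P004E.Two.pfMainVal2 hM)
      (fun N D hN h2 σ hσ ε κ hε hε1 hκ => P004E.Two.swap N D hN h2 hσ hε hε1 hκ) h2,
    h2, h3, h4, h5⟩

open scoped Classical in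
/-- **Analytic rank `0` or `2`** for a positive proportion of the quadratic twists of
`y² = x³ - 13392 d² x - 1080432 d³`, `d ≠ 0`: every elliptic curve over `ℚ` with the
`j`-invariant of `X_0(11)`. -/
theorem rank_two {d : ℤ} (hd : d ≠ 0) : ∃ c : ℝ, 0 < c ∧ ∃ X₀ : ℕ, ∀ X : ℕ, X₀ ≤ X →
      c * X ≤ (((P004.Fam X).filter
        (fun D => aRk (-13392 * d ^ 2) (-1080432 * d ^ 3) D = 0 ∨
          aRk (-13392 * d ^ 2) (-1080432 * d ^ 3) D = 2)).card : ℝ) := by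
  have h3 : H792.a 3 = -1 := by
    have := Vale.Agent.P004H.H792.a_table
    tauto
  have hF := fe11_of r7F
  exact rank_two_d coF hasse_all r7F hF stIso
    (@modules2 (crv11 coF hasse_all) (tf11 coF hasse_all hF) stMertF stN0F stN1F
      (stHlam coF hasse_all h3)) hd

end P004H.Two
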