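import Vale.Agent.P004.R2.H880.TailExp
import Vale.Agent.P004.R2.H880.TailExpy

/-!
# P004: the tail with uniform constants implies the earlier one
-/

open Real

namespace P004G

theorem TailExpy.tailExp {a b : ℤ} (h : TailExpy a b) : TailExp a b := by
  classical
  obtain ⟨c, δ, C, hc, hδ, hC, h⟩ := h
  refine ⟨c, hc, fun B => ?_⟩
  obtain ⟨n, hn⟩ : ∃ n : ℕ, n = ⌈(B : ℝ) / δ⌉₊ := ⟨_, rfl⟩
  have hnB : (B : ℝ) ≤ δ * n := by
    have h1 : (B : ℝ) / δ ≤ n := by rw [hn]; exact Nat.le_ceil _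
    rw [div_le_iff₀ hδ] at h1
    linarith
  obtain ⟨K, hK⟩ : ∃ K : ℝ, K = (n.factorial : ℝ) / c ^ n := ⟨_, rfl⟩
  have hn0 : (0 : ℝ) < (n.factorial : ℝ) := by exact_mod_cast n.factorial_pos
  have hK0 : 0 < K := by rw [hK]; positivity
  refine ⟨C * (1 + K), by positivity, fun X hX z hz => (h X hX z hz).trans ?_⟩
  have hX0 : (3 : ℝ) ≤ X := by exact_mod_cast hX
  have hL1 : 1 ≤ Real.log X := by
    rw [Real.le_log_iff_exp_le (by linarith)]
    linarith [Real.exp_one_lt_d9]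
  obtain ⟨L, hL⟩ : ∃ L : ℝ, L = Real.log X := ⟨_, rfl⟩
  rw [← hL] at hL1 ⊢
  have hL0 : 0 < L := by linarith
  have hpow : 0 < L ^ (-(B : ℝ)) := Real.rpow_pos_of_pos hL0 _
  have h1 : Real.exp (-c * L ^ δ) ≤ K * L ^ (-(B : ℝ)) := by
    have h2 : (c * L ^ δ) ^ n / (n.factorial : ℝ) ≤ Real.exp (c * L ^ δ) :=
      Real.pow_div_factorial_le_exp _ (by positivity) n
    have h3 : L ^ (B : ℝ) ≤ (L ^ δ) ^ n := by
      rw [← Real.rpow_natCast (L ^ δ) n, ← Real.rpow_mul hL0.le]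
      exact Real.rpow_le_rpow_of_exponent_le hL1 hnB
    have h4 : L ^ (B : ℝ) ≤ K * Real.exp (c * L ^ δ) := by
      have h5 : (L ^ δ) ^ n = K * ((c * L ^ δ) ^ n / (n.factorial : ℝ)) := by
        rw [hK, mul_pow]
        field_simp
      calc L ^ (B : ℝ) ≤ (L ^ δ) ^ n := h3
        _ = K * ((c * L ^ δ) ^ n / (n.factorial : ℝ)) := h5
        _ ≤ K * Real.exp (c * L ^ δ) := by gcongr
    rw [Real.rpow_neg hL0.le, ← div_eq_mul_inv, le_div_iff₀ (Real.rpow_pos_of_pos hL0 _)]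
    calc Real.exp (-c * L ^ δ) * L ^ (B : ℝ) ≤ Real.exp (-c * L ^ δ) *
          (K * Real.exp (c * L ^ δ)) := by gcongr
      _ = K * (Real.exp (-c * L ^ δ) * Real.exp (c * L ^ δ)) := by ring
      _ = K := by rw [← Real.exp_add]; simp
  have h2 : Real.exp (-c * min z (L ^ δ)) ≤ (1 + K) * (Real.exp (-c * z) + L ^ (-(B : ℝ))) := by
    have e1 := Real.exp_pos (-c * z)
    rcases min_choice z (L ^ δ) with h3 | h3
    · rw [h3]
      nlinarith [mul_pos hK0 e1, mul_pos hK0 hpow]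
    · rw [h3]
      refine h1.trans ?_
      nlinarith [mul_pos hK0 e1, mul_pos hK0 hpow]
  calc C * (((P004.Fam X).card : ℕ) : ℝ) * Real.exp (-c * min z (L ^ δ))
      ≤ C * (((P004.Fam X).card : ℕ) : ℝ) * ((1 + K) * (Real.exp (-c * z) + L ^ (-(B : ℝ)))) := by
        gcongr
    _ = _ := by ring

end P004G
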