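import Vale.Agent.P004.R2.H123.Iface
import Vale.Agent.P004G.H503.Fin2

/-!
# P004: exponentially decreasing tails of the analytic rank, from `StMomx`
-/

open Real MeasureTheory Set Filter
open scoped ENNReal Topology

namespace P004G

open ML
open P004 (IsFund Fam)

open scoped Classical in
/-- the number of twists of rank `≥ z` is `≤ C_B #Fam X (exp(-c z) + (log X)^(-B))` -/
def TailExp (a b : ℤ) : Prop :=
  ∃ c : ℝ, 0 < c ∧ ∀ B : ℕ, ∃ C : ℝ, 0 < C ∧ ∀ X : ℕ, 3 ≤ X → ∀ z : ℝ, 0 ≤ z →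
    (((Fam X).filter (fun D => z ≤ (aRk a b D : ℝ))).card : ℝ) ≤
      C * ((Fam X).card : ℝ) * (Real.exp (-c * z) + Real.log X ^ (-(B : ℝ)))

theorem tailExp_of (hMain : ∀ [Crv], StTF → StMomx) (hV : ∀ [Crv], StVan1) (hG : StMLG)
    (hB : StLbound) (hEnt : StLent) {a b : ℤ}
    (hd : 4 * a ^ 3 + 27 * b ^ 2 ≠ 0) (hM : Modl a b) : TailExp a b := by
  classical
  let I : Crv := crv hd hG hB hM
  -- the data of one twist
  have hdata : ∀ D, Fund1 D → ∃ (q κ : ℝ) (L : ℂ → ℂ), LD (LA (a * D ^ 2) (b * D ^ 3)) ∧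
      FEq (LA (a * D ^ 2) (b * D ^ 3)) q κ ∧ IsL (LA (a * D ^ 2) (b * D ^ 3)) L ∧
      aRk a b D = analyticOrderNatAt L 1 := by
    intro D hD
    obtain ⟨C, hC, hfe⟩ := hM.fe
    obtain ⟨N, κ, hN, hκ, h1, h2, h3⟩ := hfe D hD
    have hLD := ld_of hd hG hM D hD
    have hFE := feq_of hN hκ h3
    obtain ⟨L, hL, hU⟩ := hEnt _ _ _ hLD hFE
    have hLT : IsLT a b D L := (isLT_iff hLD).2 hL
    have hUT : ∀ L', IsLT a b D L' → L' = L := fun L' h' => hU L' ((isLT_iff hLD).1 h')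
    refine ⟨N / 4, κ, L, hLD, hFE, hL, ?_⟩
    unfold aRk
    have hex : ∃ L, IsLT a b D L := ⟨L, hLT⟩
    rw [dif_pos hex, hUT _ hex.choose_spec]
  have hTF : StTF := tf_of hd hG hB hM
  have hmom := hMain hTF
  have hvan : ∀ m : ℤ, Squarefree m → m ≠ 1 → Van m (aRk a b (Dm m)) := by
    intro m hm _
    obtain ⟨q, κ, L, hLD, hFE, hL, hrk⟩ := hdata (Dm m) (fund1_Dm hm)
    rw [hrk]
    refine hV m _ q κ L hLD hFE hL fun n hn => ?_
    have hn' : n.Coprime (bdE a b) := hn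
    have hodd : Odd n := by
      rw [← Nat.coprime_two_right]
      exact hn'.coprime_dvd_right (two_dvd_bdE a b)
    rw [(hG a b hd (Dm m) (fund1_Dm hm)).2.2 n hn', jacobi_Dm m hodd]
    congr 1
    change _ = (if n.Coprime (bdE a b) then LA a b n else 0)
    rw [if_pos hn']
  obtain ⟨c, hc, htail⟩ := hmom (fun m => aRk a b (Dm m)) hvan
  obtain ⟨c₀, hc₀, hcount⟩ := P004.pfCount
  refine ⟨c, hc, fun B => ?_⟩
  obtain ⟨C, hC, h⟩ := htail B
  refine ⟨C / c₀, by positivity, fun X hX z hz => ?_⟩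
  have h1 := h X hX z hz
  have h2 := fam_card_le X (fun D => z ≤ (aRk a b D : ℝ))
  have h3 : (((Fam X).filter (fun D => z ≤ (aRk a b D : ℝ))).card : ℝ) ≤
      (((sqZ X).filter (fun m => m ≠ 1 ∧ z ≤ (aRk a b (Dm m) : ℝ))).card : ℝ) := by
    exact_mod_cast h2
  have h4 := hcount X hX
  have hX0 : (3 : ℝ) ≤ X := by exact_mod_cast hX
  have hlogX : 0 ≤ Real.log X := Real.log_nonneg (by linarith)
  have h5 : 0 ≤ Real.exp (-c * z) + Real.log X ^ (-(B : ℝ)) := by positivity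
  refine h3.trans (h1.trans ?_)
  refine mul_le_mul_of_nonneg_right ?_ h5
  rw [div_mul_eq_mul_div, le_div_iff₀ hc₀]
  nlinarith

end P004G
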